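import Crest.Agent.R81.Defs

/-!
# Row 81, module Approx

The statement and the recipe are in `R81/Defs.lean` (`ApproxStmt`).
-/

set_option autoImplicit false

open MeasureTheory Finset Crest.AnalysisR.Torus3 Crest.Agent.R75
open scoped InnerProductSpace ComplexConjugate ContDiff

namespace Crest.Agent.R81

namespace Approx

/-- A fibre function bounded by `η` on the good interval has norm at most `η`. -/
theorem norm_fib_le (α : ℝ) (m : ℤ × ℤ) {ψ : ℝ → ℂ} (hψ : Continuous ψ) {η : ℝ} (hη : 0 ≤ η)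
    (h : ∀ y ∈ Set.Icc α (1 - α), ‖ψ y‖ ≤ η) : ‖fib α m ψ‖ ≤ η := by
  have h1 : ∀ᵐ x ∂(volume : Measure T3), ‖fib α m ψ x‖ ≤ η := by
    filter_upwards [coeFn_fib α m hψ] with x hx
    rw [hx, fibF, norm_mul, norm_ee, mul_one]
    by_cases h2 : rep (x 1) ∈ Set.Icc α (1 - α)
    · rw [Set.indicator_of_mem h2]; exact h _ h2
    · rw [Set.indicator_of_notMem h2]; simpa using hη
  have h2 := Lp.norm_le_of_ae_bound hη h1
  have h3 : measureUnivNNReal (volume : Measure T3) = 1 := by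
    simp [measureUnivNNReal]
  rw [h3] at h2
  simpa using h2

/-- Urysohn's lemma for a finite disjoint family of closed sets. -/
theorem exists_urysohn {X ι : Type*} [TopologicalSpace X] [NormalSpace X] (G : Finset ι)
    (K : ι → Set X) (hK : ∀ m ∈ G, IsClosed (K m))
    (hd : ∀ m ∈ G, ∀ m' ∈ G, ∀ x, x ∈ K m → x ∈ K m' → m = m') (a : ι → ℂ) :
    ∃ Φ : C(X, ℂ), (∀ x, ‖Φ x‖ ≤ ∑ m ∈ G, ‖a m‖) ∧ ∀ m ∈ G, ∀ x ∈ K m, Φ x = a m := by
  classical
  have h1 : ∀ m : ι, ∃ f : C(X, ℝ), m ∈ G → (∀ m' ∈ G, m' ≠ m → ∀ x ∈ K m', f x = 0) ∧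
      (∀ x ∈ K m, f x = 1) ∧ ∀ x, f x ∈ Set.Icc (0 : ℝ) 1 := by
    intro m
    by_cases hm : m ∈ G
    · have hc : IsClosed (⋃ m' ∈ G.erase m, K m') :=
        isClosed_biUnion_finset fun m' hm' => hK m' (mem_of_mem_erase hm')
      have hdis : Disjoint (⋃ m' ∈ G.erase m, K m') (K m) := by
        rw [Set.disjoint_left]
        intro x hx hx'
        simp only [Set.mem_iUnion] at hx
        obtain ⟨m', hm', hx⟩ := hx
        exact (ne_of_mem_erase hm') (hd m' (mem_of_mem_erase hm') m hm x hx hx')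
      obtain ⟨f, hf0, hf1, hf⟩ := exists_continuous_zero_one_of_isClosed hc (hK m hm) hdis
      refine ⟨f, fun _ => ⟨fun m' hm' hne x hx => ?_, fun x hx => hf1 hx, hf⟩⟩
      apply hf0
      simp only [Set.mem_iUnion]
      exact ⟨m', mem_erase.2 ⟨hne, hm'⟩, hx⟩
    · exact ⟨0, fun h => absurd h hm⟩
  choose f hf using h1
  refine ⟨⟨fun x => ∑ m ∈ G, a m * (f m x : ℂ), by fun_prop⟩, fun x => ?_, fun m hm x hx => ?_⟩
  · refine (norm_sum_le _ _).trans (sum_le_sum fun m hm => ?_)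
    rw [norm_mul, Complex.norm_real, Real.norm_eq_abs]
    have h2 := (hf m hm).2.2 x
    have h3 : |f m x| ≤ 1 := abs_le.2 ⟨by linarith [h2.1], h2.2⟩
    exact mul_le_of_le_one_right (norm_nonneg _) h3
  · show ∑ m' ∈ G, a m' * (f m' x : ℂ) = a m
    rw [sum_eq_single_of_mem m hm]
    · rw [(hf m hm).2.1 x hx]; simp
    · intro m' hm' hne
      rw [(hf m' hm').1 m hm hne.symm x hx]; simp

/-- Trigonometric Weierstrass theorem on the circle. -/
theorem exists_trig (Φ : C(UnitAddCircle, ℂ)) {η : ℝ} (hη : 0 < η) :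
    ∃ (A : Finset ℤ) (p : ℤ → ℂ), ∀ t : ℝ,
      ‖∑ n ∈ A, p n * ee (n * t) - Φ (t : UnitAddCircle)‖ ≤ η := by
  have h1 : Φ ∈ (Submodule.span ℂ (Set.range <| @fourier 1)).topologicalClosure := by
    rw [span_fourier_closure_eq_top]; trivial
  have h2 : Φ ∈ closure ((Submodule.span ℂ (Set.range <| @fourier 1) :
      Submodule ℂ C(UnitAddCircle, ℂ)) : Set C(UnitAddCircle, ℂ)) := h1
  obtain ⟨P, hP, hd⟩ := Metric.mem_closure_iff.1 h2 η hη
  obtain ⟨c, rfl⟩ := Finsupp.mem_span_range_iff_exists_finsupp.1 hP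
  refine ⟨c.support, c, fun t => ?_⟩
  have h3 := ContinuousMap.dist_apply_le_dist (f := Φ) (g := c.sum fun i a => a • fourier i)
    (t : UnitAddCircle)
  have h4 : (c.sum fun i a => a • (fourier i : C(UnitAddCircle, ℂ))) (t : UnitAddCircle) =
      ∑ n ∈ c.support, c n * ee (n * t) := by
    rw [Finsupp.sum, ContinuousMap.sum_apply]
    refine sum_congr rfl fun n _ => ?_
    rw [ContinuousMap.smul_apply, fourier_coe_apply, smul_eq_mul, ee]
    congr 2
    push_cast; ring
  rw [h4, dist_comm, dist_eq_norm] at h3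
  exact h3.trans hd.le

theorem continuous_freq (M : Model) (m : ℤ × ℤ) : Continuous (M.freq m) := by
  unfold Model.freq; fun_prop

end Approx

open Approx in
theorem approx_of (h1 : FibStmt) : ApproxStmt := by
  intro M S a ε hV hS hε
  set I : Set ℝ := Set.Icc M.α (1 - M.α) with hI
  let K : ℤ × ℤ → Set UnitAddCircle := fun m => (fun y => ((M.freq m y : ℝ) : UnitAddCircle)) '' I
  have hK : ∀ m ∈ M.G, IsClosed (K m) := by
    intro m _
    refine (isCompact_Icc.image ?_).isClosed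
    exact (AddCircle.continuous_mk' 1).comp (continuous_freq M m)
  have hd : ∀ m ∈ M.G, ∀ m' ∈ M.G, ∀ x, x ∈ K m → x ∈ K m' → m = m' := by
    rintro m hm m' hm' x ⟨y, hy, rfl⟩ ⟨y', hy', he⟩
    obtain ⟨n, hn⟩ := (coe_eq_coe_iff _ _).1 he.symm
    exact (hV.disj m hm m' hm' y hy y' hy' n hn).1
  obtain ⟨Φ, hΦ, hΦK⟩ := exists_urysohn M.G K hK hd a
  set C : ℝ := ∑ m ∈ M.G, ‖M.c m‖ with hC
  have hC0 : 0 ≤ C := sum_nonneg fun _ _ => norm_nonneg _
  set η : ℝ := min 1 (ε / (C + 1)) with hηdef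
  have hη : 0 < η := lt_min one_pos (by positivity)
  obtain ⟨A, p, hp⟩ := exists_trig Φ hη
  refine ⟨A, p, fun t => ?_, ?_⟩
  · have e : ∑ n ∈ A, p n * ee (n * t) =
        Φ (t : UnitAddCircle) + (∑ n ∈ A, p n * ee (n * t) - Φ (t : UnitAddCircle)) := by ring
    rw [e]
    exact (norm_add_le _ _).trans (add_le_add (hΦ _) ((hp t).trans (min_le_left _ _)))
  · have hcont : ∀ m : ℤ × ℤ, Continuous fun y : ℝ => ee (M.θ m * y) := fun m => by fun_prop
    have hcont2 : ∀ (m : ℤ × ℤ) (n : ℤ),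
        Continuous fun y : ℝ => ee (M.θ m * y) * ee (n * M.freq m y) := fun m n => by
      have := continuous_freq M m
      fun_prop
    have e1 : ∀ m : ℤ × ℤ, ∑ n ∈ A, p n • kp (S ^ n) (atom M.α m (M.θ m)) =
        fib M.α m fun y => ∑ n ∈ A, p n * (ee (M.θ m * y) * ee (n * M.freq m y)) := by
      intro m
      rw [fib_sum M.α m A (φ := fun n y => p n * (ee (M.θ m * y) * ee (n * M.freq m y)))
        fun n _ => continuous_const.mul (hcont2 m n)]
      refine sum_congr rfl fun n _ => ?_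
      rw [fib_smul _ _ _ (hcont2 m n), atom, h1.kp_fib M S n m _ hV.goodE hS (hcont m)]
    have e2 : ∑ n ∈ A, p n • kp (S ^ n) M.g =
        ∑ m ∈ M.G, M.c m • ∑ n ∈ A, p n • kp (S ^ n) (atom M.α m (M.θ m)) := by
      simp only [Model.g, map_sum, map_smul, smul_sum]
      rw [sum_comm]
      refine sum_congr rfl fun m _ => sum_congr rfl fun n _ => smul_comm _ _ _
    rw [e2, ← sum_sub_distrib]
    have e3 : ∀ m ∈ M.G, ‖M.c m • ∑ n ∈ A, p n • kp (S ^ n) (atom M.α m (M.θ m)) -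
        (a m * M.c m) • atom M.α m (M.θ m)‖ ≤ ‖M.c m‖ * η := by
      intro m hm
      have hc3 : Continuous fun y : ℝ =>
          ∑ n ∈ A, p n * (ee (M.θ m * y) * ee (n * M.freq m y)) :=
        continuous_finsetSum _ fun n _ => continuous_const.mul (hcont2 m n)
      have hc4 : Continuous fun y : ℝ => a m * ee (M.θ m * y) := continuous_const.mul (hcont m)
      rw [mul_comm (a m), mul_smul, ← smul_sub, norm_smul, e1 m, atom,
        ← fib_smul _ _ _ (hcont m), ← fib_sub _ _ hc3 hc4]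
      refine mul_le_mul_of_nonneg_left ?_ (norm_nonneg _)
      refine norm_fib_le _ _ (hc3.sub hc4) hη.le fun y hy => ?_
      have e4 : ∑ n ∈ A, p n * (ee (M.θ m * y) * ee (n * M.freq m y)) - a m * ee (M.θ m * y) =
          ee (M.θ m * y) * (∑ n ∈ A, p n * ee (n * M.freq m y) -
            Φ ((M.freq m y : ℝ) : UnitAddCircle)) := by
        rw [hΦK m hm _ ⟨y, hy, rfl⟩, mul_sub, mul_sum]
        congr 1
        · exact sum_congr rfl fun n _ => by ring
        · ring
      simp only [Pi.sub_apply]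
      rw [e4, norm_mul, norm_ee, one_mul]
      exact hp _
    refine (norm_sum_le _ _).trans ((sum_le_sum e3).trans ?_)
    rw [← sum_mul, ← hC]
    have h5 : η ≤ ε / (C + 1) := min_le_right _ _
    calc C * η ≤ (C + 1) * (ε / (C + 1)) := by
          apply mul_le_mul (by linarith) h5 hη.le (by linarith)
      _ = ε := by field_simp

end Crest.Agent.R81
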