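import Crest.Prelude.Def_Torus3
import Crest.Agent.R75.Defs

/-!
# Row 81 (S0108): basic objects

Torus diffeomorphisms with a chosen lift (`TD`, a group), their Koopman isometries (`kp`),
fibre functions (`fib`, `atom`), characters (`ch`) and `C^r`-closeness (`CClose`, `TClose`).
The statements of the modules are in `R81/Defs.lean`, the paper proof in `R81/Blueprint.lean`.
-/

set_option autoImplicit false

open MeasureTheory Finset Crest.AnalysisR.Torus3 Crest.Agent.R75
open scoped InnerProductSpace ComplexConjugate ContDiff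

namespace Crest.Agent.R81

/-- Euclidean three-space (sup norm), the universal cover of the torus. -/
abbrev R3 : Type := Fin 3 → ℝ

/-- Complex square-integrable functions on the torus. -/
abbrev L2 : Type := Lp ℂ 2 (volume : Measure T3)

instance probCircle : IsProbabilityMeasure (volume : Measure UnitAddCircle) :=
  ⟨UnitAddCircle.measure_univ⟩

instance probT3 : IsProbabilityMeasure (volume : Measure T3) :=
  inferInstanceAs (IsProbabilityMeasure (Measure.pi fun _ : Fin 3 => (volume : Measure UnitAddCircle)))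

/-! ## The projection -/

theorem isOpenQuotientMap_proj : IsOpenQuotientMap proj :=
  IsOpenQuotientMap.piMap (f := fun _ : Fin 3 => (QuotientAddGroup.mk : ℝ → UnitAddCircle))
    fun _ => QuotientAddGroup.isOpenQuotientMap_mk

theorem proj_surjective : Function.Surjective proj := isOpenQuotientMap_proj.surjective

@[fun_prop] theorem continuous_proj : Continuous proj := isOpenQuotientMap_proj.continuous

theorem coe_eq_coe_iff (x y : ℝ) :
    (x : UnitAddCircle) = (y : UnitAddCircle) ↔ ∃ n : ℤ, x - y = n := by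
  rw [← sub_eq_zero, ← AddCircle.coe_sub, AddCircle.coe_eq_zero_iff]
  constructor
  · rintro ⟨n, hn⟩; exact ⟨n, by simpa using hn.symm⟩
  · rintro ⟨n, hn⟩; exact ⟨n, by simpa using hn.symm⟩

theorem proj_eq_iff (x y : R3) : proj x = proj y ↔ ∀ i, ∃ n : ℤ, x i - y i = n := by
  simp only [funext_iff, proj, coe_eq_coe_iff]

theorem proj_add_int (x : R3) (n : Fin 3 → ℤ) : proj (x + fun i => (n i : ℝ)) = proj x :=
  (proj_eq_iff _ _).2 fun i => ⟨n i, by simp⟩

theorem dist_proj_le (x y : R3) : dist (proj x) (proj y) ≤ ‖x - y‖ := by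
  rw [dist_pi_le_iff (norm_nonneg _)]
  intro i
  have h1 : dist (proj x i) (proj y i) ≤ ‖x i - y i‖ := by
    rw [dist_eq_norm]
    show ‖((x i : ℝ) : UnitAddCircle) - ((y i : ℝ) : UnitAddCircle)‖ ≤ _
    rw [← AddCircle.coe_sub]
    exact QuotientAddGroup.norm_mk_le_norm
  exact h1.trans (norm_le_pi_norm (x - y) i)

/-- The representative in `[0,1)` of a point of the circle. -/
noncomputable def rep (y : UnitAddCircle) : ℝ := (AddCircle.equivIco 1 0 y : ℝ)

@[simp] theorem rep_coe (x : ℝ) : rep (x : UnitAddCircle) = Int.fract x := by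
  simp [rep]

@[simp] theorem rep_proj (x : R3) (i : Fin 3) : rep (proj x i) = Int.fract (x i) := rep_coe _

@[simp] theorem coe_rep (y : UnitAddCircle) : ((rep y : ℝ) : UnitAddCircle) = y :=
  AddCircle.coe_equivIco

@[fun_prop] theorem measurable_rep : Measurable rep :=
  measurable_subtype_coe.comp (AddCircle.measurableEquivIco 1 0).measurable

theorem rep_mem (y : UnitAddCircle) : rep y ∈ Set.Ico (0 : ℝ) 1 := by
  simpa [rep] using (AddCircle.equivIco 1 0 y).2

theorem proj_rep (x : T3) : proj (fun i => rep (x i)) = x := by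
  funext i; simp [proj]

theorem ee_int_mul_fract (k : ℤ) (x : ℝ) : ee (k * Int.fract x) = ee (k * x) := by
  have : (k : ℝ) * x = k * Int.fract x + ((k * ⌊x⌋ : ℤ) : ℝ) := by
    rw [Int.fract]; push_cast; ring
  rw [this, ee_add_intCast]

/-! ## Torus diffeomorphisms with a lift -/

/-- A smooth volume-preserving diffeomorphism `T` of the torus with a chosen lift `F`. -/
@[ext] structure TD where
  /-- the lift -/
  F : Equiv.Perm R3
  /-- the torus map -/
  T : Equiv.Perm T3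
  smooth : ContDiff ℝ ∞ F
  smooth' : ContDiff ℝ ∞ F.symm
  cov : ∀ x, T (proj x) = proj (F x)
  mp : MeasurePreserving T volume volume

namespace TD

theorem cov' (H : TD) (x : R3) : H.T.symm (proj x) = proj (H.F.symm x) := by
  rw [Equiv.symm_apply_eq, H.cov, Equiv.apply_symm_apply]

theorem continuous_T (H : TD) : Continuous H.T := by
  rw [isOpenQuotientMap_proj.isQuotientMap.continuous_iff]
  have : H.T ∘ proj = proj ∘ H.F := funext H.cov
  rw [this]
  exact continuous_proj.comp H.smooth.continuous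

theorem continuous_T_symm (H : TD) : Continuous H.T.symm := by
  rw [isOpenQuotientMap_proj.isQuotientMap.continuous_iff]
  have : H.T.symm ∘ proj = proj ∘ H.F.symm := funext H.cov'
  rw [this]
  exact continuous_proj.comp H.smooth'.continuous

theorem mp' (H : TD) : MeasurePreserving H.T.symm volume volume :=
  MeasurePreserving.symm
    ({ toEquiv := H.T, measurable_toFun := H.continuous_T.measurable,
       measurable_invFun := H.continuous_T_symm.measurable } : T3 ≃ᵐ T3) H.mp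

instance : Group TD where
  mul H K := ⟨H.F * K.F, H.T * K.T, H.smooth.comp K.smooth, K.smooth'.comp H.smooth',
    fun x => by simp [Equiv.Perm.mul_apply, K.cov, H.cov], H.mp.comp K.mp⟩
  one := ⟨1, 1, contDiff_id, contDiff_id, fun _ => rfl, MeasurePreserving.id _⟩
  inv H := ⟨H.F⁻¹, H.T⁻¹, H.smooth', H.smooth, H.cov', H.mp'⟩
  mul_assoc _ _ _ := TD.ext (mul_assoc _ _ _) (mul_assoc _ _ _)
  one_mul _ := TD.ext (one_mul _) (one_mul _)
  mul_one _ := TD.ext (mul_one _) (mul_one _)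
  inv_mul_cancel _ := TD.ext (inv_mul_cancel _) (inv_mul_cancel _)

@[simp] theorem mul_F (H K : TD) : (H * K).F = H.F * K.F := rfl
@[simp] theorem mul_T (H K : TD) : (H * K).T = H.T * K.T := rfl
@[simp] theorem one_F : (1 : TD).F = 1 := rfl
@[simp] theorem one_T : (1 : TD).T = 1 := rfl
@[simp] theorem inv_F (H : TD) : H⁻¹.F = H.F⁻¹ := rfl
@[simp] theorem inv_T (H : TD) : H⁻¹.T = H.T⁻¹ := rfl

/-- The lift as a homomorphism. -/
def homF : TD →* Equiv.Perm R3 := ⟨⟨TD.F, rfl⟩, fun _ _ => rfl⟩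

/-- The torus map as a homomorphism. -/
def homT : TD →* Equiv.Perm T3 := ⟨⟨TD.T, rfl⟩, fun _ _ => rfl⟩

@[simp] theorem zpow_F (H : TD) (n : ℤ) : (H ^ n).F = H.F ^ n := map_zpow homF H n
@[simp] theorem zpow_T (H : TD) (n : ℤ) : (H ^ n).T = H.T ^ n := map_zpow homT H n
@[simp] theorem pow_F (H : TD) (n : ℕ) : (H ^ n).F = H.F ^ n := map_pow homF H n
@[simp] theorem pow_T (H : TD) (n : ℕ) : (H ^ n).T = H.T ^ n := map_pow homT H n

theorem isSmoothDiffeo (H : TD) : IsSmoothDiffeo H.T :=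
  ⟨⟨H.F, H.smooth, H.cov⟩, ⟨H.F.symm, H.smooth', H.cov'⟩⟩

/-- A lift commutes with integer translations up to an automorphism of the lattice. -/
theorem lat (H : TD) (n : Fin 3 → ℤ) :
    ∃ n' : Fin 3 → ℤ, ∀ x : R3, H.F (x + fun i => (n i : ℝ)) = H.F x + fun i => (n' i : ℝ) := by
  have h1 : ∀ (x : R3) (i : Fin 3), ∃ k : ℤ, H.F (x + fun i => (n i : ℝ)) i - H.F x i = k := by
    intro x
    rw [← proj_eq_iff, ← H.cov, ← H.cov, proj_add_int]
  choose k hk using h1 0
  refine ⟨k, fun x => funext fun i => ?_⟩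
  have hc : Continuous fun x : R3 => H.F (x + fun i => (n i : ℝ)) i - H.F x i := by
    have := H.smooth.continuous
    fun_prop
  have hd : IsDiscrete (Set.range (Int.cast : ℤ → ℝ)) :=
    Int.isClosedEmbedding_coe_real.isEmbedding.isInducing.isDiscrete_range
  have := isPreconnected_univ.constant_of_mapsTo hd hc.continuousOn
    (fun y _ => by obtain ⟨m, hm⟩ := h1 y i; exact ⟨m, hm.symm⟩) (Set.mem_univ x) (Set.mem_univ 0)
  simp only [Pi.add_apply]
  linarith [hk i]

end TD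

/-- The Koopman isometry `f ↦ f ∘ T`. -/
noncomputable def kp (H : TD) : L2 →ₗᵢ[ℂ] L2 := Lp.compMeasurePreservingₗᵢ ℂ H.T H.mp

theorem coeFn_kp (H : TD) (f : L2) : kp H f =ᵐ[volume] fun x => f (H.T x) :=
  Lp.coeFn_compMeasurePreserving f H.mp

theorem kp_mul (H K : TD) (f : L2) : kp (H * K) f = kp K (kp H f) :=
  Lp.compMeasurePreserving_comp_apply f H.mp K.mp

@[simp] theorem kp_one (f : L2) : kp 1 f = f := Lp.compMeasurePreserving_id_apply f

@[simp] theorem kp_inv_kp (H : TD) (f : L2) : kp H⁻¹ (kp H f) = f := by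
  rw [← kp_mul, mul_inv_cancel, kp_one]

@[simp] theorem kp_kp_inv (H : TD) (f : L2) : kp H (kp H⁻¹ f) = f := by
  rw [← kp_mul, inv_mul_cancel, kp_one]

/-! ## Functions as elements of `L2` -/

open Classical in
/-- The class of a function in `L2` (zero if it is not square integrable). -/
noncomputable def toL2 (f : T3 → ℂ) : L2 := if h : MemLp f 2 volume then h.toLp f else 0

theorem coeFn_toL2 {f : T3 → ℂ} (h : MemLp f 2 volume) : toL2 f =ᵐ[volume] f := by
  rw [toL2, dif_pos h]; exact h.coeFn_toLp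

theorem memLp_of_bound {f : T3 → ℂ} (hf : Measurable f) (C : ℝ) (h : ∀ x, ‖f x‖ ≤ C) :
    MemLp f 2 volume :=
  MemLp.of_bound hf.aestronglyMeasurable C (Filter.Eventually.of_forall h)

theorem kp_toL2 (H : TD) {f : T3 → ℂ} (h : MemLp f 2 volume) :
    kp H (toL2 f) = toL2 (fun x => f (H.T x)) := by
  apply Lp.ext
  have h2 : MemLp (fun x => f (H.T x)) 2 volume := h.comp_measurePreserving H.mp
  filter_upwards [coeFn_kp H (toL2 f), coeFn_toL2 h2,
    H.mp.quasiMeasurePreserving.ae_eq_comp (coeFn_toL2 h)] with x h1 h3 h4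
  rw [h1, h3]; exact h4

theorem inner_toL2 {f g : T3 → ℂ} (hf : MemLp f 2 volume) (hg : MemLp g 2 volume) :
    ⟪toL2 f, toL2 g⟫_ℂ = ∫ x, conj (f x) * g x := by
  rw [L2.inner_def]
  apply integral_congr_ae
  filter_upwards [coeFn_toL2 hf, coeFn_toL2 hg] with x h1 h2
  rw [h1, h2]; simp [mul_comm]

theorem toL2_add {f g : T3 → ℂ} (hf : MemLp f 2 volume) (hg : MemLp g 2 volume) :
    toL2 (fun x => f x + g x) = toL2 f + toL2 g := by
  apply Lp.ext
  filter_upwards [coeFn_toL2 hf, coeFn_toL2 hg, coeFn_toL2 (hf.add hg),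
    Lp.coeFn_add (toL2 f) (toL2 g)] with x h1 h2 h3 h4
  rw [h4, Pi.add_apply, h1, h2]; exact h3

theorem toL2_sub {f g : T3 → ℂ} (hf : MemLp f 2 volume) (hg : MemLp g 2 volume) :
    toL2 (fun x => f x - g x) = toL2 f - toL2 g := by
  apply Lp.ext
  filter_upwards [coeFn_toL2 hf, coeFn_toL2 hg, coeFn_toL2 (hf.sub hg),
    Lp.coeFn_sub (toL2 f) (toL2 g)] with x h1 h2 h3 h4
  rw [h4, Pi.sub_apply, h1, h2]; exact h3

theorem toL2_smul (a : ℂ) {f : T3 → ℂ} (hf : MemLp f 2 volume) :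
    toL2 (fun x => a * f x) = a • toL2 f := by
  apply Lp.ext
  filter_upwards [coeFn_toL2 hf, coeFn_toL2 (hf.const_mul a),
    Lp.coeFn_smul a (toL2 f)] with x h1 h3 h4
  rw [h4, Pi.smul_apply, h1, smul_eq_mul]; exact h3

theorem toL2_zero : toL2 (fun _ => 0) = 0 := by
  apply Lp.ext
  filter_upwards [coeFn_toL2 (f := fun _ => 0) (memLp_const 0), Lp.coeFn_zero ℂ 2 (volume : Measure T3)]
    with x h1 h2
  rw [h1, h2]; rfl

theorem toL2_sum {ι : Type*} (s : Finset ι) {f : ι → T3 → ℂ} (hf : ∀ i ∈ s, MemLp (f i) 2 volume) :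
    toL2 (fun x => ∑ i ∈ s, f i x) = ∑ i ∈ s, toL2 (f i) := by
  classical
  induction s using Finset.induction_on with
  | empty => simpa using toL2_zero
  | insert a s ha ih =>
    simp only [Finset.sum_insert ha]
    rw [toL2_add (hf a (mem_insert_self _ _))
      (memLp_finsetSum s fun i hi => hf i (mem_insert_of_mem hi)),
      ih fun i hi => hf i (mem_insert_of_mem hi)]

/-- Real-valued (almost everywhere) elements of `L2`. -/
def IsReal (f : L2) : Prop := ∀ᵐ x, (f x).im = 0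

theorem IsReal.kp {f : L2} (hf : IsReal f) (H : TD) : IsReal (kp H f) := by
  filter_upwards [coeFn_kp H f, H.mp.quasiMeasurePreserving.ae hf] with x h1 h2
  rw [h1]; exact h2

theorem isClosed_isReal : IsClosed {f : L2 | IsReal f} := by
  have : {f : L2 | IsReal f} = (Complex.imCLM.compLpL 2 (volume : Measure T3)) ⁻¹' {0} := by
    ext f
    simp only [Set.mem_ofPred_eq, Set.mem_preimage, Set.mem_singleton_iff, IsReal]
    rw [Lp.eq_zero_iff_ae_eq_zero]
    constructor
    · intro h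
      filter_upwards [h, Complex.imCLM.coeFn_compLpL (p := 2) (μ := volume) f] with x h1 h2
      rw [h2]; exact h1
    · intro h
      filter_upwards [h, Complex.imCLM.coeFn_compLpL (p := 2) (μ := volume) f] with x h1 h2
      rw [h2] at h1; exact h1
  rw [this]
  exact isClosed_singleton.preimage (ContinuousLinearMap.continuous _)

/-! ## Fibre functions, atoms and characters -/

/-- `1_{[α,1-α]}(y) φ(y) e(k x + j z)` for the mode `m = (k, j)`; coordinates `(x, y, z)`. -/
noncomputable def fibF (α : ℝ) (m : ℤ × ℤ) (φ : ℝ → ℂ) (x : T3) : ℂ :=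
  (Set.Icc α (1 - α)).indicator φ (rep (x 1)) * ee (m.1 * rep (x 0) + m.2 * rep (x 2))

/-- The class of `fibF` in `L2`. -/
noncomputable def fib (α : ℝ) (m : ℤ × ℤ) (φ : ℝ → ℂ) : L2 := toL2 (fibF α m φ)

/-- The atom `1_{[α,1-α]}(y) e(θ y + k x + j z)`. -/
noncomputable def atom (α : ℝ) (m : ℤ × ℤ) (θ : ℝ) : L2 := fib α m fun y => ee (θ * y)

/-- The character `e(k x + l y + j z)` as a function. -/
noncomputable def chF (k l j : ℤ) (x : T3) : ℂ :=
  ee (k * rep (x 0) + l * rep (x 1) + j * rep (x 2))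

/-- The character `e(k x + l y + j z)` in `L2`. -/
noncomputable def ch (k l j : ℤ) : L2 := toL2 (chF k l j)

theorem fibF_proj (α : ℝ) (m : ℤ × ℤ) (φ : ℝ → ℂ) (x : R3) :
    fibF α m φ (proj x) =
      (Set.Icc α (1 - α)).indicator φ (Int.fract (x 1)) * ee (m.1 * x 0 + m.2 * x 2) := by
  simp only [fibF, rep_proj, ee_add, ee_int_mul_fract]

theorem chF_proj (k l j : ℤ) (x : R3) :
    chF k l j (proj x) = ee (k * x 0 + l * x 1 + j * x 2) := by
  simp only [chF, rep_proj, ee_add, ee_int_mul_fract]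

theorem measurable_fibF (α : ℝ) (m : ℤ × ℤ) {φ : ℝ → ℂ} (hφ : Measurable φ) :
    Measurable (fibF α m φ) := by
  unfold fibF
  refine Measurable.mul ?_ (by fun_prop)
  exact (hφ.indicator measurableSet_Icc).comp (by fun_prop)

theorem exists_bound_fibF (α : ℝ) (m : ℤ × ℤ) {φ : ℝ → ℂ} (hφ : Continuous φ) :
    ∃ C : ℝ, ∀ x, ‖fibF α m φ x‖ ≤ C := by
  obtain ⟨C, hC⟩ := (isCompact_Icc (a := α) (b := 1 - α)).exists_bound_of_continuousOn
    hφ.continuousOn
  refine ⟨max C 0, fun x => ?_⟩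
  rw [fibF, norm_mul, norm_ee, mul_one]
  by_cases h : rep (x 1) ∈ Set.Icc α (1 - α)
  · rw [Set.indicator_of_mem h]; exact (hC _ h).trans (le_max_left _ _)
  · rw [Set.indicator_of_notMem h]; simp

theorem memLp_fibF (α : ℝ) (m : ℤ × ℤ) {φ : ℝ → ℂ} (hφ : Continuous φ) :
    MemLp (fibF α m φ) 2 volume := by
  obtain ⟨C, hC⟩ := exists_bound_fibF α m hφ
  exact memLp_of_bound (measurable_fibF α m hφ.measurable) C hC

theorem coeFn_fib (α : ℝ) (m : ℤ × ℤ) {φ : ℝ → ℂ} (hφ : Continuous φ) :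
    fib α m φ =ᵐ[volume] fibF α m φ := coeFn_toL2 (memLp_fibF α m hφ)

theorem measurable_chF (k l j : ℤ) : Measurable (chF k l j) := by
  unfold chF; fun_prop

@[simp] theorem norm_chF (k l j : ℤ) (x : T3) : ‖chF k l j x‖ = 1 := norm_ee _

theorem memLp_chF (k l j : ℤ) : MemLp (chF k l j) 2 volume :=
  memLp_of_bound (measurable_chF k l j) 1 fun x => (norm_chF k l j x).le

theorem coeFn_ch (k l j : ℤ) : ch k l j =ᵐ[volume] chF k l j := coeFn_toL2 (memLp_chF k l j)

theorem kp_ch_zero (H : TD) : kp H (ch 0 0 0) = ch 0 0 0 := by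
  rw [ch, kp_toL2 H (memLp_chF 0 0 0)]
  congr 1; funext x; simp [chF]

theorem inner_ch_zero (f : L2) : ⟪ch 0 0 0, f⟫_ℂ = ∫ x, f x := by
  rw [L2.inner_def]
  apply integral_congr_ae
  filter_upwards [coeFn_ch 0 0 0] with x h1
  rw [h1]; simp [chF]

theorem fib_congr {α : ℝ} (m : ℤ × ℤ) {φ ψ : ℝ → ℂ} (h : ∀ y ∈ Set.Icc α (1 - α), φ y = ψ y) :
    fib α m φ = fib α m ψ := by
  unfold fib fibF
  rw [Set.indicator_congr h]

theorem fib_smul (α : ℝ) (m : ℤ × ℤ) (a : ℂ) {φ : ℝ → ℂ} (hφ : Continuous φ) :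
    fib α m (fun y => a * φ y) = a • fib α m φ := by
  rw [fib, fib, ← toL2_smul a (memLp_fibF α m hφ)]
  congr 1; funext x
  simp only [fibF]
  rw [← mul_assoc, Set.indicator_const_mul]

theorem fib_sub (α : ℝ) (m : ℤ × ℤ) {φ ψ : ℝ → ℂ} (hφ : Continuous φ) (hψ : Continuous ψ) :
    fib α m (fun y => φ y - ψ y) = fib α m φ - fib α m ψ := by
  rw [fib, fib, fib, ← toL2_sub (memLp_fibF α m hφ) (memLp_fibF α m hψ)]
  congr 1; funext x
  simp only [fibF]
  by_cases h : rep (x 1) ∈ Set.Icc α (1 - α)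
  · simp only [Set.indicator_of_mem h]; ring
  · simp only [Set.indicator_of_notMem h]; ring

theorem fib_sum {ι : Type*} (α : ℝ) (m : ℤ × ℤ) (s : Finset ι) {φ : ι → ℝ → ℂ}
    (hφ : ∀ i ∈ s, Continuous (φ i)) :
    fib α m (fun y => ∑ i ∈ s, φ i y) = ∑ i ∈ s, fib α m (φ i) := by
  simp only [fib]
  rw [← toL2_sum s fun i hi => memLp_fibF α m (hφ i hi)]
  congr 1; funext x
  simp only [fibF]
  by_cases h : rep (x 1) ∈ Set.Icc α (1 - α)
  · simp only [Set.indicator_of_mem h, Finset.sum_mul]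
  · simp only [Set.indicator_of_notMem h, zero_mul, Finset.sum_const_zero]

/-- The span of the atoms with modes in `A`. -/
noncomputable def atomSpan (α : ℝ) (A : Finset (ℤ × ℤ)) : Submodule ℂ L2 :=
  Submodule.span ℂ {v | ∃ m ∈ A, ∃ θ : ℝ, v = atom α m θ}

theorem atom_mem_atomSpan (α : ℝ) {A : Finset (ℤ × ℤ)} {m : ℤ × ℤ} (hm : m ∈ A) (θ : ℝ) :
    atom α m θ ∈ atomSpan α A := Submodule.subset_span ⟨m, hm, θ, rfl⟩

theorem atomSpan_mono (α : ℝ) {A B : Finset (ℤ × ℤ)} (h : A ⊆ B) : atomSpan α A ≤ atomSpan α B :=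
  Submodule.span_mono fun _ ⟨m, hm, θ, hv⟩ => ⟨m, h hm, θ, hv⟩

/-- The span of the nontrivial characters that do not depend on the first coordinate. -/
noncomputable def vertSpan : Submodule ℂ L2 :=
  Submodule.span ℂ {v | ∃ l j : ℤ, (l, j) ≠ (0, 0) ∧ v = ch 0 l j}

/-! ## Closeness -/

/-- `F` and `G` are `ε`-close in `C^r`, uniformly on `ℝ³`. -/
def CClose (r : ℕ) (ε : ℝ) (F G : R3 → R3) : Prop :=
  ∀ i ≤ r, ∀ x, ‖iteratedFDeriv ℝ i (fun y => F y - G y) x‖ ≤ ε

/-- The lifts of `T'`, `T` and of their inverses are `ε`-close in `C^r`. -/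
def TClose (r : ℕ) (ε : ℝ) (T' T : TD) : Prop :=
  CClose r ε T'.F T.F ∧ CClose r ε T'⁻¹.F T⁻¹.F

theorem CClose.mono {r r' : ℕ} {ε ε' : ℝ} {F G : R3 → R3} (h : CClose r ε F G) (hr : r' ≤ r)
    (hε : ε ≤ ε') : CClose r' ε' F G := fun i hi x => (h i (hi.trans hr) x).trans hε

theorem cclose_zero_iff {ε : ℝ} {F G : R3 → R3} : CClose 0 ε F G ↔ ∀ x, ‖F x - G x‖ ≤ ε := by
  constructor
  · intro h x; simpa using h 0 le_rfl x
  · intro h i hi x
    obtain rfl : i = 0 := by omega
    simpa using h x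

theorem CClose.trans {r : ℕ} {ε₁ ε₂ : ℝ} {F G K : R3 → R3} (hF : ContDiff ℝ ∞ F)
    (hG : ContDiff ℝ ∞ G) (hK : ContDiff ℝ ∞ K) (h₁ : CClose r ε₁ F G) (h₂ : CClose r ε₂ G K) :
    CClose r (ε₁ + ε₂) F K := by
  intro i hi x
  have e : (fun y => F y - K y) = fun y => (F y - G y) + (G y - K y) := by
    funext y; abel
  rw [e, fun_iteratedFDeriv_add_apply ((hF.sub hG).of_le (by exact_mod_cast le_top)).contDiffAt
    ((hG.sub hK).of_le (by exact_mod_cast le_top)).contDiffAt]
  exact (norm_add_le _ _).trans (add_le_add (h₁ i hi x) (h₂ i hi x))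

theorem CClose.symm {r : ℕ} {ε : ℝ} {F G : R3 → R3} (h : CClose r ε F G) : CClose r ε G F := by
  intro i hi x
  have e : (fun y => G y - F y) = -fun y => F y - G y := by
    funext y; simp
  rw [e, iteratedFDeriv_neg_apply, norm_neg]
  exact h i hi x

theorem TClose.mono {r r' : ℕ} {ε ε' : ℝ} {T' T : TD} (h : TClose r ε T' T) (hr : r' ≤ r)
    (hε : ε ≤ ε') : TClose r' ε' T' T := ⟨h.1.mono hr hε, h.2.mono hr hε⟩

theorem TClose.symm {r : ℕ} {ε : ℝ} {T' T : TD} (h : TClose r ε T' T) : TClose r ε T T' :=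
  ⟨h.1.symm, h.2.symm⟩

theorem TClose.trans {r : ℕ} {ε₁ ε₂ : ℝ} {T₁ T₂ T₃ : TD} (h₁ : TClose r ε₁ T₁ T₂)
    (h₂ : TClose r ε₂ T₂ T₃) : TClose r (ε₁ + ε₂) T₁ T₃ :=
  ⟨CClose.trans T₁.smooth T₂.smooth T₃.smooth h₁.1 h₂.1,
    CClose.trans T₁⁻¹.smooth T₂⁻¹.smooth T₃⁻¹.smooth h₁.2 h₂.2⟩

end Crest.Agent.R81
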