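import Crest.Agent.R81.Defs

/-!
# Row 81, module Close

The statement and the recipe are in `R81/Defs.lean` (`CloseStmt`).
-/

set_option autoImplicit false

open MeasureTheory Finset Crest.AnalysisR.Torus3 Crest.Agent.R75
open scoped InnerProductSpace ComplexConjugate ContDiff

namespace Crest.Agent.R81

namespace Close

open Filter Topology

theorem iteratedFDeriv_slice {P : Type*} [NormedAddCommGroup P] [NormedSpace ℝ P]
    {D : P × R3 → R3} (hD : ContDiff ℝ ∞ D) (i : ℕ) (p : P) (x : R3) :
    iteratedFDeriv ℝ i (fun y => D (p, y)) x =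
      (iteratedFDeriv ℝ i D (p, x)).compContinuousLinearMap
        fun _ => ContinuousLinearMap.inr ℝ P R3 := by
  have h1 : (fun y => D (p, y)) =
      (fun z => D ((p, 0) + z)) ∘ ContinuousLinearMap.inr ℝ P R3 := by
    funext y; simp
  have h2 : ContDiff ℝ ∞ fun z => D ((p, 0) + z) := hD.comp (contDiff_const.add contDiff_id)
  rw [h1, ContinuousLinearMap.iteratedFDeriv_comp_right _ h2 x (by exact_mod_cast le_top),
    iteratedFDeriv_comp_add_left]
  simp

theorem continuous_slice {P : Type*} [NormedAddCommGroup P] [NormedSpace ℝ P]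
    {D : P × R3 → R3} (hD : ContDiff ℝ ∞ D) (i : ℕ) :
    Continuous fun z : P × R3 => iteratedFDeriv ℝ i (fun y => D (z.1, y)) z.2 := by
  simp only [iteratedFDeriv_slice hD]
  exact (ContinuousMultilinearMap.compContinuousLinearMapL
    (fun _ : Fin i => ContinuousLinearMap.inr ℝ P R3)).continuous.comp
      (hD.continuous_iteratedFDeriv (by exact_mod_cast le_top))

end Close

open Filter Topology Close in
theorem close_stmt : CloseStmt := by
  intro Φ r ε hΦ hper hε
  let D : (ℝ × ℝ × ℝ) × R3 → R3 := fun z => Φ z - Φ (0, z.2)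
  have hD : ContDiff ℝ ∞ D := hΦ.sub (hΦ.comp (contDiff_const.prodMk contDiff_snd))
  have h1 : ∀ i ∈ range (r + 1), ∀ᶠ p in 𝓝 (0 : ℝ × ℝ × ℝ), ∀ x ∈ Set.Icc (0 : R3) 1,
      ‖iteratedFDeriv ℝ i (fun y => D (p, y)) x‖ < ε := by
    intro i _
    refine isCompact_Icc.eventually_forall_of_forall_eventually fun x _ => ?_
    refine ((continuous_slice hD i).norm.tendsto (0, x)).eventually (gt_mem_nhds ?_)
    have : (fun y => D (0, y)) = fun _ => 0 := by funext y; simp [D]
    simp only [this, iteratedFDeriv_fun_zero, Pi.zero_apply, norm_zero]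
    exact hε
  obtain ⟨δ, hδ, h2⟩ := Metric.eventually_nhds_iff.1 ((eventually_all_finset _).2 h1)
  refine ⟨δ, hδ, fun p hp i hi x => ?_⟩
  have h3 := h2 (y := p) (by simpa using hp) i (mem_range.2 (by omega))
    (fun j => Int.fract (x j))
    ⟨fun j => Int.fract_nonneg _, fun j => (Int.fract_lt_one _).le⟩
  have h4 : (fun y => D (p, y)) = fun y => D (p, y + fun j => ((⌊x j⌋ : ℤ) : ℝ)) := by
    funext y; exact (hper p y _).symm
  rw [h4, iteratedFDeriv_comp_add_right (f := fun y => D (p, y))] at h3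
  have h5 : ((fun j => Int.fract (x j)) + fun j => ((⌊x j⌋ : ℤ) : ℝ)) = x := by
    funext j; simp
  rw [h5] at h3
  exact h3.le

end Crest.Agent.R81
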