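import Crest.Agent.R81.Defs

/-!
# Row 81, module ConjClose

The statement and the recipe are in `R81/Defs.lean` (`ConjCloseStmt`).
-/

set_option autoImplicit false

open MeasureTheory Finset Crest.AnalysisR.Torus3 Crest.Agent.R75
open scoped InnerProductSpace ComplexConjugate ContDiff

namespace Crest.Agent.R81

namespace ConjClose

theorem per_int {f : ℝ → ℝ} (h : Function.Periodic f 1) (x : ℝ) (n : ℤ) : f (x + n) = f x := by
  simpa using h.int_mul n x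

theorem per_deriv {f : ℝ → ℝ} (h : Function.Periodic f 1) : Function.Periodic (deriv f) 1 := by
  intro x
  rw [← deriv_comp_add_const]
  congr 1
  exact funext h

theorem per2_int {V : ℝ → ℝ → ℝ} (h : Per2 V) (Y W : ℝ) (n k : ℤ) :
    V (Y + n) (W + k) = V Y W := by
  rw [per_int (f := fun W => V (Y + n) W) (h.per₂ _), per_int (f := fun Y => V Y W) (h.per₁ · W)]

theorem smooth2 {P : Type*} [NormedAddCommGroup P] [NormedSpace ℝ P] {F : ℝ → ℝ → ℝ}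
    (hF : ContDiff ℝ ∞ (Function.uncurry F)) {f g : P → ℝ} (hf : ContDiff ℝ ∞ f)
    (hg : ContDiff ℝ ∞ g) : ContDiff ℝ ∞ (fun z => F (f z) (g z)) :=
  hF.comp (hf.prodMk hg)

/-- the factor `ρ` -/
noncomputable def rho (M Q : ℕ) (a : ℝ → ℝ) (z : (ℝ × ℝ × ℝ) × R3) : ℝ :=
  1 + Q * z.1.2.2 * a (z.2 1 - M * Q * z.2 2)

/-- the smooth family `φ^t_p` -/
noncomputable def phi (t : ℝ) (M₀ : Model) (M Q : ℕ) (a : ℝ → ℝ) (Δ V : ℝ → ℝ → ℝ)
    (z : (ℝ × ℝ × ℝ) × R3) : R3 :=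
  ![z.2 0 + t * (M₀.dbar + z.1.2.1 + z.1.1 / M * a (z.2 1 - M * Q * z.2 2)) +
      M₀.σ * t * rho M Q a z * Δ (z.2 1) (t * z.1.1 * rho M Q a z) +
      (V (z.2 1 + t * z.1.1 * rho M Q a z) (Q * z.2 2 + t * (z.1.1 / M) * rho M Q a z) -
        V (z.2 1) (Q * z.2 2)),
    z.2 1 + t * M₀.b + t * z.1.1 * rho M Q a z,
    z.2 2 + t * M₀.γ + t * (z.1.1 / (M * Q)) * rho M Q a z]

theorem rho_smooth (M Q : ℕ) {a : ℝ → ℝ} (ha : ContDiff ℝ ∞ a) : ContDiff ℝ ∞ (rho M Q a) := by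
  unfold rho
  fun_prop

theorem phi_smooth (t : ℝ) (M₀ : Model) (M Q : ℕ) {a : ℝ → ℝ} {Δ V : ℝ → ℝ → ℝ}
    (ha : ContDiff ℝ ∞ a) (hΔ : ContDiff ℝ ∞ (Function.uncurry Δ))
    (hV : ContDiff ℝ ∞ (Function.uncurry V)) : ContDiff ℝ ∞ (phi t M₀ M Q a Δ V) := by
  have hρ := rho_smooth M Q ha
  have h1 : ContDiff ℝ ∞ (fun z : (ℝ × ℝ × ℝ) × R3 =>
      Δ (z.2 1) (t * z.1.1 * rho M Q a z)) := smooth2 hΔ (by fun_prop) (by fun_prop)
  have h2 : ContDiff ℝ ∞ (fun z : (ℝ × ℝ × ℝ) × R3 =>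
      V (z.2 1 + t * z.1.1 * rho M Q a z) (Q * z.2 2 + t * (z.1.1 / M) * rho M Q a z)) :=
    smooth2 hV (by fun_prop) (by fun_prop)
  have h3 : ContDiff ℝ ∞ (fun z : (ℝ × ℝ × ℝ) × R3 => V (z.2 1) (Q * z.2 2)) :=
    smooth2 hV (by fun_prop) (by fun_prop)
  rw [contDiff_pi]
  intro i
  fin_cases i
  · simp only [phi, Fin.zero_eta, Matrix.cons_val_zero]
    refine ContDiff.add (ContDiff.add (by fun_prop) (ContDiff.mul (by fun_prop) h1)) (h2.sub h3)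
  · simp only [phi, Fin.mk_one, Matrix.cons_val_one, Matrix.cons_val_zero]
    fun_prop
  · simp only [phi, Fin.reduceFinMk, Matrix.cons_val]
    fun_prop

theorem phi_per (t : ℝ) (M₀ : Model) (M Q : ℕ) {a : ℝ → ℝ} {Δ V : ℝ → ℝ → ℝ}
    (ha : Function.Periodic a 1) (hΔ : ∀ Y z, Δ (Y + 1) z = Δ Y z) (hV : Per2 V)
    (p : ℝ × ℝ × ℝ) (x : R3) (n : Fin 3 → ℤ) :
    phi t M₀ M Q a Δ V (p, x + fun i => (n i : ℝ)) =
      phi t M₀ M Q a Δ V (p, x) + fun i => (n i : ℝ) := by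
  have e1 : a (x 1 + n 1 - M * Q * (x 2 + n 2)) = a (x 1 - M * Q * x 2) := by
    rw [← per_int ha (x 1 - M * Q * x 2) (n 1 - M * Q * n 2)]
    congr 1; push_cast; ring
  have e2 : rho M Q a (p, x + fun i => (n i : ℝ)) = rho M Q a (p, x) := by
    simp only [rho, Pi.add_apply, e1]
  have e3 : ∀ z, Δ (x 1 + n 1) z = Δ (x 1) z := fun z =>
    per_int (f := fun Y => Δ Y z) (hΔ · z) _ _
  have e4 : ∀ y w, V (x 1 + n 1 + y) (Q * (x 2 + n 2) + w) = V (x 1 + y) (Q * x 2 + w) := by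
    intro y w
    rw [← per2_int hV (x 1 + y) (Q * x 2 + w) (n 1) (Q * n 2)]
    congr 1 <;> push_cast <;> ring
  have e5 : V (x 1 + n 1) (Q * (x 2 + n 2)) = V (x 1) (Q * x 2) := by
    simpa using e4 0 0
  funext i
  fin_cases i
  · simp only [phi, e2, Pi.add_apply, e1, e3, e4, e5, Fin.zero_eta, Matrix.cons_val_zero]
    ring
  · simp only [phi, e2, Pi.add_apply, Fin.mk_one, Matrix.cons_val_one, Matrix.cons_val_zero]
    ring
  · simp only [phi, e2, Pi.add_apply, Fin.reduceFinMk, Matrix.cons_val]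
    ring

/-- the explicit form of `S^t`, `t = ±1` -/
noncomputable def mod (t : ℝ) (M : Model) (x : R3) : R3 :=
  ![x 0 + t * (M.dbar + M.σ * deriv M.E (x 1)), x 1 + t * M.b, x 2 + t * M.γ]

theorem isMap_one {M : Model} {S : TD} (h : M.IsMap S) (x : R3) : S.F x = mod 1 M x := by
  rw [h x]
  funext i
  fin_cases i <;> simp [mod, add_assoc]

theorem isMap_neg {M : Model} {S : TD} (h : M.IsMap S) (hE : Function.Periodic M.E 1) (x : R3) :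
    S⁻¹.F x = mod (-1) M x := by
  rw [TD.inv_F, Equiv.Perm.inv_def, Equiv.symm_apply_eq, h]
  have e : deriv M.E (x 1 + -(M.b : ℝ)) = deriv M.E (x 1) := by
    simpa using per_int (per_deriv hE) (x 1) (-M.b)
  funext i
  fin_cases i
  · simp [mod, e]; ring
  · simp [mod]
  · simp [mod]

theorem phi_zero (t : ℝ) (M₀ : Model) (M Q : ℕ) (a : ℝ → ℝ) {Δ : ℝ → ℝ → ℝ} (V : ℝ → ℝ → ℝ)
    (hΔ : ∀ Y, Δ Y 0 = deriv M₀.E Y) (x : R3) :
    phi t M₀ M Q a Δ V (0, x) = mod t M₀ x := by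
  funext i
  fin_cases i
  · simp [phi, mod, rho, hΔ]; ring
  · simp [phi, mod]
  · simp [phi, mod]

theorem step_inv {h : TD} {lam N : ℤ} {W : ℝ → ℝ → ℝ} (hh : ∀ x, h.F x = stepF lam N W x)
    (x : R3) : h⁻¹.F x = ![x 2, x 1 - N * x 2, x 0 - lam * x 2 - W (x 1) (x 2)] := by
  rw [TD.inv_F, Equiv.Perm.inv_def, Equiv.symm_apply_eq, hh]
  funext i
  fin_cases i
  · simp [stepF]; ring
  · simp [stepF]
  · simp [stepF]

theorem conj_eq (t : ℤ) {M₀ M₁ : Model} {M Q lam : ℕ} {Δ V : ℝ → ℝ → ℝ} {u c : ℝ}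
    (hE : Function.Periodic M₀.E 1) (hV : Per2 V) (hM : 0 < M) (hQ : 0 < Q)
    (hγ : ∃ n : ℤ, (Q : ℝ) * M₀.γ = n) (hΔ : ∀ Y z, M₀.E (Y + z) - M₀.E Y = z * Δ Y z)
    (hu : 0 < u) (hlam : 0 < lam) (h1 : M₁.dbar = M₀.γ + u / (M * Q))
    (h2 : M₁.σ = u / (lam * M)) (h4 : (M₁.b : ℝ) = M₀.b - M * Q * M₀.γ)
    (h5 : M₁.γ = M₀.dbar + c - lam * (M₀.γ + u / (M * Q))) (x : R3) :
    stepF lam (M * Q) (Wf M₀.σ M₀.E u V Q) (mod t M₁
      ![x 2, x 1 - ((M * Q : ℤ) : ℝ) * x 2,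
        x 0 - ((lam : ℤ) : ℝ) * x 2 - Wf M₀.σ M₀.E u V Q (x 1) (x 2)]) =
      phi t M₀ M Q (deriv M₁.E) Δ V ((u, c, 1 / (lam : ℝ)), x) := by
  obtain ⟨n, hn⟩ := hγ
  have hM' : (M : ℝ) ≠ 0 := by exact_mod_cast hM.ne'
  have hQ' : (Q : ℝ) ≠ 0 := by exact_mod_cast hQ.ne'
  have hl' : (lam : ℝ) ≠ 0 := by exact_mod_cast hlam.ne'
  set ρ := rho M Q (deriv M₁.E) ((u, c, 1 / (lam : ℝ)), x) with hρ
  set A := deriv M₁.E (x 1 - M * Q * x 2) with hA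
  have hρ' : ρ = 1 + Q * (1 / (lam : ℝ)) * A := rfl
  have eZ : x 2 + t * (M₁.dbar + M₁.σ * A) = x 2 + t * M₀.γ + t * (u / (M * Q)) * ρ := by
    rw [h1, h2, hρ']; field_simp; ring
  have eY : x 1 - M * Q * x 2 + t * M₁.b + M * Q * (x 2 + t * M₀.γ + t * (u / (M * Q)) * ρ) =
      x 1 + t * M₀.b + t * u * ρ := by
    rw [h4]; field_simp; ring
  have eW : Wf M₀.σ M₀.E u V Q (x 1 + t * M₀.b + t * u * ρ)
      (x 2 + t * M₀.γ + t * (u / (M * Q)) * ρ) - Wf M₀.σ M₀.E u V Q (x 1) (x 2) =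
      M₀.σ * t * ρ * Δ (x 1) (t * u * ρ) +
        (V (x 1 + t * u * ρ) (Q * x 2 + t * (u / M) * ρ) - V (x 1) (Q * x 2)) := by
    have a1 : M₀.E (x 1 + t * M₀.b + t * u * ρ) = M₀.E (x 1 + t * u * ρ) := by
      rw [← per_int hE (x 1 + t * u * ρ) (t * M₀.b)]
      congr 1; push_cast; ring
    have a2 : V (x 1 + t * M₀.b + t * u * ρ) (Q * (x 2 + t * M₀.γ + t * (u / (M * Q)) * ρ)) =
        V (x 1 + t * u * ρ) (Q * x 2 + t * (u / M) * ρ) := by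
      rw [← per2_int hV (x 1 + t * u * ρ) (Q * x 2 + t * (u / M) * ρ) (t * M₀.b) (t * n)]
      congr 1
      · push_cast; ring
      · push_cast; rw [← hn]; field_simp; ring
    have a3 := hΔ (x 1) (t * u * ρ)
    simp only [Wf, a1, a2]
    rw [sub_eq_iff_eq_add] at a3
    rw [a3]
    field_simp
    ring
  funext i
  fin_cases i
  · simp only [stepF, mod, phi, Fin.zero_eta, Matrix.cons_val_zero, Matrix.cons_val_one,
      Matrix.cons_val, Int.cast_mul, Int.cast_natCast, ← hA, ← hρ, eZ, eY]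
    have eX : (t : ℝ) * M₁.γ + lam * (t * M₀.γ + t * (u / (M * Q)) * ρ) =
        t * (M₀.dbar + c + u / M * A) := by
      rw [h5, hρ']
      field_simp
      ring
    linear_combination eX + eW
  · simp only [stepF, mod, phi, Fin.mk_one, Matrix.cons_val_zero, Matrix.cons_val_one,
      Matrix.cons_val, Int.cast_mul, Int.cast_natCast, ← hA, ← hρ, eZ, eY]
  · simp only [stepF, mod, phi, Fin.reduceFinMk, Matrix.cons_val_zero, Matrix.cons_val_one,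
      Matrix.cons_val, Int.cast_mul, Int.cast_natCast, ← hA, ← hρ, eZ]

theorem close_family (h2 : CloseStmt) (H : TD) (φ : (ℝ × ℝ × ℝ) × R3 → R3) (hφ : ContDiff ℝ ∞ φ)
    (hper : ∀ (p : ℝ × ℝ × ℝ) (x : R3) (n : Fin 3 → ℤ),
      φ (p, x + fun i => (n i : ℝ)) = φ (p, x) + fun i => (n i : ℝ)) (r : ℕ) {ε : ℝ}
    (hε : 0 < ε) : ∃ δ : ℝ, 0 < δ ∧ ∀ p : ℝ × ℝ × ℝ, ‖p‖ < δ →
      CClose r ε (fun x => H.F (φ (p, H⁻¹.F x))) (fun x => H.F (φ (0, H⁻¹.F x))) := by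
  refine h2 (fun z => H.F (φ (z.1, H⁻¹.F z.2))) r ε ?_ ?_ hε
  · exact H.smooth.comp (hφ.comp (contDiff_fst.prodMk (H⁻¹.smooth.comp contDiff_snd)))
  · intro p x n
    obtain ⟨n', hn'⟩ := TD.lat H⁻¹ n
    obtain ⟨n'', hn''⟩ := TD.lat H n'
    simp only [hn', hper, hn'']
    abel

end ConjClose

open ConjClose in
theorem conjClose_of (h1 : SmoothStmt) (h2 : CloseStmt) : ConjCloseStmt := by
  intro H S M₀ E₂ V M Q r ε hE hEp hE₂ hE₂p hV hM hQ hγ hS hε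
  obtain ⟨Δ, hΔs, hΔ, hΔ0, hΔp⟩ := h1.hadamard M₀.E hE hEp
  have ha : ContDiff ℝ ∞ (deriv E₂) := (contDiff_infty_iff_deriv.1 hE₂).2
  have key := fun t : ℝ => close_family h2 H (phi t M₀ M Q (deriv E₂) Δ V)
    (phi_smooth t M₀ M Q ha hΔs hV.smooth) (phi_per t M₀ M Q (per_deriv hE₂p) hΔp hV) r hε
  obtain ⟨δ₁, hδ₁, k₁⟩ := key 1
  obtain ⟨δ₂, hδ₂, k₂⟩ := key (-1)
  refine ⟨min δ₁ δ₂, lt_min hδ₁ hδ₂, ?_⟩
  intro u c lam h S' M₁ hu huδ hc hlam hl hh hS' e1 e2 e3 e4 e5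
  have hp : ‖((u, c, 1 / (lam : ℝ)) : ℝ × ℝ × ℝ)‖ < min δ₁ δ₂ := by
    simp only [Prod.norm_def, Real.norm_eq_abs, max_lt_iff]
    refine ⟨by rwa [abs_of_pos hu], hc, by rwa [abs_of_nonneg (by positivity)]⟩
  subst e3
  constructor
  · have a1 := k₁ _ (hp.trans_le (min_le_left _ _))
    have b1 : ⇑(H * h * S' * (H * h)⁻¹).F =
        fun x => H.F (phi 1 M₀ M Q (deriv M₁.E) Δ V ((u, c, 1 / (lam : ℝ)), H⁻¹.F x)) := by
      funext x
      have := conj_eq 1 hEp hV hM hQ hγ hΔ hu hlam e1 e2 e4 e5 (H⁻¹.F x)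
      rw [Int.cast_one] at this
      rw [← this, mul_inv_rev, ← step_inv hh, ← isMap_one hS', ← hh]
      rfl
    have b2 : ⇑(H * S * H⁻¹).F =
        fun x => H.F (phi 1 M₀ M Q (deriv M₁.E) Δ V (0, H⁻¹.F x)) := by
      funext x
      rw [phi_zero 1 M₀ M Q _ V hΔ0, ← isMap_one hS]
      rfl
    rw [b1, b2]
    exact a1
  · have a1 := k₂ _ (hp.trans_le (min_le_right _ _))
    have b1 : ⇑(H * h * S' * (H * h)⁻¹)⁻¹.F =
        fun x => H.F (phi (-1) M₀ M Q (deriv M₁.E) Δ V ((u, c, 1 / (lam : ℝ)), H⁻¹.F x)) := by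
      funext x
      have := conj_eq (-1) hEp hV hM hQ hγ hΔ hu hlam e1 e2 e4 e5 (H⁻¹.F x)
      rw [Int.cast_neg, Int.cast_one] at this
      have g : (H * h * S' * (H * h)⁻¹)⁻¹ = H * h * S'⁻¹ * (h⁻¹ * H⁻¹) := by group
      rw [← this, g, ← step_inv hh, ← isMap_neg hS' hE₂p, ← hh]
      rfl
    have b2 : ⇑(H * S * H⁻¹)⁻¹.F =
        fun x => H.F (phi (-1) M₀ M Q (deriv M₁.E) Δ V (0, H⁻¹.F x)) := by
      funext x
      have g : (H * S * H⁻¹)⁻¹ = H * S⁻¹ * H⁻¹ := by group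
      rw [phi_zero (-1) M₀ M Q _ V hΔ0, ← isMap_neg hS hEp, g]
      rfl
    rw [b1, b2]
    exact a1

end Crest.Agent.R81
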