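import Crest.Agent.R81.Defs

/-!
# Row 81, module Cut

The statement and the recipe are in `R81/Defs.lean` (`CutStmt`).
-/

set_option autoImplicit false

open MeasureTheory Finset Crest.AnalysisR.Torus3 Crest.Agent.R75
open scoped InnerProductSpace ComplexConjugate ContDiff

namespace Crest.Agent.R81

namespace Cut

/-- The bad strip `rep (x 1) ∉ [α, 1-α]`. -/
def S (α : ℝ) : Set T3 := {x | rep (x 1) ∉ Set.Icc α (1 - α)}

theorem measurableSet_S (α : ℝ) : MeasurableSet (S α) :=
  (measurableSet_Icc.compl).preimage (f := fun x : T3 => rep (x 1)) (by fun_prop)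

theorem measure_S (α : ℝ) (h0 : 0 ≤ α) : (volume : Measure T3).real (S α) ≤ 2 * α := by
  have hm : MeasurableSet {y : UnitAddCircle | rep y ∉ Set.Icc α (1 - α)} :=
    (measurableSet_Icc.compl).preimage measurable_rep
  have h1 : volume (S α) = volume {y : UnitAddCircle | rep y ∉ Set.Icc α (1 - α)} :=
    (measurePreserving_eval (fun _ : Fin 3 => (volume : Measure UnitAddCircle)) 1).measure_preimage
      hm.nullMeasurableSet
  have h2 := (AddCircle.measurePreserving_mk 1 0).measure_preimage hm.nullMeasurableSet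
  rw [Measure.restrict_apply' measurableSet_Ioc] at h2
  have h3 : ((↑) : ℝ → UnitAddCircle) ⁻¹' {y : UnitAddCircle | rep y ∉ Set.Icc α (1 - α)} ∩
      Set.Ioc (0 : ℝ) (0 + 1) ⊆ Set.Icc 0 α ∪ Set.Icc (1 - α) 1 := by
    rintro t ⟨ht, ht0, ht1⟩
    simp only [Set.mem_preimage, Set.mem_ofPred_eq, rep_coe, Set.mem_Icc, not_and_or, not_le] at ht
    rcases ht1.eq_or_lt with rfl | ht1
    · right; constructor <;> linarith
    · rw [Int.fract_eq_self.mpr ⟨ht0.le, by linarith⟩] at ht
      rcases ht with ht | ht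
      · left; exact ⟨ht0.le, ht.le⟩
      · right; exact ⟨ht.le, by linarith⟩
  have h4 : volume (S α) ≤ ENNReal.ofReal (2 * α) := by
    rw [h1, ← h2]
    refine (measure_mono h3).trans ((measure_union_le _ _).trans (le_of_eq ?_))
    rw [Real.volume_Icc, Real.volume_Icc, ← ENNReal.ofReal_add (by linarith) (by linarith)]
    congr 1; ring
  exact ENNReal.toReal_le_of_le_ofReal (by linarith) h4

/-- Restriction to the bad strip. -/
noncomputable def P (α : ℝ) (f : L2) : L2 := toL2 ((S α).indicator f)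

theorem coeFn_P (α : ℝ) (f : L2) : P α f =ᵐ[volume] (S α).indicator f :=
  coeFn_toL2 ((Lp.memLp f).indicator (measurableSet_S α))

theorem norm_P_le (α : ℝ) (f : L2) : ‖P α f‖ ≤ ‖f‖ := by
  refine Lp.norm_le_norm_of_ae_le ?_
  filter_upwards [coeFn_P α f] with x hx
  rw [hx]; exact norm_indicator_le_norm_self _ _

theorem P_add (α : ℝ) (f g : L2) : P α (f + g) = P α f + P α g := by
  apply Lp.ext
  filter_upwards [coeFn_P α f, coeFn_P α g, coeFn_P α (f + g), Lp.coeFn_add f g,
    Lp.coeFn_add (P α f) (P α g)] with x h1 h2 h3 h4 h5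
  rw [h5, Pi.add_apply, h1, h2, h3]
  by_cases hx : x ∈ S α
  · simp only [Set.indicator_of_mem hx, h4, Pi.add_apply]
  · simp only [Set.indicator_of_notMem hx, add_zero]

theorem P_smul (α : ℝ) (a : ℂ) (f : L2) : P α (a • f) = a • P α f := by
  apply Lp.ext
  filter_upwards [coeFn_P α f, coeFn_P α (a • f), Lp.coeFn_smul a f,
    Lp.coeFn_smul a (P α f)] with x h1 h3 h4 h5
  rw [h5, Pi.smul_apply, h1, h3]
  by_cases hx : x ∈ S α
  · simp only [Set.indicator_of_mem hx, h4, Pi.smul_apply]
  · simp only [Set.indicator_of_notMem hx, smul_zero]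

/-- Restriction to the bad strip as a linear map. -/
noncomputable def PL (α : ℝ) : L2 →ₗ[ℂ] L2 := ⟨⟨P α, P_add α⟩, P_smul α⟩

theorem norm_P_le_sqrt {α : ℝ} (h0 : 0 ≤ α) {φ : L2} (hφ : ∀ᵐ x, ‖φ x‖ ≤ 1) :
    ‖P α φ‖ ≤ √(2 * α) := by
  have h1 : ‖P α φ‖ ≤ ‖(indicatorConstLp 2 (measurableSet_S α) (measure_ne_top volume _) (1 : ℂ) :
      L2)‖ := by
    refine Lp.norm_le_norm_of_ae_le ?_
    filter_upwards [coeFn_P α φ, hφ, indicatorConstLp_coeFn (p := 2) (hs := measurableSet_S α)
      (hμs := measure_ne_top (volume : Measure T3) _) (c := (1 : ℂ))] with x h1 h2 h3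
    rw [h1, h3]
    by_cases hx : x ∈ S α
    · simpa only [Set.indicator_of_mem hx, norm_one] using h2
    · simp only [Set.indicator_of_notMem hx, le_refl]
  refine h1.trans (norm_indicatorConstLp_le.trans ?_)
  rw [norm_one, one_mul, Real.sqrt_eq_rpow]
  simpa using Real.rpow_le_rpow measureReal_nonneg (measure_S α h0) (by norm_num : (0 : ℝ) ≤ 1 / 2)

theorem P_ch (α : ℝ) (k l j : ℤ) : P α (ch k l j) = toL2 ((S α).indicator (chF k l j)) := by
  apply Lp.ext
  filter_upwards [coeFn_P α (ch k l j), coeFn_ch k l j,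
    coeFn_toL2 ((memLp_chF k l j).indicator (measurableSet_S α))] with x h1 h2 h3
  rw [h1, h3]
  by_cases hx : x ∈ S α
  · simp only [Set.indicator_of_mem hx, h2]
  · simp only [Set.indicator_of_notMem hx]

theorem ch_sub_atom (α : ℝ) (k l j : ℤ) : ch k l j - atom α (k, j) l = P α (ch k l j) := by
  rw [P_ch, ch, atom, fib, ← toL2_sub (memLp_chF k l j) (memLp_fibF α _ (by fun_prop))]
  congr 1; funext x
  by_cases hx : x ∈ S α
  · rw [Set.indicator_of_mem hx, fibF, Set.indicator_of_notMem hx, zero_mul, sub_zero]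
  · rw [Set.indicator_of_notMem hx, fibF, Set.indicator_of_mem (not_not.mp hx), chF, ← ee_add,
      sub_eq_zero]
    congr 1; ring

theorem inner_P_ch (h1 : IntegralStmt) (α : ℝ) {k k' : ℤ} (l j l' j' : ℤ) (hk : k ≠ k') :
    ⟪P α (ch k l j), P α (ch k' l' j')⟫_ℂ = 0 := by
  have m1 := (memLp_chF k l j).indicator (measurableSet_S α)
  have m2 := (memLp_chF k' l' j').indicator (measurableSet_S α)
  rw [P_ch, P_ch, inner_toL2 m1 m2, h1]
  · have key : ∀ y z : ℝ, ∫ x in (0 : ℝ)..1, conj ((S α).indicator (chF k l j) (proj ![x, y, z])) *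
        (S α).indicator (chF k' l' j') (proj ![x, y, z]) = 0 := by
      intro y z
      by_cases hy : Int.fract y ∈ Set.Icc α (1 - α)
      · have : ∀ x : ℝ, proj ![x, y, z] ∉ S α := fun x => by
          simp only [S, Set.mem_ofPred_eq, rep_proj, not_not]; simpa using hy
        simp only [Set.indicator_of_notMem (this _), mul_zero, intervalIntegral.integral_zero]
      · have : ∀ x : ℝ, proj ![x, y, z] ∈ S α := fun x => by
          simp only [S, Set.mem_ofPred_eq, rep_proj]; simpa using hy
        have e : ∀ x : ℝ, conj ((S α).indicator (chF k l j) (proj ![x, y, z])) *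
            (S α).indicator (chF k' l' j') (proj ![x, y, z]) =
            ee ((l' - l) * y + (j' - j) * z) * ee (((k' - k : ℤ) : ℝ) * x) := by
          intro x
          rw [Set.indicator_of_mem (this _), Set.indicator_of_mem (this _), chF_proj, chF_proj,
            ← ee_neg, ← ee_add, ← ee_add]
          congr 1
          simp only [Matrix.cons_val_zero, Matrix.cons_val_one, Matrix.cons_val]
          push_cast; ring
        simp only [e]
        rw [intervalIntegral.integral_const_mul, integral_ee_int, if_neg (sub_ne_zero.mpr hk.symm),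
          mul_zero]
    simp only [key, intervalIntegral.integral_zero]
  · have hm : Measurable fun x => conj ((S α).indicator (chF k l j) x) *
        (S α).indicator (chF k' l' j') x :=
      (Complex.continuous_conj.measurable.comp
        ((measurable_chF k l j).indicator (measurableSet_S α))).mul
        ((measurable_chF k' l' j').indicator (measurableSet_S α))
    refine Integrable.of_bound hm.aestronglyMeasurable 1 (Filter.Eventually.of_forall fun x => ?_)
    rw [norm_mul, Complex.norm_conj]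
    have a1 := (norm_indicator_le_norm_self (s := S α) (chF k l j) x).trans_eq (norm_chF k l j x)
    have a2 := (norm_indicator_le_norm_self (s := S α) (chF k' l' j') x).trans_eq
      (norm_chF k' l' j' x)
    exact mul_le_one₀ a1 (norm_nonneg _) a2

end Cut

theorem cut_of (h1 : IntegralStmt) : CutStmt := by
  intro α φ A a h0 _ hφ
  simp only [Cut.ch_sub_atom]
  set v₁ := ∑ p ∈ A.filter (fun p => p.1 ≠ 0), a p • Cut.P α (ch p.1 p.2.1 p.2.2) with hv₁
  set v₀ := ∑ p ∈ A.filter (fun p => ¬ p.1 ≠ 0), a p • Cut.P α (ch p.1 p.2.1 p.2.2) with hv₀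
  have hsum : v₁ + v₀ = Cut.P α (∑ p ∈ A, a p • ch p.1 p.2.1 p.2.2) := by
    rw [hv₁, hv₀, Finset.sum_filter_add_sum_filter_not]
    change _ = Cut.PL α _
    rw [map_sum]
    exact Finset.sum_congr rfl fun p _ => (Cut.P_smul α _ _).symm
  have horth : ⟪v₁, v₀⟫_ℂ = 0 := by
    rw [hv₁, hv₀, sum_inner]
    refine Finset.sum_eq_zero fun p hp => ?_
    rw [inner_sum]
    refine Finset.sum_eq_zero fun p' hp' => ?_
    rw [inner_smul_left, inner_smul_right, Cut.inner_P_ch h1, mul_zero, mul_zero]
    rw [not_not.mp (Finset.mem_filter.mp hp').2]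
    exact (Finset.mem_filter.mp hp).2
  have hpy := norm_add_sq_eq_norm_sq_add_norm_sq_of_inner_eq_zero v₁ v₀ horth
  have h2 : ‖v₁‖ ≤ ‖v₁ + v₀‖ := by
    refine (mul_self_le_mul_self_iff (norm_nonneg _) (norm_nonneg _)).mpr ?_
    rw [hpy]; exact le_add_of_nonneg_right (mul_self_nonneg _)
  refine h2.trans ?_
  rw [hsum]
  have h3 : Cut.P α (∑ p ∈ A, a p • ch p.1 p.2.1 p.2.2) =
      Cut.P α (∑ p ∈ A, a p • ch p.1 p.2.1 p.2.2 - φ) + Cut.P α φ := by
    rw [← Cut.P_add, sub_add_cancel]
  rw [h3]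
  refine (norm_add_le _ _).trans (add_le_add ?_ (Cut.norm_P_le_sqrt h0 hφ))
  rw [norm_sub_rev]
  exact Cut.norm_P_le _ _

end Crest.Agent.R81
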