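import Crest.Agent.R81.Basic

/-!
# Row 81 (S0108): models and the statements of all modules

Every module of the proof is a `Prop`-valued definition `...Stmt`.  Each module file proves an
implication between these statements and imports only this file (and, if useful, the frozen
files `R75/*`), so all modules are independent.  The overall proof is described in
`R81/Blueprint.lean`; recipes are in the docstrings below.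

Coordinates of the torus are `(x 0, x 1, x 2) = (X, Y, Z)`; a *mode* is `m = (k, j)`,
`k = m.1`, `j = m.2`; `I = [α, 1-α]`.
-/

set_option autoImplicit false

open MeasureTheory Finset Crest.AnalysisR.Torus3 Crest.Agent.R75
open scoped InnerProductSpace ComplexConjugate ContDiff

namespace Crest.Agent.R81

/-! ## Models -/

/-- `E` is smooth, `1`-periodic, and equals `y²/2` (with derivative `y`) on `[α, 1-α]`. -/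
structure GoodE (α : ℝ) (E : ℝ → ℝ) : Prop where
  smooth : ContDiff ℝ ∞ E
  per : Function.Periodic E 1
  val : ∀ y ∈ Set.Icc α (1 - α), E y = y ^ 2 / 2
  der : ∀ y ∈ Set.Icc α (1 - α), deriv E y = y

/-- A set of modes closed under taking integer divisors (in particular symmetric). -/
def DivClosed (G : Finset (ℤ × ℤ)) : Prop := ∀ m ∈ G, ∀ (b : ℤ) (m' : ℤ × ℤ), m = b • m' → m' ∈ G

theorem DivClosed.neg_mem {G : Finset (ℤ × ℤ)} (h : DivClosed G) {m : ℤ × ℤ} (hm : m ∈ G) :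
    -m ∈ G := h m hm (-1) (-m) (by simp)

/-- The data of a model: the skew product
`(X, Y, Z) ↦ (X + dbar + σ E'(Y), Y + b, Z + γ)` and the vector `g = ∑ c m • atom α m (θ m)`. -/
structure Model where
  /-- translation in `X` -/
  dbar : ℝ
  /-- size of the twist -/
  σ : ℝ
  /-- the good interval is `[α, 1-α]` -/
  α : ℝ
  /-- primitive of the twist -/
  E : ℝ → ℝ
  /-- integer translation in `Y` -/
  b : ℤ
  /-- rational translation in `Z` -/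
  γ : ℝ
  /-- a denominator of `γ` -/
  q : ℕ
  /-- the modes of `g` -/
  G : Finset (ℤ × ℤ)
  /-- the `Y`-frequencies of the atoms of `g` -/
  θ : ℤ × ℤ → ℝ
  /-- the coefficients of `g` -/
  c : ℤ × ℤ → ℂ

namespace Model

/-- The eigenfrequency of the mode `m` on the fibre `Y = y ∈ [α, 1-α]`. -/
def freq (M : Model) (m : ℤ × ℤ) (y : ℝ) : ℝ := m.1 * (M.dbar + M.σ * y) + m.2 * M.γ

/-- The defect: the part of the circle not covered by the frequency intervals. -/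
noncomputable def d (M : Model) : ℝ := 1 - ∑ m ∈ M.G, |(m.1 : ℝ)| * M.σ * (1 - 2 * M.α)

/-- The vector of the model. -/
noncomputable def g (M : Model) : L2 := ∑ m ∈ M.G, M.c m • atom M.α m (M.θ m)

/-- `S` is the skew product of the model. -/
def IsMap (M : Model) (S : TD) : Prop :=
  ∀ x : R3, S.F x = ![x 0 + M.dbar + M.σ * deriv M.E (x 1), x 1 + M.b, x 2 + M.γ]

/-- Validity of a model. -/
structure Valid (M : Model) : Prop where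
  σ_pos : 0 < M.σ
  α_pos : 0 < M.α
  α_lt : M.α < 1 / 4
  goodE : GoodE M.α M.E
  q_pos : 0 < M.q
  qγ : ∃ n : ℤ, (M.q : ℝ) * M.γ = n
  k_ne : ∀ m ∈ M.G, m.1 ≠ 0
  div : DivClosed M.G
  θ_neg : ∀ m ∈ M.G, M.θ (-m) = -M.θ m
  c_neg : ∀ m ∈ M.G, M.c (-m) = conj (M.c m)
  c_norm : ∀ m ∈ M.G, ‖M.c m‖ ^ 2 = |(m.1 : ℝ)| * M.σ
  disj : ∀ m ∈ M.G, ∀ m' ∈ M.G, ∀ y ∈ Set.Icc M.α (1 - M.α), ∀ y' ∈ Set.Icc M.α (1 - M.α),
    ∀ n : ℤ, M.freq m y - M.freq m' y' = n → m = m' ∧ y = y'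

end Model

/-- Hypotheses of a step: `N` are the new modes (to be absorbed into `g`), `P` the passive ones. -/
structure StepHyp (M : Model) (N P : Finset (ℤ × ℤ)) : Prop where
  k_ne : ∀ m ∈ N ∪ P, m.1 ≠ 0
  div₁ : DivClosed (M.G ∪ N)
  div₂ : DivClosed (M.G ∪ N ∪ P)
  disj : Disjoint P (M.G ∪ N)
  ndvd : ∀ m ∈ N, ∀ m' ∈ M.G, ¬ m.1 ∣ m'.1
  uniq : ∀ m ∈ N, ∀ m' ∈ M.G ∪ N ∪ P, m.1 = m'.1 → m = m'
  small : ∀ m ∈ N, |(m.1 : ℝ)| * M.σ < 1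

/-- A state of the construction: a conjugacy `H` and a valid model with its map. -/
structure St where
  /-- the conjugacy -/
  H : TD
  /-- the model map -/
  S : TD
  /-- the model -/
  M : Model
  valid : M.Valid
  isMap : M.IsMap S

/-- The diffeomorphism of a state. -/
def St.T (s : St) : TD := s.H * s.S * s.H⁻¹

/-- The vector of a state. -/
noncomputable def St.G (s : St) : L2 := kp s.H⁻¹ s.M.g

theorem St.kp_T_zpow_G (s : St) (n : ℤ) :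
    kp (s.T ^ n) s.G = kp s.H⁻¹ (kp (s.S ^ n) s.M.g) := by
  rw [St.T, St.G, conj_zpow, ← kp_mul, ← kp_mul]
  congr 1; group

/-! ## Integration and fibre functions -/

/-- **Module Integral.**  Fubini on the torus.  Recipe: `measurePreserving_piFinSuccAbove`
(or `MeasureTheory.volume_preserving_piFinSuccAbove`, `measurePreserving_finTwoArrow`) to pass
to a product of three circles, `integral_prod`, and `UnitAddCircle.intervalIntegral_preimage 0`. -/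
def IntegralStmt : Prop :=
  ∀ f : T3 → ℂ, Integrable f →
    ∫ x, f x = ∫ y in (0 : ℝ)..1, ∫ z in (0 : ℝ)..1, ∫ x in (0 : ℝ)..1, f (proj ![x, y, z])

/-- **Module Fib** (from `IntegralStmt`).  (a) inner products of fibre functions
(`inner_toL2`, `fibF_proj`, `integral_ee_int`; `Int.fract y = y` on `[0,1)`);
(b) mean zero; (c) the action of the powers of the model map: by induction on `n`
`(S^n).F x = ![x 0 + n (dbar + σ E'(x 1)), x 1 + n b, x 2 + n γ]` (`E'` is `1`-periodic), then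
`kp_toL2`, `TD.cov`, `fibF_proj` and `E'(y) = E'(fract y) = fract y` when `fract y ∈ I`;
(d) orthonormality of the characters; (e) `‖ch k l j - atom α (k,j) l‖² ≤ 2α` (the difference is
a unimodular function times the indicator of `rep (x 1) ∉ I`). -/
structure FibStmt : Prop where
  inner_fib : ∀ (α : ℝ) (m m' : ℤ × ℤ) (φ φ' : ℝ → ℂ), 0 ≤ α → α ≤ 1 / 2 → Continuous φ →
    Continuous φ' → ⟪fib α m φ, fib α m' φ'⟫_ℂ =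
      if m = m' then ∫ y in α..(1 - α), conj (φ y) * φ' y else 0
  mean_fib : ∀ (α : ℝ) (m : ℤ × ℤ) (φ : ℝ → ℂ), Continuous φ → m.1 ≠ 0 →
    ⟪ch 0 0 0, fib α m φ⟫_ℂ = 0
  kp_fib : ∀ (M : Model) (S : TD) (n : ℤ) (m : ℤ × ℤ) (φ : ℝ → ℂ), GoodE M.α M.E → M.IsMap S →
    Continuous φ → kp (S ^ n) (fib M.α m φ) = fib M.α m fun y => φ y * ee (n * M.freq m y)
  inner_ch : ∀ k l j k' l' j' : ℤ,
    ⟪ch k l j, ch k' l' j'⟫_ℂ = if (k, l, j) = (k', l', j') then 1 else 0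
  ch_sub_atom : ∀ (α : ℝ) (k l j : ℤ), 0 ≤ α → α ≤ 1 / 2 →
    ‖ch k l j - atom α (k, j) l‖ ^ 2 ≤ 2 * α

/-- **Module Cut** (from `IntegralStmt`).  Put `u p = ch p - atom α (k,j) l`, the class of
`1_{rep (x 1) ∉ I} chF p`.  For `k ≠ k'` the vectors `u p`, `u p'` are orthogonal (integrate in
`x` first), so by Pythagoras `‖∑_{k ≠ 0} a u‖ ≤ ‖∑_{all} a u‖`; and `∑_{all} a u` is the class of
`1_{∉ I} ∑ a chF = 1_{∉ I} (∑ a chF - φ) + 1_{∉ I} φ`, of norm at most `‖φ - ∑ a ch‖ + √(2α)`. -/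
def CutStmt : Prop :=
  ∀ (α : ℝ) (φ : L2) (A : Finset (ℤ × ℤ × ℤ)) (a : ℤ × ℤ × ℤ → ℂ), 0 ≤ α → α ≤ 1 / 2 →
    (∀ᵐ x, ‖φ x‖ ≤ 1) →
    ‖∑ p ∈ A.filter (fun p => p.1 ≠ 0), a p • (ch p.1 p.2.1 p.2.2 - atom α (p.1, p.2.2) p.2.1)‖ ≤
      ‖φ - ∑ p ∈ A, a p • ch p.1 p.2.1 p.2.2‖ + √(2 * α)

/-- **Module Dense** (from `FibStmt`).  Trigonometric polynomials without constant term are
dense in the mean-zero functions.  Recipe: `UnitAddTorus.span_mFourier_closure_eq_top` (density in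
`C(T3, ℂ)`) and `ContinuousMap.toLp_denseRange`; `mFourier ![k,l,j] = chF k l j`; the constant
term `a₀` satisfies `‖a₀‖ = ‖⟪ch 0 0 0, φ - ∑ a ch⟫‖ ≤ ‖φ - ∑ a ch‖`. -/
def DenseStmt : Prop :=
  ∀ (φ : L2) (ε : ℝ), ⟪ch 0 0 0, φ⟫_ℂ = 0 → 0 < ε →
    ∃ (A : Finset (ℤ × ℤ × ℤ)) (a : ℤ × ℤ × ℤ → ℂ), (0, 0, 0) ∉ A ∧
      ‖φ - ∑ p ∈ A, a p • ch p.1 p.2.1 p.2.2‖ ≤ ε

/-- **Module SubFlat.**  The maps `y ↦ freq m y mod 1` (`m ∈ G`, `y ∈ I`) are injective with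
disjoint images (`Valid.disj`), and `|k| σ ∫_I φ(freq m y) dy = ∫_{J_m} φ` for the real interval
`J_m = freq m '' I`, whose length is `< 1` by injectivity.  Recipe: let `A_m ⊆ UnitAddCircle` be
the (compact) image of `J_m`, `Φ` the function on the circle induced by `φ`; with
`J_m ⊆ Ioc a (a+1)` and `AddCircle.measurePreserving_mk 1 a` one gets `∫_{A_m} Φ = ∫_{J_m} φ`; sum
over the disjoint `A_m` (`integral_biUnion_finset`/`setIntegral_le_integral`). -/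
def SubFlatStmt : Prop :=
  ∀ (M : Model) (φ : ℝ → ℝ), M.Valid → Continuous φ → Function.Periodic φ 1 → (∀ t, 0 ≤ φ t) →
    ∑ m ∈ M.G, |(m.1 : ℝ)| * M.σ * ∫ y in M.α..(1 - M.α), φ (M.freq m y) ≤ ∫ t in (0 : ℝ)..1, φ t

/-- **Module Spec** (from `FibStmt`, `SubFlatStmt`).  `0 ≤ d` is `SubFlatStmt` with `φ = 1`.
`⟪g, kp (S^n) g⟫ = ∑ |k| σ ∫_I e(n freq m y) dy =: z`.  For `n ≠ 0` and a unit complex number `w`
apply `SubFlatStmt` to `φ t = 1 - re (w e(n t)) ≥ 0` (`∫₀¹ φ = 1`): `(1 - d) - re (w z) ≤ 1`, so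
`-re (w z) ≤ d` for all unit `w`, i.e. `‖z‖ ≤ d`.  Reality: `fibF α (-m) (conj φ) = conj fibF`, so
`g` is a.e. equal to a function `∑_{m ∈ G} f m` with `f (-m) = conj (f m)`; reindex by `m ↦ -m`. -/
structure SpecStmt : Prop where
  d_nonneg : ∀ M : Model, M.Valid → 0 ≤ M.d
  norm_g : ∀ M : Model, M.Valid → ‖M.g‖ ^ 2 = 1 - M.d
  real_g : ∀ M : Model, M.Valid → IsReal M.g
  mean_g : ∀ M : Model, M.Valid → ⟪ch 0 0 0, M.g⟫_ℂ = 0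
  corr : ∀ (M : Model) (S : TD), M.Valid → M.IsMap S → ∀ n : ℤ,
    ‖⟪M.g, kp (S ^ n) M.g⟫_ℂ - (if n = 0 then 1 else 0)‖ ≤ M.d

/-- **Module Approx** (from `FibStmt`).  With `P t = ∑ p n e(n t)`,
`∑ p n • kp (S^n) g = ∑_m c m • fib α m (e(θ y) P(freq m y))`.  The images `K_m` of `I` under
`freq m` in `UnitAddCircle` are disjoint compact sets (`Valid.disj`); Urysohn
(`exists_continuous_zero_one_of_isClosed`) gives `χ_m` equal to `1` on `K_m`, `0` on the other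
`K_{m'}`, with values in `[0,1]`; approximate `Φ = ∑ a m χ_m` uniformly within `η ≤ 1` by a
trigonometric polynomial (`span_fourier_closure_eq_top`, `fourier_coe_apply`); finally
`‖fib α m ψ‖ ≤ η` when `‖ψ‖ ≤ η` on `I` (from `inner_fib`). -/
def ApproxStmt : Prop :=
  ∀ (M : Model) (S : TD) (a : ℤ × ℤ → ℂ) (ε : ℝ), M.Valid → M.IsMap S → 0 < ε →
    ∃ (A : Finset ℤ) (p : ℤ → ℂ),
      (∀ t : ℝ, ‖∑ n ∈ A, p n * ee (n * t)‖ ≤ ∑ m ∈ M.G, ‖a m‖ + 1) ∧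
      ‖∑ n ∈ A, p n • kp (S ^ n) M.g - ∑ m ∈ M.G, (a m * M.c m) • atom M.α m (M.θ m)‖ ≤ ε

/-! ## The arithmetic gadget -/

/-- Normalised discrete Fourier coefficient of `J ↦ e(k ψ J)` modulo `M`. -/
noncomputable def dft (M : ℕ) (ψ : ℤ → ℝ) (k n : ℤ) : ℂ :=
  (1 / (M : ℂ)) * ∑ J ∈ range M, ee (k * ψ J - n * J / M)

/-- The inductive form of the gadget. -/
structure PreGadget (K : ℕ) (D : Finset ℤ) (η : ℝ) (ℓ₀ M : ℕ) (ψ : ℤ → ℝ) (L : ℤ → ℕ) : Prop where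
  M_pos : 0 < M
  per : ∀ J : ℤ, ψ (J + M) = ψ J
  L_pos : ∀ k, 0 < L k
  L_dvd : ∀ b k : ℤ, L k ∣ L (b * k)
  L_big : ∀ k : ℤ, (∃ d ∈ D, d ∣ k) → ℓ₀ ≤ L k
  short : ∀ k : ℤ, k ≠ 0 → |k| ≤ K → ∃ M' : ℕ, M = k.natAbs * L k * M' ∧
    ∀ J : ℤ, ee (k * ψ (J + M')) = ee (k * ψ J)
  flat : ∀ k : ℤ, k ≠ 0 → |k| ≤ K → (∀ d ∈ D, ¬ d ∣ k) → ∀ n : ℤ,
    ‖dft M ψ k n‖ ^ 2 ≤ (1 + η) * |(k : ℝ)| / M

/-- The gadget: `e(k ψ)` has a flat spectrum on the multiples of `k` if no `d ∈ D` divides `k`,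
and a sparse spectrum otherwise. -/
structure Gadget (K : ℕ) (D : Finset ℤ) (η : ℝ) (ℓ₀ M : ℕ) (ψ : ℤ → ℝ) (L : ℤ → ℕ) : Prop where
  M_pos : 0 < M
  per : ∀ J : ℤ, ψ (J + M) = ψ J
  L_dvd : ∀ b k : ℤ, L k ∣ L (b * k)
  L_big : ∀ k : ℤ, (∃ d ∈ D, d ∣ k) → ℓ₀ ≤ L k
  k_dvd : ∀ k : ℤ, k ≠ 0 → |k| ≤ K → k ∣ M
  vanish : ∀ k : ℤ, k ≠ 0 → |k| ≤ K → ∀ ν : ℤ, dft M ψ k (k * ν) ≠ 0 → (L k : ℤ) ∣ ν
  mass : ∀ k : ℤ, k ≠ 0 → |k| ≤ K → ∀ a : ℤ,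
    ∑ ν ∈ Ico a (a + (M : ℤ) / |k|), ‖dft M ψ k (k * ν)‖ ^ 2 = 1
  flat : ∀ k : ℤ, k ≠ 0 → |k| ≤ K → (∀ d ∈ D, ¬ d ∣ k) → ∀ n : ℤ,
    ‖dft M ψ k n‖ ^ 2 ≤ (1 + η) * |(k : ℝ)| / M

/-- **Module GadgetChar**: one more sparse class.  Take a prime `ℓ ≡ 1 mod |d|`
(`Nat.exists_prime_gt_modEq_one`) with `ℓ > M`, `ℓ ≥ ℓ₀` and `(1+η)(1+1/√ℓ)² ≤ 1+η'`, a character
`χ : MulChar (ZMod ℓ) ℂ` of order `|d|` (`MulChar.exists_mulChar_orderOf`), integers `φ J`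
depending only on `J mod ℓ` with `χ J = e(φ J / |d|)` for `J ≢ 0` and `φ J = 0` for `J ≡ 0`.  Put
`M' = M ℓ`, `ψ' J = ψ J + φ J / |d|`, `L' k = L k * (if d ∣ k then ℓ else 1)`.  If `d ∤ k`
then `χ^k ≠ 1` and `|∑_{J mod ℓ} e(k φ J/|d| - n J/ℓ)| ≤ √ℓ + 1` (Gauss sum plus the term `J = 0`:
`gaussSum_mul_gaussSum_eq_card`, `star_gaussSum_eq`, `MulChar.sum_eq_zero_of_ne_one`), and by the
Chinese remainder theorem (`R75.sum_crt`/`flat_mul` in `R75/Perfect.lean`; write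
`n/(Mℓ) ≡ n₁/M + n₂/ℓ` by Bezout) `dft M' ψ' k n` is a product of two such coefficients. -/
def GadgetCharStmt : Prop :=
  ∀ (K : ℕ) (D : Finset ℤ) (η η' : ℝ) (ℓ₀ M : ℕ) (ψ : ℤ → ℝ) (L : ℤ → ℕ) (d : ℤ),
    PreGadget K D η ℓ₀ M ψ L → d ≠ 0 → 0 ≤ η → η < η' →
    ∃ (M' : ℕ) (ψ' : ℤ → ℝ) (L' : ℤ → ℕ), PreGadget K (insert d D) η' ℓ₀ M' ψ' L'

/-- **Module Gadget** (from `GadgetCharStmt`).  Base case `D = ∅`, `η = 0`: `M = 2 K!`,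
`ψ J = (J % M)² / (2M)`, `L = 1` (Chu sequence: `e(k ψ J) = e(k J²/(2M))` has period `M/|k|`, which
is even; `‖∑_J‖² = ∑_h e(..) ∑_J e(k J h / M)`, `sum_ee_div`, and exactly `|k|` values `h < M`
have `M ∣ k h`).  Induction on `D` (for all `η > 0`).  `PreGadget → Gadget`: if `e(k ψ)` has period
`M' ∣ M` then `dft M ψ k n = e(-n M'/M)⁻¹ dft ..` forces `(M/M') ∣ n` or `dft = 0`; `mass` is
Parseval `∑_{n mod M} ‖dft n‖² = 1`, `dft` is `M`-periodic in `n`, and only multiples of `k`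
contribute. -/
def GadgetStmt : Prop :=
  ∀ (K : ℕ) (D : Finset ℤ) (η : ℝ) (ℓ₀ : ℕ), 0 ∉ D → 0 < η →
    ∃ (M : ℕ) (ψ : ℤ → ℝ) (L : ℤ → ℕ), Gadget K D η ℓ₀ M ψ L

/-! ## Stationary phase -/

/-- The chirp transform `∫_I e(β y²/2 - ξ y) dy`. -/
noncomputable def phiHat (α β ξ : ℝ) : ℂ := ∫ y in α..(1 - α), ee (β * y ^ 2 / 2 - ξ * y)

/-- **Module Fresnel.**  Complete the square around `y₀ = ξ/β`, substitute
`t = √|β| (y - y₀)`: `√|β| ‖phiHat‖ = ‖∫_{-A}^{B} e(t²/2) dt‖` (complex conjugate if `β < 0`) with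
`A, B ≥ ζ √|β|`.  By `R75.StatPhase.fres_sub_gam`, `tail_pos`/`tail_neg` with `s = 0` and
`R75.vdc1` this is within `8/(ζ√|β|)` of `‖gam‖ = 1` (see the proof of `norm_gam`). -/
def FresnelStmt : Prop :=
  ∀ ζ η : ℝ, 0 < ζ → 0 < η → ∃ β₀ : ℝ, 0 < β₀ ∧ ∀ α β ξ : ℝ, β₀ ≤ |β| → α + ζ ≤ ξ / β →
    ξ / β ≤ 1 - α - ζ → abs (|β| * ‖phiHat α β ξ‖ ^ 2 - 1) ≤ η

/-- The range of the frequencies `ν` that carry the energy. -/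
noncomputable def Rng (α ζ x : ℝ) : Finset ℤ := Icc ⌈(α + ζ) * x⌉ ⌊(1 - α - ζ) * x⌋

/-- **Module Energy** (from `FresnelStmt`).  Put `x = Mσ/u`, `A = 1-2α-2ζ ≥ 1/4`, `β = kσ/u`,
`ξ = kν/M - θ`; `ξ/β = ν/x - θu/(kσ) ∈ [α+ζ/2, 1-α-ζ/2]` for `ν ∈ Rng`, so
`‖phiHat‖² = (u/(|k|σ)) (1 ± η₁)` for small `u`.  `Rng` is an interval of `n ∈ [Ax-1, Ax+1]`
integers; it contains `⌊n/m₁⌋` disjoint windows of length `m₁ = M/|k|` and is covered by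
`⌊n/m₁⌋+1` windows, each of mass `1`; this gives the first two claims.  Third claim: with
`a = |k|σ‖C φ‖²`, `t₀ = |k|u/M`, `t₁ = (1+η)(1+η₁)t₀ ≥ a`:
`(√a - τ)² ≤ |a - τ²| ≤ (t₁ - a) + (t₁ - t₀) + η t₀`; sum, using `n t₀ ≤ |k|σ A + t₀` and the first
claim. -/
def EnergyStmt : Prop :=
  ∀ (α σ ζ ε Θ₀ : ℝ) (M : ℕ), 0 < α → α < 1 / 4 → 0 < σ → 0 < ζ → ζ ≤ 1 / 8 → 0 < ε → 0 < M →
    ∃ u₀ : ℝ, 0 < u₀ ∧ ∀ u : ℝ, 0 < u → u < u₀ → ∀ (k : ℤ) (θ : ℝ) (C : ℤ → ℂ), k ≠ 0 → k ∣ M →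
      |θ| ≤ Θ₀ → (∀ a : ℤ, ∑ ν ∈ Ico a (a + (M : ℤ) / |k|), ‖C ν‖ ^ 2 = 1) →
      (1 - 2 * α - 2 * ζ - ε ≤
        ∑ ν ∈ Rng α ζ (M * σ / u), ‖C ν * phiHat α (k * σ / u) (k * ν / M - θ)‖ ^ 2) ∧
      (∑ ν ∈ Rng α ζ (M * σ / u), ‖C ν * phiHat α (k * σ / u) (k * ν / M - θ)‖ ^ 2 ≤ 2) ∧
      ∀ (η : ℝ) (τ : ℤ → ℝ), 0 ≤ η → η ≤ 1 → (∀ ν, ‖C ν‖ ^ 2 ≤ (1 + η) * |(k : ℝ)| / M) →
        (∀ ν ∈ Rng α ζ (M * σ / u), 0 ≤ τ ν ∧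
          abs (τ ν ^ 2 - |(k : ℝ)| * (u / M)) ≤ η * (|(k : ℝ)| * (u / M))) →
        ∑ ν ∈ Rng α ζ (M * σ / u),
          (√(|(k : ℝ)| * σ) * ‖C ν * phiHat α (k * σ / u) (k * ν / M - θ)‖ - τ ν) ^ 2 ≤
          |(k : ℝ)| * σ * (4 * η + ε)

/-! ## Smooth objects -/

/-- A smooth doubly periodic function of two variables. -/
structure Per2 (V : ℝ → ℝ → ℝ) : Prop where
  smooth : ContDiff ℝ ∞ (Function.uncurry V)
  per₁ : ∀ Y W, V (Y + 1) W = V Y W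
  per₂ : ∀ Y W, V Y (W + 1) = V Y W

/-- The smooth version of the step function `ψ (⌊Y⌋ - ⌊Y - M W⌋)`. -/
structure GoodV (α α' : ℝ) (M : ℕ) (ψ : ℤ → ℝ) (V : ℝ → ℝ → ℝ) : Prop where
  per : Per2 V
  val : ∀ Y W : ℝ, Int.fract Y ∈ Set.Icc α (1 - α) →
    Int.fract (Y - M * W) ∈ Set.Icc α' (1 - α') → V Y W = ψ (⌊Y⌋ - ⌊Y - M * W⌋)

/-- **Module Smooth.**  Let `B_α` be a smooth bump (`ContDiffBump` centred at `1/2`, or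
`Real.smoothTransition`), `= 1` on `[α/2, 1-α/2]`, `= 0` outside `[α/4, 1-α/4]`.
(a) `E y = B(fract y) (fract y)²/2`; (b) `V Y W = B_α(fract Y) B_α'(fract (Y - M W)) ψ(..)`.
Smoothness is local (`contDiff_iff_contDiffAt`): near a point where the fractional parts are
nonzero the floors are locally constant (`ContDiffAt.congr_of_eventuallyEq`); near the other points
the function vanishes identically.
(c) Hadamard: `Δ Y z = ∫₀¹ E'(Y + t z) dt`; smoothness from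
`contDiffOn_convolution_right_with_param` with `f = indicator [0,1]`, parameter `p = (Y, z)`,
`g p x = χ x * E'(Y - x z)` (`χ` a bump equal to `1` on `[-1,0]`), evaluated at `0`. -/
structure SmoothStmt : Prop where
  exE : ∀ α : ℝ, 0 < α → α < 1 / 4 → ∃ E, GoodE α E
  exV : ∀ (α α' : ℝ) (M : ℕ) (ψ : ℤ → ℝ), 0 < α → α < 1 / 4 → 0 < α' → α' < 1 / 4 →
    (∀ J : ℤ, ψ (J + M) = ψ J) → ∃ V, GoodV α α' M ψ V
  hadamard : ∀ E : ℝ → ℝ, ContDiff ℝ ∞ E → Function.Periodic E 1 →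
    ∃ Δ : ℝ → ℝ → ℝ, ContDiff ℝ ∞ (Function.uncurry Δ) ∧ (∀ Y z, E (Y + z) - E Y = z * Δ Y z) ∧
      (∀ Y, Δ Y 0 = deriv E Y) ∧ ∀ Y z, Δ (Y + 1) z = Δ Y z

/-- The lift of the conjugacy of a step. -/
noncomputable def stepF (lam N : ℤ) (W : ℝ → ℝ → ℝ) (x : R3) : R3 :=
  ![x 2 + lam * x 0 + W (x 1 + N * x 0) (x 0), x 1 + N * x 0, x 0]

/-- The phase function of the conjugacy of a step. -/
noncomputable def Wf (σ : ℝ) (E : ℝ → ℝ) (u : ℝ) (V : ℝ → ℝ → ℝ) (Q : ℕ) (Y Z : ℝ) : ℝ :=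
  σ * E Y / u + V Y (Q * Z)

/-- **Module Maps.**  General lemma: for `i : Fin 3` and a smooth `f : R3 → ℝ` that does not
depend on the coordinate `i` and satisfies `f (x + n) - f x ∈ ℤ` for integer vectors `n`, the shear
`x ↦ Function.update x i (x i + f x)` is the lift of a `TD` (torus map
`t ↦ update t i (t i + ↑(f (rep ∘ t)))`; measure preservation by `measurePreserving_piFinSuccAbove`
and `MeasurePreserving.skew_product`, or by Fubini); also the swap of coordinates `0, 2`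
(`measurePreserving_piCongrLeft`/`measurePreserving_arrowCongr'`).  The model map is a product of
three shears; `stepF = swap ∘ shear₂ ∘ shear₁`. -/
structure MapsStmt : Prop where
  model : ∀ M : Model, ContDiff ℝ ∞ M.E → Function.Periodic M.E 1 → ∃ S : TD, M.IsMap S
  step : ∀ (lam N : ℤ) (W : ℝ → ℝ → ℝ), Per2 W → ∃ h : TD, ∀ x, h.F x = stepF lam N W x

/-- **Module Close.**  `D (p, x) = Φ (p, x) - Φ (0, x)` is smooth, vanishes at `p = 0` and is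
periodic in `x`.  `(p, x) ↦ iteratedFDeriv ℝ i (fun y => D (p, y)) x` is jointly continuous (it is
`(iteratedFDeriv ℝ i D (p, x)).compContinuousLinearMap (fun _ => inr)`, see
`ContinuousLinearMap.iteratedFDeriv_comp_right`, `iteratedFDeriv_comp_add_left`), periodic in `x`
and zero at `p = 0`; use the tube lemma on the compact cube `[0,1]³`
(`IsCompact.eventually_forall_of_forall_eventually`). -/
def CloseStmt : Prop :=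
  ∀ (Φ : (ℝ × ℝ × ℝ) × R3 → R3) (r : ℕ) (ε : ℝ), ContDiff ℝ ∞ Φ →
    (∀ (p : ℝ × ℝ × ℝ) (x : R3) (n : Fin 3 → ℤ),
      Φ (p, x + fun i => (n i : ℝ)) - Φ (0, x + fun i => (n i : ℝ)) = Φ (p, x) - Φ (0, x)) →
    0 < ε → ∃ δ : ℝ, 0 < δ ∧ ∀ p : ℝ × ℝ × ℝ, ‖p‖ < δ →
      CClose r ε (fun x => Φ (p, x)) (fun x => Φ (0, x))

/-- **Module ConjClose** (from `SmoothStmt.hadamard`, `CloseStmt`).  Write `a = deriv E₂`,
`v = Y - M Q Z`, `ρ = 1 + Q e a(v)`, `p = (u, c, e)` with `e = 1/lam`, and for `t = ±1`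
`φ^t_p (X,Y,Z) = (X + t (dbar + c + (u/M) a(v)) + σ t ρ Δ Y (t u ρ)
   + V (Y + t u ρ) (Q Z + t (u/M) ρ) - V Y (Q Z),  Y + t b + t u ρ,  Z + t γ + t (u/(M Q)) ρ)`.
This is jointly smooth in `(p, x)`, commutes with integer translations, `φ^t_0 = (S^t).F`, and
`(h * S'^t * h⁻¹).F = φ^t_p` (use `h⁻¹.F (X,Y,Z) = (Z, Y - MQZ, X - lam Z - W Y Z)`, periodicity of
`E`, `a`, `V`, and `Q γ ∈ ℤ`).  Apply `CloseStmt` to `Φ (p, x) = H.F (φ^t_p (H⁻¹.F x))`; the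
periodicity follows from `TD.lat H⁻¹`. -/
def ConjCloseStmt : Prop :=
  ∀ (H S : TD) (M₀ : Model) (E₂ : ℝ → ℝ) (V : ℝ → ℝ → ℝ) (M Q r : ℕ) (ε : ℝ),
    ContDiff ℝ ∞ M₀.E → Function.Periodic M₀.E 1 → ContDiff ℝ ∞ E₂ → Function.Periodic E₂ 1 →
    Per2 V → 0 < M → 0 < Q → (∃ n : ℤ, (Q : ℝ) * M₀.γ = n) → M₀.IsMap S → 0 < ε →
    ∃ δ : ℝ, 0 < δ ∧ ∀ (u c : ℝ) (lam : ℕ) (h S' : TD) (M₁ : Model), 0 < u → u < δ → |c| < δ →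
      0 < lam → 1 / (lam : ℝ) < δ →
      (∀ x, h.F x = stepF lam (M * Q) (Wf M₀.σ M₀.E u V Q) x) → M₁.IsMap S' →
      M₁.dbar = M₀.γ + u / (M * Q) → M₁.σ = u / (lam * M) → M₁.E = E₂ →
      (M₁.b : ℝ) = M₀.b - M * Q * M₀.γ → M₁.γ = M₀.dbar + c - lam * (M₀.γ + u / (M * Q)) →
      TClose r ε (H * h * S' * (H * h)⁻¹) (H * S * H⁻¹)

/-! ## The action of the conjugacy on atoms -/

/-- The descendant of the mode `m = (k, j)` with index `ν`. -/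
def desc (lam Q : ℤ) (p : (ℤ × ℤ) × ℤ) : ℤ × ℤ := (p.1.1 * lam + p.1.2 + Q * p.1.1 * p.2, p.1.1)

/-- The weight of the descendant `ν` of `atom α m θ`. -/
noncomputable def wgt (α σ u : ℝ) (M : ℕ) (ψ : ℤ → ℝ) (m : ℤ × ℤ) (θ : ℝ) (ν : ℤ) : ℂ :=
  dft M ψ m.1 (m.1 * ν) * phiHat α (m.1 * σ / u) (m.1 * ν / M - θ)

/-- **Module Inner** (from `IntegralStmt`).  By `kp_toL2`, `inner_toL2`, `IntegralStmt`, `TD.cov`,
`fibF_proj`, the integrand at `![x, v, z]` (`v ∈ (0,1)`) is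
`1_{I'}(v) e(-n v/M - Q n x) 1_I({Y}) e(θ{Y} + kσ{Y}²/(2u) + kψ(⌊Y⌋))` with `Y = v + M Q x`
(`GoodV.val`, `⌊v⌋ = 0`, `E Y = E {Y}`), independent of `z`.  Since `-n v/M - Q n x = -n Y/M`, the
inner integral is `(1/(MQ)) ∫_v^{v+MQ} G(Y) dY` with the `M`-periodic function
`G Y = 1_I({Y}) e(θ{Y} + β{Y}²/2 + kψ(⌊Y⌋) - nY/M)`, hence `(1/M) ∑_{J<M} ∫_J^{J+1} G`
(`Function.Periodic.intervalIntegral_add_zsmul_eq`, `intervalIntegral.sum_integral_adjacent_intervals`,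
or `R75.integral_split` in `R75/Base.lean`) `= dft * phiHat`. -/
structure InnerStmt : Prop where
  inner_atom : ∀ (α α' σ u : ℝ) (E : ℝ → ℝ) (M Q : ℕ) (ψ : ℤ → ℝ) (V : ℝ → ℝ → ℝ) (lam : ℤ)
    (h : TD) (k j n : ℤ) (θ : ℝ), 0 < α → α < 1 / 4 → 0 < α' → α' < 1 / 4 → GoodE α E → 0 < M →
    0 < Q → (∀ J : ℤ, ψ (J + M) = ψ J) → GoodV α α' M ψ V →
    (∀ x, h.F x = stepF lam (M * Q) (Wf σ E u V Q) x) →
    ⟪atom α' (k * lam + j + Q * n, k) (n / M), kp h (atom α (k, j) θ)⟫_ℂ =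
      (1 - 2 * α' : ℝ) * dft M ψ k n * phiHat α (k * σ / u) (n / M - θ)
  kp_ch : ∀ (lam N : ℤ) (W : ℝ → ℝ → ℝ) (h : TD) (l j : ℤ), (∀ x, h.F x = stepF lam N W x) →
    kp h (ch 0 l j) = ch (j + N * l) l 0

/-- **Module Proj** (from `InnerStmt`, `FibStmt`): the distance to the projection on an orthogonal
family (`‖atom α m θ‖² = 1 - 2α`, atoms with different modes are orthogonal). -/
def ProjStmt : Prop :=
  ∀ (α α' σ u : ℝ) (E : ℝ → ℝ) (M Q : ℕ) (ψ : ℤ → ℝ) (V : ℝ → ℝ → ℝ) (lam : ℤ) (h : TD)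
    (m : ℤ × ℤ) (θ : ℝ) (A : Finset ℤ), 0 < α → α < 1 / 4 → 0 < α' → α' < 1 / 4 → GoodE α E →
    0 < M → 0 < Q → (∀ J : ℤ, ψ (J + M) = ψ J) → GoodV α α' M ψ V →
    (∀ x, h.F x = stepF lam (M * Q) (Wf σ E u V Q) x) → m.1 ≠ 0 →
    ‖kp h (atom α m θ) -
        ∑ ν ∈ A, wgt α σ u M ψ m θ ν • atom α' (desc lam Q (m, ν)) (m.1 * ν / M)‖ ^ 2 =
      (1 - 2 * α) - (1 - 2 * α') * ∑ ν ∈ A, ‖wgt α σ u M ψ m θ ν‖ ^ 2

/-- **Module GEst** (from `FibStmt`, `SpecStmt`).  Put `v = kp h g`, `e = e₁ ∑‖c‖ + e₂`,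
`g₁ = ∑_{p ∈ A} c' (D p) • atom' (D p)`.  Then `‖g₁ - v‖ ≤ e` (the atoms `atom' (D p)` are
orthogonal of norm `≤ 1`), `g' - g₁` is orthogonal to `g₁` (modes outside `D '' A`),
`‖g'‖² ≤ 1`, `‖v‖² = 1 - d ≤ 1`, so `‖g₁‖² ≥ 1 - d - 2e` and `‖g' - g₁‖² ≤ d + 2e`. -/
def GEstStmt : Prop :=
  ∀ (M M' : Model) (h : TD) (A : Finset ((ℤ × ℤ) × ℤ)) (D : (ℤ × ℤ) × ℤ → ℤ × ℤ)
    (w : (ℤ × ℤ) × ℤ → ℂ) (e₁ e₂ : ℝ), M.Valid → M'.Valid → Set.InjOn D A →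
    (∀ p ∈ A, p.1 ∈ M.G ∧ D p ∈ M'.G) → 0 ≤ e₁ → 0 ≤ e₂ →
    (∀ m ∈ M.G, ‖kp h (atom M.α m (M.θ m)) -
      ∑ p ∈ A.filter (fun p => p.1 = m), w p • atom M'.α (D p) (M'.θ (D p))‖ ≤ e₁) →
    ∑ p ∈ A, ‖M'.c (D p) - M.c p.1 * w p‖ ^ 2 ≤ e₂ ^ 2 →
    ‖M'.g - kp h M.g‖ ≤ √M.d + (√(2 * (e₁ * ∑ m ∈ M.G, ‖M.c m‖ + e₂)) +
      (e₁ * ∑ m ∈ M.G, ‖M.c m‖ + e₂))

/-! ## Combinatorics of the cells -/

/-- A point of the frequency cell of the descendant `ν` of the mode `m`, with shift `s`. -/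
def cellPt (dbar κ ρ : ℝ) (s : ℕ) (m : ℤ × ℤ) (ν : ℤ) (a : ℝ) : ℝ :=
  m.1 * dbar + m.2 * κ + ρ * m.1 * (ν + s + a)

/-- The cell `(m, ν)` meets, modulo one, an occupied cell of another mode of `N`. -/
def Bad (dbar κ ρ : ℝ) (N : Finset (ℤ × ℤ)) (R : Finset ℤ) (L : ℤ → ℕ) (s : ℕ) (m : ℤ × ℤ)
    (ν : ℤ) : Prop :=
  ∃ m' ∈ N, m' ≠ m ∧ ∃ ν' ∈ R, (L m'.1 : ℤ) ∣ ν' ∧ ∃ a ∈ Set.Icc (0 : ℝ) 1,
    ∃ a' ∈ Set.Icc (0 : ℝ) 1, ∃ n : ℤ, cellPt dbar κ ρ s m ν a - cellPt dbar κ ρ s m' ν' a' = n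

theorem Bad.mono {dbar κ ρ : ℝ} {N : Finset (ℤ × ℤ)} {R R' : Finset ℤ} {L : ℤ → ℕ} {s : ℕ}
    {m : ℤ × ℤ} {ν : ℤ} (h : Bad dbar κ ρ N R L s m ν) (hR : R ⊆ R') :
    Bad dbar κ ρ N R' L s m ν := by
  obtain ⟨m', h1, h2, ν', h3, h4⟩ := h
  exact ⟨m', h1, h2, ν', hR h3, h4⟩

open Classical in
/-- **Module Select.**  Counting: fix `m ∈ F`, `ν ∈ R`, `m' ∈ N`, `m' ≠ m` (so `k ≠ k'`).  The
integer `n` lies within `2Kσ` of `(k-k') dbar + (j-j') κ`: at most `4Kσ+1` values.  For fixed `n`,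
two solutions `(s₁,ν₁',a₁,a₁')`, `(s₂,ν₂',a₂,a₂')` satisfy
`(k-k')(s₁-s₂) + k(a₁-a₂) - k'(a₁'-a₂') = k'(ν₁'-ν₂')`; the left side is at most `2KS+2K < L k'`, so
`ν₁' = ν₂'` and `|s₁-s₂| ≤ 2K`: at most `4K+1` values of `s`.  Hence
`#{s < S | Bad s m ν} ≤ #N (4K(σ+1)+1)(4K+1)`.  Averaging: sum the left side of the claim over
`s < S`, `m ∈ F`, `θ ∈ Θ`, exchange the sums, and pick `s` below the average
(`Finset.exists_le_of_sum_le`). -/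
def SelectStmt : Prop :=
  ∀ (dbar κ ρ σ : ℝ) (K S : ℕ) (F N : Finset (ℤ × ℤ)) (R : Finset ℤ) (L : ℤ → ℕ) (Θ : Finset ℝ)
    (wt : ℤ × ℤ → ℝ → ℤ → ℝ), 0 < ρ → 0 < σ → 0 < S → (∀ m ∈ F, |m.1| ≤ K) → N ⊆ F →
    (∀ m ∈ N, m.1 ≠ 0 ∧ 2 * K * S + 4 * K + 1 ≤ L m.1 ∧ ∀ m' ∈ F, m.1 = m'.1 → m = m') →
    (∀ ν ∈ R, 0 ≤ ν ∧ ρ * (ν + S + 1) ≤ σ) → (∀ m θ ν, 0 ≤ wt m θ ν) →
    (∀ m ∈ F, ∀ θ ∈ Θ, ∑ ν ∈ R, wt m θ ν ≤ 2) →
    ∃ s < S, ∀ m ∈ F, ∀ θ ∈ Θ,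
      ∑ ν ∈ R.filter (fun ν => ∃ m'' ∈ F, Bad dbar κ ρ N R L s m'' ν), wt m θ ν ≤
        2 * (F.card : ℝ) ^ 2 * Θ.card * (N.card * ((4 * K * (σ + 1) + 1) * (4 * K + 1))) / S

/-- The kept descendants of the modes of `A`. -/
def kept (L : ℤ → ℕ) (R : Finset ℤ) (A : Finset (ℤ × ℤ)) : Finset ((ℤ × ℤ) × ℤ) :=
  (A ×ˢ R).filter fun p => (L p.1.1 : ℤ) ∣ p.2

/-- **Module Geom.**  Write `ρ = u/M`, `κ = γ + u/(MQ)`, `t = j + Q k ν`, `k' = k lam + t`.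
*Divisibility:* if `k'₂ = b k'₁` then `|b| ≤ 2K+1`, so `(k₂ - b k₁) lam = b t₁ - t₂` has absolute
value `< lam`, so `k₂ = b k₁`, `t₂ = b t₁`, then `b ∣ j₂`, `j₂/b - j₁ = Q k₁ (ν₁ - ν₂)`, and
`Q > 2K` gives `ν₁ = ν₂`, `m₂ = b • m₁`.  *DivClosed:* if `desc (m,ν) = b • m''` then `b ∣ k`,
`b ∣ j`, `m = b • m₁`, `m'' = desc (m₁,ν)` and `(m₁,ν)` is kept (`L k₁ ∣ L k`).
*Disjointness:* `M₁.freq (desc (m,ν)) v = cellPt dbar κ ρ s m ν a + (Qγ) k ν` with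
`a = v + (k c₁ + t σ' v)/(ρ k) ∈ (0,1)` (injective in `v`: slope `1 + t/(k lam) ≠ 0`), and
`cellPt .. = M₀.freq m y` with `y = ρ(ν+s+a)/σ + jρ/(Q k σ) ∈ I`.  For two kept pairs with
congruent frequencies: if `m₁ ≠ m₂` and one of them is in `N` this contradicts `¬ Bad`; if both are
in `G` use `M₀.Valid.disj`; if `m₁ = m₂ ∈ N` use `|k|σ < 1`; then `ν₁ + a₁ = ν₂ + a₂`. -/
def GeomStmt : Prop :=
  ∀ (M₀ M₁ : Model) (N P : Finset (ℤ × ℤ)) (K Q M S s lam r₀ : ℕ) (L : ℤ → ℕ) (R : Finset ℤ)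
    (u ζ c₁ : ℝ), M₀.Valid → StepHyp M₀ N P →
    (∀ m ∈ M₀.G ∪ N ∪ P, |m.1| ≤ K ∧ |m.2| ≤ K) → 2 * K < Q → (∃ n : ℤ, (Q : ℝ) * M₀.γ = n) →
    0 < M → s < S → (∀ b k : ℤ, L k ∣ L (b * k)) → 0 < u →
    (S + 1 + K) * (u / M) ≤ ζ * M₀.σ → (K + 1) * (u / M) < 1 →
    (∀ ν ∈ R, (M₀.α + ζ) * M₀.σ ≤ u / M * ν ∧ u / M * ν ≤ (1 - M₀.α - ζ) * M₀.σ) →
    (∀ ν ∈ R, ∀ m ∈ M₀.G ∪ N ∪ P,
      ¬ Bad M₀.dbar (M₀.γ + u / (M * Q)) (u / M) N R L s m ν) →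
    (∀ m ∈ M₀.G ∪ N ∪ P, ∀ ν ∈ R, |m.2 + Q * m.1 * ν| ≤ r₀) → (2 * K + 2) * r₀ + 2 ≤ lam →
    0 < M₁.α → M₁.α < 1 / 4 → GoodE M₁.α M₁.E → K * |c₁| + r₀ * M₁.σ ≤ u / M * M₁.α / 2 →
    M₁.dbar = M₀.γ + u / (M * Q) → M₁.σ = u / (lam * M) →
    M₁.γ = M₀.dbar + (s * (u / M) + c₁) - lam * (M₀.γ + u / (M * Q)) →
    0 < M₁.q → (∃ n : ℤ, (M₁.q : ℝ) * M₁.γ = n) →
    M₁.G = (kept L R (M₀.G ∪ N)).image (desc lam Q) →
    (∀ p ∈ kept L R (M₀.G ∪ N), M₁.θ (desc lam Q p) = p.1.1 * p.2 / M ∧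
      ‖M₁.c (desc lam Q p)‖ ^ 2 = |((desc lam Q p).1 : ℝ)| * M₁.σ ∧
      M₁.c (desc lam Q (-p.1, p.2)) = conj (M₁.c (desc lam Q p))) →
    M₁.Valid ∧ StepHyp M₁ ((kept L R P).image (desc lam Q)) ∅ ∧
      ∀ m ∈ M₁.G ∪ (kept L R P).image (desc lam Q), 1 < |m.1|

/-- **Module Fill.**  Let `ℓ = σ(1-2α) ∈ [σ/2, σ]`, `t = (⌊ℓ q⌋+1)/q ∈ (ℓ, ℓ+1/q]`,
`x₀ ∈ (0, 1/q]` with `x₀ ≡ dbar + σα mod (1/q)ℤ`, `n` maximal with `x₀ + n t ≤ 1/2`.  For `i < n`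
choose `j_i` with `dbar + σα + j_i γ ≡ x₀ + i t mod 1`, so the mode `(1, j_i)` has the frequency
interval `A_i = [x₀ + i t, x₀ + i t + ℓ] ⊆ (0, 1/2)` and `(-1, -j_i)` has `-A_i`.  Keep `i` iff `A_i`
meets no frequency interval `J_m` (`m ∈ G`) modulo `1`; add `±(1, j_i)` with `θ = 0`, `c = √σ`.
If `i` is removed then the blocks `B_i = [x₀+it, x₀+(i+1)t)` and `-B_i` lie in
`⋃_m ⋃_{N ∈ ℤ} (J_m enlarged by t on both sides) + N` (`G` is symmetric), so by comparing Lebesgue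
measure in `(-1/2, 1/2]` (or by counting) `2 r t ≤ ∑_m (|J_m| + 2t) = 1 - d + 2 t #G` for the number
`r` of removed indices; with `n t ≥ 1/2 - 2(σ+1/q)` this gives
`d' = d - 2(n-r)ℓ ≤ d (1-ℓ/t) + (2#G+4)(σ+1/q)`, and `1 - ℓ/t ≤ 2/(qσ)`, `d ≤ 1`.
`rat`: take a prime `q ≥ q₀` and `p ∈ {⌊Xq⌋, ⌊Xq⌋+1}` not divisible by `q`; Bezout. -/
structure FillStmt : Prop where
  fill : ∀ M : Model, M.Valid → (∀ m ∈ M.G, 1 < |m.1|) →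
    (∀ i : ℤ, ∃ j n : ℤ, j * M.γ = i / M.q + n) →
    ∃ M' : Model, M'.Valid ∧ M'.dbar = M.dbar ∧ M'.σ = M.σ ∧ M'.α = M.α ∧ M'.E = M.E ∧
      M'.b = M.b ∧ M'.γ = M.γ ∧ M.G ⊆ M'.G ∧ (∀ m ∈ M'.G, m ∉ M.G → |m.1| = 1) ∧
      (∀ m ∈ M.G, M'.θ m = M.θ m ∧ M'.c m = M.c m) ∧
      M'.d ≤ (2 * M.G.card + 6) * (M.σ + 1 / M.q) + 4 / (M.q * M.σ)
  rat : ∀ (X : ℝ) (q₀ : ℕ), ∃ (q : ℕ) (γ : ℝ), q₀ ≤ q ∧ 0 < q ∧ |γ - X| ≤ 1 / q ∧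
    (∃ n : ℤ, (q : ℝ) * γ = n) ∧ ∀ i : ℤ, ∃ j n : ℤ, j * γ = i / q + n

/-! ## The step and its consequences -/

/-- **Module Step** (owner: helper22), atom by atom. -/
def StepStmt : Prop :=
  ∀ (H S : TD) (M : Model) (N P : Finset (ℤ × ℤ)) (Θ : Finset ℝ) (C r : ℕ) (ε : ℝ),
    M.Valid → M.IsMap S → StepHyp M N P → 0 < ε →
    ∃ (h S' : TD) (M' : Model) (P' : Finset (ℤ × ℤ)) (B : ℝ) (n₀ : ℤ),
      M'.Valid ∧ M'.IsMap S' ∧ StepHyp M' P' ∅ ∧ 1 ≤ B ∧ M'.d * B ^ 2 ≤ ε ∧ M'.α ≤ ε ∧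
      ‖M'.g - kp h M.g‖ ≤ √M.d + ε ∧ TClose r ε (H * h * S' * (H * h)⁻¹) (H * S * H⁻¹) ∧
      (∀ m ∈ M.G ∪ N, ∀ θ ∈ Θ, ∃ w : ℤ × ℤ → ℂ,
        ‖kp h (atom M.α m θ) - ∑ m' ∈ M'.G, (w m' * M'.c m') • atom M'.α m' (M'.θ m')‖ ≤ ε ∧
        ∑ m' ∈ M'.G, ‖w m'‖ ≤ B) ∧
      (∀ m ∈ P, ∀ θ ∈ Θ, ∃ v ∈ atomSpan M'.α P', ‖kp h (atom M.α m θ) - v‖ ≤ ε) ∧
      (C : ℤ) < n₀ ∧ ∀ l j : ℤ, kp h (ch 0 l j) = ch (j + n₀ * l) l 0

/-- The modes `(c, 0)`, `1 ≤ |c| ≤ C`. -/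
noncomputable def axis (C : ℕ) : Finset (ℤ × ℤ) := ((Icc (-(C : ℤ)) C).erase 0).image fun c => (c, 0)

/-- **Module StepVec** (from `StepStmt`, `FibStmt`, `SpecStmt`): the step for vectors.  Write
`vN`, `vF`, `v₀` as finite combinations (`Submodule.mem_span_set'` or
`Submodule.mem_span_finset`/`Finsupp`), let `Θ` collect the frequencies, `C` bound `|l|, |j|`,
`A = 1 +` the sum of the norms of all coefficients, and apply `StepStmt` with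
`ε₁ = min (ε/A²/4) ((ε/A)²/4)`; take `B = A B₁ + 1`.  For `v₀`: `j + n₀ l ≠ 0` because
`|j| ≤ C < n₀`, and `‖ch c l 0 - atom α' (c,0) l‖ ≤ √(2α')`. -/
def StepVecStmt : Prop :=
  ∀ (H S : TD) (M : Model) (N P : Finset (ℤ × ℤ)) (vN vF v₀ : L2) (r : ℕ) (ε : ℝ),
    M.Valid → M.IsMap S → StepHyp M N P → vN ∈ atomSpan M.α (M.G ∪ N) →
    vF ∈ atomSpan M.α (M.G ∪ N ∪ P) → v₀ ∈ vertSpan → 0 < ε →
    ∃ (h S' : TD) (M' : Model) (P' : Finset (ℤ × ℤ)) (B : ℝ) (w : ℤ × ℤ → ℂ) (C : ℕ),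
      M'.Valid ∧ M'.IsMap S' ∧ StepHyp M' P' ∅ ∧ M'.d * B ^ 2 ≤ ε ∧ M'.d ≤ ε ∧ M'.α ≤ ε ∧
      ‖M'.g - kp h M.g‖ ≤ √M.d + ε ∧ TClose r ε (H * h * S' * (H * h)⁻¹) (H * S * H⁻¹) ∧
      ‖kp h vN - ∑ m' ∈ M'.G, (w m' * M'.c m') • atom M'.α m' (M'.θ m')‖ ≤ ε ∧
      ∑ m' ∈ M'.G, ‖w m'‖ + 1 ≤ B ∧
      (∃ v ∈ atomSpan M'.α (M'.G ∪ P'), ‖kp h vF - v‖ ≤ ε) ∧
      (∃ v ∈ atomSpan M'.α (axis C), ‖kp h v₀ - v‖ ≤ ε)

/-- **Module Macro** (from `StepVecStmt`, `ApproxStmt`, `CutStmt`, `DenseStmt`, `FibStmt`).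
`φ = kp H (ch k l j)` has mean zero (`kp_ch_zero`) and `‖φ x‖ ≤ 1` a.e.; `DenseStmt` gives
`φ ≈ F₀ + F₁` (`F₀ ∈ vertSpan` the part with `k = 0`), `CutStmt` gives `F₁ ≈ v₁ ∈ atomSpan α Box` up to
`ε + √(2α)`, `Box = {1 ≤ |k| ≤ K₀, |j| ≤ K₀}`.  Step 1: `N = ∅`, `P = Box \ G`, `vF = v₁`,
`v₀ = F₀`, `vN = 0`.  Step 2: `N = ∅`, `P = (P' ∪ axis C) \ G'`, `vF =` the sum of the two vectors
obtained.  Step 3: `N = P''`, `P = ∅`, `vN =` the vector obtained.  Then `ApproxStmt` with `a = w`.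
New state `H h₁ h₂ h₃`; use `St.kp_T_zpow_G`, `kp_mul`, isometry of `kp`, `TClose.trans`, and small
`ε₁` with `3ε₁ + 2√ε₁ ≤ ε`, `10 ε₁ ≤ ε`. -/
def MacroStmt : Prop :=
  ∀ (s : St) (k l j : ℤ) (r : ℕ) (ε : ℝ), (k, l, j) ≠ (0, 0, 0) → 0 < ε →
    ∃ (s' : St) (A : Finset ℤ) (p : ℤ → ℂ) (B : ℝ),
      TClose r ε s'.T s.T ∧ ‖s'.G - s.G‖ ≤ √s.M.d + ε ∧
      ‖ch k l j - ∑ n ∈ A, p n • kp (s'.T ^ n) s'.G‖ ≤ ε + √(2 * s.M.α) ∧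
      (∀ t : ℝ, ‖∑ n ∈ A, p n * ee (n * t)‖ ≤ B) ∧
      s'.M.d * B ^ 2 ≤ ε ∧ s'.M.d ≤ ε ∧ s'.M.α ≤ ε

/-! ## Passage to the limit -/

/-- **Module VonNeumann.**  `U = kp T` is a unitary element of the C⋆-algebra `L2 →L[ℂ] L2`
(inverse `kp T⁻¹`), `kp (T^n) = U^n`; `∑ p n • U^n = cfc (fun z => ∑ p n * z^n) U`, the spectrum
lies in the unit circle (`spectrum.subset_circle_of_unitary`), `norm_cfc_le`.  (Elementary
alternative: for large `N` compare `∫₀¹ ‖∑_{m<N} e(-mt) U^m f‖² |P(t)|² dt` with both sides.) -/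
def VonNeumannStmt : Prop :=
  ∀ (T : TD) (A : Finset ℤ) (p : ℤ → ℂ) (B : ℝ) (f : L2),
    (∀ t : ℝ, ‖∑ n ∈ A, p n * ee (n * t)‖ ≤ B) → ‖∑ n ∈ A, p n • kp (T ^ n) f‖ ≤ B * ‖f‖

/-- **Module Robust.**  First `n = 1`: approximate `f` by a continuous `φ`
(`ContinuousMap.toLp_denseRange`), use uniform continuity of `φ` on the compact torus and
`dist (T'.T (proj x)) (T₀.T (proj x)) ≤ δ` (`dist_proj_le`, `cclose_zero_iff`).  Then induction on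
`|n|` (for all `f`): `kp (T'^(n+1)) f - kp (T₀^(n+1)) f = kp (T'^n) (kp T' f - kp T₀ f) +
(kp (T'^n) - kp (T₀^n)) (kp T₀ f)`; negative `n` by the symmetry `T ↦ T⁻¹`. -/
def RobustStmt : Prop :=
  ∀ (T₀ : TD) (f : L2) (A : Finset ℤ) (ε : ℝ), 0 < ε → ∃ δ : ℝ, 0 < δ ∧ ∀ T' : TD,
    TClose 0 δ T' T₀ → ∀ n ∈ A, ‖kp (T' ^ n) f - kp (T₀ ^ n) f‖ ≤ ε

/-- **Module Limit.**  `F = F₀ + ∑' (F_{n+1} - F_n)` is smooth (`contDiff_tsum_of_eventually`),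
likewise `G` for the inverses; `F_n → F`, `G_n → G` uniformly, so `F ∘ G = id = G ∘ F`.  The torus
map is `t ↦ proj (F (rep ∘ t))`; `proj x = proj y → proj (F x) = proj (F y)` in the limit (the torus
is Hausdorff).  Measure preservation: for bounded continuous `φ`,
`∫ φ ∘ T = lim ∫ φ ∘ T_n = ∫ φ` (dominated convergence), then
`ext_of_forall_integral_eq_of_IsFiniteMeasure`. -/
def LimitStmt : Prop :=
  ∀ (T : ℕ → TD) (ε : ℕ → ℝ), Summable ε → (∀ n, TClose n (ε n) (T (n + 1)) (T n)) →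
    ∃ T' : TD, ∀ n, TClose 0 (∑' m, ε (n + m)) T' (T n)

/-- The result of the construction. -/
def CyclicStmt : Prop :=
  ∃ (T : TD) (G : L2), IsReal G ∧ ⟪ch 0 0 0, G⟫_ℂ = 0 ∧
    (∀ n : ℤ, ⟪G, kp (T ^ n) G⟫_ℂ = if n = 0 then 1 else 0) ∧
    ∀ (k l j : ℤ) (ε : ℝ), (k, l, j) ≠ (0, 0, 0) → 0 < ε →
      ∃ (A : Finset ℤ) (p : ℤ → ℂ), ‖ch k l j - ∑ n ∈ A, p n • kp (T ^ n) G‖ ≤ ε

/-- **Module Iter**: `Nonempty St → MacroStmt → RobustStmt → VonNeumannStmt → LimitStmt →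
SpecStmt → CyclicStmt`.  Choose `e : ℕ → ℤ³ \ {0}` taking every value infinitely often.  Build
recursively states `s n` and budgets `0 < ε n ≤ 1`: `s (n+1), A n, p n, B n` come from `MacroStmt`
applied to `s n`, `e n`, `r = n`, `ε n`; `δ n` from `RobustStmt` for `(s (n+1)).T`, `(s (n+1)).G`,
`A n`, tolerance `2⁻ⁿ/(1 + ∑‖p n‖)`; then `ε (n+1) ≤ min (ε n/4) (δ n/2) ((2⁻ⁿ/(4(|B n|+1)))²)`.
`‖G_{m+1} - G_m‖ ≤ √d_m + ε m`, `d_{m+1} ≤ ε m`, so `G_n → G` and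
`‖G - G_{n+1}‖ ≤ √d_{n+1} + 4√(ε (n+1))`; `T` from `LimitStmt` is `δ n`-close to `(s (n+1)).T`; so
`‖ch (e n) - ∑ p • kp (T^·) G‖ ≤ ε n + √(2α_n) + 2⁻ⁿ + √(ε n) + 2⁻ⁿ → 0` (`VonNeumannStmt`,
`B √d ≤ √ε`).  Correlations: `RobustStmt` at `T₀ = T` and `SpecStmt.corr` (with
`St.kp_T_zpow_G` and `LinearIsometry.inner_map_map`); `isClosed_isReal`, `kp_ch_zero`. -/
def IterStmt : Prop :=
  Nonempty St → MacroStmt → RobustStmt → VonNeumannStmt → LimitStmt → SpecStmt → CyclicStmt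

/-- The target statement S0108.  **Module Final**: `DenseStmt → CyclicStmt → MainStmt`.  Take
`g x = (G x).re`; `(g : ℂ) = G` a.e., also after composing with `T^n` (measure preserving);
`∫ g(T^m x) g(T^n x) = ⟪kp (T^m) G, kp (T^n) G⟫ = ⟪G, kp (T^(n-m)) G⟫`.  If `h` has mean zero and is
orthogonal to the orbit, then `f = toL2 h` is orthogonal to all `kp (T^n) G` (these are real),
hence to all nontrivial characters, hence by `DenseStmt` to itself. -/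
def MainStmt : Prop :=
  ∃ (T : Equiv.Perm T3) (g : T3 → ℝ), IsSmoothDiffeo T ∧
    MeasureTheory.MeasurePreserving T MeasureTheory.volume MeasureTheory.volume ∧
    MeasureTheory.MemLp g 2 MeasureTheory.volume ∧ ∫ x, g x = 0 ∧
    (∀ m n : ℤ, ∫ x, g ((T ^ m) x) * g ((T ^ n) x) = if m = n then 1 else 0) ∧
    (∀ h : T3 → ℂ, MeasureTheory.MemLp h 2 MeasureTheory.volume → ∫ x, h x = 0 →
      (∀ n : ℤ, ∫ x, h x * (g ((T ^ n) x) : ℂ) = 0) → h =ᵐ[MeasureTheory.volume] 0)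

end Crest.Agent.R81
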