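import Crest.Agent.R81.Defs

/-!
# Row 81, module Dense

The statement and the recipe are in `R81/Defs.lean` (`DenseStmt`).
-/

set_option autoImplicit false

open MeasureTheory Finset Crest.AnalysisR.Torus3 Crest.Agent.R75
open scoped InnerProductSpace ComplexConjugate ContDiff

namespace Crest.Agent.R81

namespace Dense

theorem fourier_eq (n : ℤ) (y : UnitAddCircle) : fourier n y = ee (n * rep y) := by
  conv_lhs => rw [← coe_rep y]
  rw [fourier_coe_apply, ee]
  congr 1; push_cast; ring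

theorem toLp_mFourier (n : Fin 3 → ℤ) :
    ContinuousMap.toLp 2 (volume : Measure T3) ℂ (UnitAddTorus.mFourier n) =
      ch (n 0) (n 1) (n 2) := by
  apply Lp.ext
  filter_upwards [ContinuousMap.coeFn_toLp (p := 2) (μ := (volume : Measure T3)) (𝕜 := ℂ)
    (UnitAddTorus.mFourier n), coeFn_ch (n 0) (n 1) (n 2)] with x h1 h2
  rw [h1, h2, chF, ee_add, ee_add]
  simp only [UnitAddTorus.mFourier, ContinuousMap.coe_mk, Fin.prod_univ_three, fourier_eq]

theorem dense_span :
    Dense (Submodule.span ℂ (Set.range fun p : ℤ × ℤ × ℤ => ch p.1 p.2.1 p.2.2) : Set L2) := by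
  have h1 : DenseRange (ContinuousMap.toLp 2 (volume : Measure T3) ℂ : C(T3, ℂ) →L[ℂ] L2) :=
    ContinuousMap.toLp_denseRange ℂ volume ℂ (by simp)
  have h2 : Dense (Submodule.span ℂ (Set.range (UnitAddTorus.mFourier (d := Fin 3))) :
      Set C(T3, ℂ)) :=
    Submodule.dense_iff_topologicalClosure_eq_top.mpr UnitAddTorus.span_mFourier_closure_eq_top
  refine (h1.dense_image (ContinuousLinearMap.continuous _) h2).mono ?_
  rintro _ ⟨f, hf, rfl⟩
  have h3 : Submodule.span ℂ (Set.range (UnitAddTorus.mFourier (d := Fin 3))) ≤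
      (Submodule.span ℂ (Set.range fun p : ℤ × ℤ × ℤ => ch p.1 p.2.1 p.2.2)).comap
        (ContinuousMap.toLp 2 (volume : Measure T3) ℂ : C(T3, ℂ) →L[ℂ] L2).toLinearMap := by
    rw [Submodule.span_le]
    rintro _ ⟨n, rfl⟩
    exact Submodule.subset_span ⟨(n 0, n 1, n 2), (toLp_mFourier n).symm⟩
  exact h3 hf

end Dense

theorem dense_of (h1 : FibStmt) : DenseStmt := by
  classical
  intro φ ε hφ hε
  obtain ⟨v, hv, hd⟩ := Metric.dense_iff.mp Dense.dense_span φ (ε / 2) (half_pos hε)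
  obtain ⟨c, rfl⟩ := Finsupp.mem_span_range_iff_exists_finsupp.mp hd
  rw [Metric.mem_ball, dist_comm, dist_eq_norm, Finsupp.sum] at hv
  have n0 : ‖ch 0 0 0‖ = 1 := by
    have := h1.inner_ch 0 0 0 0 0 0
    rw [if_pos rfl] at this
    have h2 : ‖ch 0 0 0‖ ^ 2 = 1 := by rw [← inner_self_eq_norm_sq (𝕜 := ℂ), this]; simp
    exact (pow_eq_one_iff_of_nonneg (norm_nonneg _) two_ne_zero).mp h2
  refine ⟨c.support.erase (0, 0, 0), c, Finset.notMem_erase _ _, ?_⟩
  by_cases h0 : ((0, 0, 0) : ℤ × ℤ × ℤ) ∈ c.support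
  · have e1 : ⟪ch 0 0 0, φ - ∑ p ∈ c.support, c p • ch p.1 p.2.1 p.2.2⟫_ℂ = -c (0, 0, 0) := by
      rw [inner_sub_right, hφ, inner_sum, zero_sub, Finset.sum_eq_single (0, 0, 0)]
      · rw [inner_smul_right, h1.inner_ch, if_pos rfl, mul_one]
      · intro p _ hp
        rw [inner_smul_right, h1.inner_ch, if_neg (Ne.symm hp), mul_zero]
      · exact fun h => absurd h0 h
    have e2 : ‖c (0, 0, 0)‖ ≤ ε / 2 := by
      rw [← norm_neg, ← e1]
      refine (norm_inner_le_norm _ _).trans ?_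
      rw [n0, one_mul]; exact hv.le
    have e3 : φ - ∑ p ∈ c.support.erase (0, 0, 0), c p • ch p.1 p.2.1 p.2.2 =
        (φ - ∑ p ∈ c.support, c p • ch p.1 p.2.1 p.2.2) + c (0, 0, 0) • ch 0 0 0 := by
      rw [← Finset.add_sum_erase _ _ h0]; abel
    rw [e3]
    refine (norm_add_le _ _).trans ?_
    rw [norm_smul, n0]; linarith
  · rw [Finset.erase_eq_of_notMem h0]; linarith

end Crest.Agent.R81
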