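import Crest.Agent.R81.Defs

/-!
# Row 81, module Energy

The statement and the recipe are in `R81/Defs.lean` (`EnergyStmt`).
-/

set_option autoImplicit false

open MeasureTheory Finset Crest.AnalysisR.Torus3 Crest.Agent.R75
open scoped InnerProductSpace ComplexConjugate ContDiff

namespace Crest.Agent.R81

namespace Energy

theorem window_mul (f : ℤ → ℝ) (m : ℤ) (hm : 0 < m) (h : ∀ a : ℤ, ∑ ν ∈ Ico a (a + m), f ν = 1)
    (a : ℤ) (q : ℕ) : ∑ ν ∈ Ico a (a + q * m), f ν = q := by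
  induction q with
  | zero => simp
  | succ q ih =>
    have h1 : a ≤ a + q * m := by
      have : 0 ≤ (q : ℤ) * m := by positivity
      omega
    have e : a + ((q + 1 : ℕ) : ℤ) * m = a + q * m + m := by push_cast; ring
    rw [e, ← Finset.Ico_union_Ico_eq_Ico h1 (by omega),
      Finset.sum_union (Finset.Ico_disjoint_Ico_consecutive _ _ _), ih, h]
    push_cast
    ring

theorem window (f : ℤ → ℝ) (hf : ∀ ν, 0 ≤ f ν) (m : ℤ) (hm : 0 < m)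
    (h : ∀ a : ℤ, ∑ ν ∈ Ico a (a + m), f ν = 1) (a N : ℤ) (hN : 0 ≤ N) :
    (N : ℝ) / m - 1 ≤ ∑ ν ∈ Ico a (a + N), f ν ∧ ∑ ν ∈ Ico a (a + N), f ν ≤ (N : ℝ) / m + 1 := by
  obtain ⟨q, hq⟩ := Int.eq_ofNat_of_zero_le (Int.ediv_nonneg hN hm.le)
  have h1 : (q : ℤ) * m ≤ N := by rw [← hq]; exact Int.ediv_mul_le N hm.ne'
  have h2 : N < ((q + 1 : ℕ) : ℤ) * m := by
    push_cast
    rw [← hq]; exact Int.lt_ediv_add_one_mul_self N hm
  have hm' : (0 : ℝ) < m := by exact_mod_cast hm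
  have h1' : (q : ℝ) ≤ (N : ℝ) / m := by
    rw [le_div_iff₀ hm']; exact_mod_cast h1
  have h2' : (N : ℝ) / m ≤ q + 1 := by
    rw [div_le_iff₀ hm']; exact_mod_cast h2.le
  constructor
  · have := Finset.sum_le_sum_of_subset_of_nonneg (f := f)
      (Finset.Ico_subset_Ico_right (a := a) (show a + q * m ≤ a + N by omega)) fun i _ _ => hf i
    rw [window_mul f m hm h] at this
    linarith
  · have := Finset.sum_le_sum_of_subset_of_nonneg (f := f)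
      (Finset.Ico_subset_Ico_right (a := a) (show a + N ≤ a + ((q + 1 : ℕ) : ℤ) * m by omega))
      fun i _ _ => hf i
    rw [window_mul f m hm h] at this
    push_cast at this
    linarith

theorem rng_eq (α ζ x : ℝ) (hA : 0 ≤ (1 - 2 * α - 2 * ζ) * x) :
    ∃ a N : ℤ, 0 ≤ N ∧ Rng α ζ x = Ico a (a + N) ∧ (1 - 2 * α - 2 * ζ) * x - 1 ≤ N ∧
      (N : ℝ) ≤ (1 - 2 * α - 2 * ζ) * x + 1 := by
  have h1 := Int.le_ceil ((α + ζ) * x)
  have h2 := Int.ceil_lt_add_one ((α + ζ) * x)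
  have h3 := Int.floor_le ((1 - α - ζ) * x)
  have h4 := Int.lt_floor_add_one ((1 - α - ζ) * x)
  refine ⟨⌈(α + ζ) * x⌉, ⌊(1 - α - ζ) * x⌋ + 1 - ⌈(α + ζ) * x⌉, ?_, ?_, ?_, ?_⟩
  · have : (-1 : ℝ) < ((⌊(1 - α - ζ) * x⌋ + 1 - ⌈(α + ζ) * x⌉ : ℤ) : ℝ) := by
      push_cast
      linarith
    have : (-1 : ℤ) < ⌊(1 - α - ζ) * x⌋ + 1 - ⌈(α + ζ) * x⌉ := by exact_mod_cast this
    omega
  · ext ν
    simp only [Rng, Finset.mem_Icc, Finset.mem_Ico]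
    omega
  · push_cast
    linarith
  · push_cast
    linarith

theorem sq_sub_le {s τ t₀ t₁ η : ℝ} (hs : 0 ≤ s) (hτ : 0 ≤ τ) (h1 : s ^ 2 ≤ t₁) (h0 : t₀ ≤ t₁)
    (h2 : |τ ^ 2 - t₀| ≤ η * t₀) : (s - τ) ^ 2 ≤ (2 * t₁ - t₀ + η * t₀) - s ^ 2 := by
  obtain ⟨h3, h4⟩ := abs_le.1 h2
  rcases le_total s τ with h | h <;> nlinarith

theorem num1 {A η₁ δ S E : ℝ} (hA : A ≤ 1) (h0 : 0 < η₁) (h1 : η₁ ≤ 1 / 2) (hδ : 0 < δ)
    (hS : A - 2 * δ ≤ S) (h : (1 - η₁) * S ≤ E) : A - η₁ - 2 * δ ≤ E := by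
  have h3 := mul_le_mul_of_nonneg_left hS (by linarith : 0 ≤ 1 - η₁)
  nlinarith

theorem num2 {A η₁ δ S E : ℝ} (hA0 : 0 < A) (hA : A ≤ 1) (h0 : 0 < η₁) (h1 : η₁ ≤ 1 / 2)
    (hδ : 0 < δ) (hδ1 : δ ≤ 1 / 8) (hS : S ≤ A + 2 * δ) (h : E ≤ (1 + η₁) * S) : E ≤ 2 := by
  have h3 := mul_le_mul_of_nonneg_left hS (by linarith : 0 ≤ 1 + η₁)
  nlinarith

theorem num3 {η η₁ t : ℝ} (h0 : 0 ≤ η) (h1 : 0 < η₁) (ht : 0 < t) : t ≤ (1 + η) * (1 + η₁) * t := by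
  have : 1 ≤ (1 + η) * (1 + η₁) := by nlinarith
  nlinarith

theorem num4 {A η η₁ δ ε y E : ℝ} (hA0 : 0 < A) (hA1 : A ≤ 1) (hη0 : 0 ≤ η) (hη1 : η ≤ 1)
    (h0 : 0 < η₁) (h1 : η₁ ≤ 1 / 2) (h2 : η₁ ≤ ε / 10) (hδ0 : 0 < δ) (hδ2 : δ ≤ ε / 16)
    (hy : y ≤ A + δ) (hE : A - η₁ - 2 * δ ≤ E) :
    y * (2 * ((1 + η) * (1 + η₁)) - 1 + η) - E ≤ 4 * η + ε := by
  have h3 : 2 * ((1 + η) * (1 + η₁)) - 1 + η ≤ 1 + 3 * η + 4 * η₁ := by nlinarith
  have h4 : y * (2 * ((1 + η) * (1 + η₁)) - 1 + η) ≤ (A + δ) * (1 + 3 * η + 4 * η₁) :=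
    mul_le_mul hy h3 (by nlinarith) (by linarith)
  have h5 : A * (3 * η + 4 * η₁) ≤ 3 * η + 4 * η₁ := mul_le_of_le_one_left (by linarith) hA1
  have h6 : δ * (1 + 3 * η + 4 * η₁) ≤ δ * 6 := mul_le_mul_of_nonneg_left (by linarith) hδ0.le
  nlinarith

end Energy

open Energy in
theorem energy_of (h1 : FresnelStmt) : EnergyStmt := by
  intro α σ ζ ε Θ₀ M hα hα4 hσ hζ hζ8 hε hM
  set η₁ : ℝ := min (1 / 2) (ε / 10) with hη₁
  have hη₁0 : 0 < η₁ := lt_min (by norm_num) (by positivity)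
  have hη₁1 : η₁ ≤ 1 / 2 := min_le_left _ _
  have hη₁2 : η₁ ≤ ε / 10 := min_le_right _ _
  obtain ⟨β₀, hβ₀, hF⟩ := h1 (ζ / 2) η₁ (by positivity) hη₁0
  set δ₀ : ℝ := min (min (1 / 8) (ε / 16)) (min (1 / β₀) (ζ / 2 / (|Θ₀| + 1))) with hδ₀
  have hδ₀0 : 0 < δ₀ := lt_min (lt_min (by norm_num) (by positivity))
    (lt_min (by positivity) (by positivity))
  refine ⟨σ * δ₀, by positivity, fun u hu huu k θ C hk hkM hθ hmass => ?_⟩
  set δ : ℝ := u / σ with hδ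
  have hδ0 : 0 < δ := by positivity
  have hδδ : δ ≤ δ₀ := by
    rw [hδ, div_le_iff₀ hσ]; linarith
  have hδ1 : δ ≤ 1 / 8 := hδδ.trans ((min_le_left _ _).trans (min_le_left _ _))
  have hδ2 : δ ≤ ε / 16 := hδδ.trans ((min_le_left _ _).trans (min_le_right _ _))
  have hδ3 : δ ≤ 1 / β₀ := hδδ.trans ((min_le_right _ _).trans (min_le_left _ _))
  have hδ4 : δ ≤ ζ / 2 / (|Θ₀| + 1) := hδδ.trans ((min_le_right _ _).trans (min_le_right _ _))
  have hM' : (1 : ℝ) ≤ M := by exact_mod_cast hM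
  have hk0 : (k : ℝ) ≠ 0 := by exact_mod_cast hk
  set κ : ℝ := |(k : ℝ)| with hκ
  have hκ1 : 1 ≤ κ := by
    rw [hκ, ← Int.cast_abs]
    exact_mod_cast Int.one_le_abs hk
  have hκ0 : 0 < κ := by linarith
  set A : ℝ := 1 - 2 * α - 2 * ζ with hA
  have hA0 : 0 < A := by linarith
  have hA1 : A ≤ 1 := by linarith
  set x : ℝ := M * σ / u with hx
  have hx0 : 0 < x := by positivity
  -- the window length
  set m : ℤ := (M : ℤ) / |k| with hm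
  have hmk : m * |k| = M := Int.ediv_mul_cancel ((abs_dvd k M).2 hkM)
  have hmκ : (m : ℝ) * κ = M := by
    rw [hκ, ← Int.cast_abs]; exact_mod_cast hmk
  have hm0 : 0 < m := by
    have : (0 : ℝ) < m := pos_of_mul_pos_right (a := κ) (by rw [mul_comm, hmκ]; linarith) hκ0.le
    exact_mod_cast this
  have hm0' : (0 : ℝ) < m := by exact_mod_cast hm0
  obtain ⟨a, N, hN, hR, hN1, hN2⟩ := rng_eq α ζ x (by positivity)
  rw [← hA] at hN1 hN2
  obtain ⟨hS1, hS2⟩ := window (fun ν => ‖C ν‖ ^ 2) (fun ν => by positivity) m hm0 hmass a N hN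
  rw [← hR] at hS1 hS2
  have hcard : ((Rng α ζ x).card : ℝ) = N := by
    rw [hR, Int.card_Ico]
    have : ((a + N - a).toNat : ℤ) = N := by omega
    exact_mod_cast this
  -- stationary phase
  have hφ : ∀ ν ∈ Rng α ζ x, (1 - η₁) * (δ / κ) ≤ ‖phiHat α (k * σ / u) (k * ν / M - θ)‖ ^ 2 ∧
      ‖phiHat α (k * σ / u) (k * ν / M - θ)‖ ^ 2 ≤ (1 + η₁) * (δ / κ) := by
    intro ν hν
    obtain ⟨hν1, hν2⟩ := Finset.mem_Icc.1 hν
    have hν1' : α + ζ ≤ ν / x := by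
      rw [le_div_iff₀ hx0]; exact Int.ceil_le.1 hν1
    have hν2' : ν / x ≤ 1 - α - ζ := by
      rw [div_le_iff₀ hx0]; exact Int.le_floor.1 hν2
    have hβ : |k * σ / u| = κ / δ := by
      rw [abs_div, abs_mul, abs_of_pos hσ, abs_of_pos hu, hδ, ← hκ]
      field_simp
    have hq : (k * ν / M - θ) / (k * σ / u) = ν / x - θ * δ / k := by
      rw [hx, hδ]
      field_simp
    have hs : |θ * δ / k| ≤ ζ / 2 := by
      rw [abs_div, abs_mul, abs_of_pos hδ0, ← hκ]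
      rw [le_div_iff₀ (by positivity)] at hδ4
      have h2 : |θ| ≤ |Θ₀| + 1 := by linarith [le_abs_self Θ₀]
      calc |θ| * δ / κ ≤ |θ| * δ := div_le_self (by positivity) hκ1
        _ ≤ (|Θ₀| + 1) * δ := mul_le_mul_of_nonneg_right h2 hδ0.le
        _ ≤ ζ / 2 := by linarith
    obtain ⟨hs1, hs2⟩ := abs_le.1 hs
    have hb : β₀ ≤ |k * σ / u| := by
      rw [hβ, le_div_iff₀ hδ0]
      rw [le_div_iff₀ hβ₀] at hδ3
      linarith
    have := hF α _ (k * ν / M - θ) hb (by rw [hq]; linarith) (by rw [hq]; linarith)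
    rw [hβ] at this
    obtain ⟨h3, h4⟩ := abs_le.1 this
    have e : ‖phiHat α (k * σ / u) (k * ν / M - θ)‖ ^ 2 =
        (κ / δ * ‖phiHat α (k * σ / u) (k * ν / M - θ)‖ ^ 2) * (δ / κ) := by
      field_simp
    have hp : 0 ≤ δ / κ := by positivity
    constructor
    · rw [e]; exact mul_le_mul_of_nonneg_right (by linarith) hp
    · rw [e]; exact mul_le_mul_of_nonneg_right (by linarith) hp
  have hδκ : δ / κ ≤ δ := div_le_self hδ0.le hκ1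
  have hδM : δ / M ≤ δ := div_le_self hδ0.le hM'
  have hxδ : x * (δ / M) = 1 := by
    rw [hx, hδ]; field_simp
  have hδM0 : 0 < δ / M := by positivity
  have hNm : (N : ℝ) / m * (δ / κ) = N * (δ / M) := by
    rw [← hmκ]; field_simp
  have hN3 : A - δ ≤ N * (δ / M) := by
    have := mul_le_mul_of_nonneg_right hN1 hδM0.le
    rw [sub_mul, mul_assoc, hxδ] at this
    linarith
  have hN4 : N * (δ / M) ≤ A + δ := by
    have := mul_le_mul_of_nonneg_right hN2 hδM0.le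
    rw [add_mul, mul_assoc, hxδ] at this
    linarith
  have hp : 0 ≤ δ / κ := by positivity
  have hS3 : A - 2 * δ ≤ (∑ ν ∈ Rng α ζ x, ‖C ν‖ ^ 2) * (δ / κ) := by
    have := mul_le_mul_of_nonneg_right hS1 hp
    rw [sub_mul, hNm] at this
    linarith
  have hS4 : (∑ ν ∈ Rng α ζ x, ‖C ν‖ ^ 2) * (δ / κ) ≤ A + 2 * δ := by
    have := mul_le_mul_of_nonneg_right hS2 hp
    rw [add_mul, hNm] at this
    linarith
  have hE1 : A - η₁ - 2 * δ ≤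
      ∑ ν ∈ Rng α ζ x, ‖C ν * phiHat α (k * σ / u) (k * ν / M - θ)‖ ^ 2 := by
    have h2 : (1 - η₁) * ((∑ ν ∈ Rng α ζ x, ‖C ν‖ ^ 2) * (δ / κ)) ≤
        ∑ ν ∈ Rng α ζ x, ‖C ν * phiHat α (k * σ / u) (k * ν / M - θ)‖ ^ 2 := by
      rw [Finset.sum_mul, Finset.mul_sum]
      refine Finset.sum_le_sum fun ν hν => ?_
      rw [norm_mul, mul_pow, mul_left_comm]
      exact mul_le_mul_of_nonneg_left (hφ ν hν).1 (by positivity)
    exact num1 hA1 hη₁0 hη₁1 hδ0 hS3 h2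
  refine ⟨by linarith, ?_, fun η τ hη0 hη1 hC hτ => ?_⟩
  · have h2 : ∑ ν ∈ Rng α ζ x, ‖C ν * phiHat α (k * σ / u) (k * ν / M - θ)‖ ^ 2 ≤
        (1 + η₁) * ((∑ ν ∈ Rng α ζ x, ‖C ν‖ ^ 2) * (δ / κ)) := by
      rw [Finset.sum_mul, Finset.mul_sum]
      refine Finset.sum_le_sum fun ν hν => ?_
      rw [norm_mul, mul_pow, mul_left_comm]
      exact mul_le_mul_of_nonneg_left (hφ ν hν).2 (by positivity)
    exact num2 hA0 hA1 hη₁0 hη₁1 hδ0 hδ1 hS4 h2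
  · set t₀ : ℝ := κ * (u / M) with ht₀
    have ht₀0 : 0 < t₀ := by positivity
    have ht₀e : t₀ = κ * σ * (δ / M) := by
      rw [ht₀, hδ]; field_simp
    have hκσ : 0 < κ * σ := by positivity
    have h2 : ∀ ν ∈ Rng α ζ x,
        (√(κ * σ) * ‖C ν * phiHat α (k * σ / u) (k * ν / M - θ)‖ - τ ν) ^ 2 ≤
          (2 * ((1 + η) * (1 + η₁) * t₀) - t₀ + η * t₀) -
            κ * σ * ‖C ν * phiHat α (k * σ / u) (k * ν / M - θ)‖ ^ 2 := by
      intro ν hν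
      have e : κ * σ * ‖C ν * phiHat α (k * σ / u) (k * ν / M - θ)‖ ^ 2 =
          (√(κ * σ) * ‖C ν * phiHat α (k * σ / u) (k * ν / M - θ)‖) ^ 2 := by
        rw [mul_pow, Real.sq_sqrt hκσ.le]
      rw [e]
      refine sq_sub_le (by positivity) (hτ ν hν).1 ?_ ?_ (hτ ν hν).2
      · rw [← e, norm_mul, mul_pow]
        calc _ ≤ κ * σ * (((1 + η) * κ / M) * ((1 + η₁) * (δ / κ))) :=
              mul_le_mul_of_nonneg_left
                (mul_le_mul (hC ν) (hφ ν hν).2 (by positivity) (by positivity)) hκσ.le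
          _ = _ := by rw [ht₀e]; field_simp
      · exact num3 hη0 hη₁0 ht₀0
    refine (Finset.sum_le_sum h2).trans ?_
    rw [Finset.sum_sub_distrib, Finset.sum_const, nsmul_eq_mul, hcard, ← Finset.mul_sum]
    have e : (N : ℝ) * (2 * ((1 + η) * (1 + η₁) * t₀) - t₀ + η * t₀) =
        κ * σ * ((N * (δ / M)) * (2 * ((1 + η) * (1 + η₁)) - 1 + η)) := by
      rw [ht₀e]; ring
    rw [e, ← mul_sub]
    refine mul_le_mul_of_nonneg_left ?_ hκσ.le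
    exact num4 hA0 hA1 hη0 hη1 hη₁0 hη₁1 hη₁2 hδ0 hδ2 hN4 hE1

end Crest.Agent.R81
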