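import Crest.Agent.R81.Defs

/-!
# Row 81, module Fib

The statement and the recipe are in `R81/Defs.lean` (`FibStmt`).
-/

set_option autoImplicit false

open MeasureTheory Finset Crest.AnalysisR.Torus3 Crest.Agent.R75
open scoped InnerProductSpace ComplexConjugate ContDiff

namespace Crest.Agent.R81

namespace Fib

theorem circle_rep (a : ℝ → ℂ) : ∫ y : UnitAddCircle, a (rep y) = ∫ t in (0 : ℝ)..1, a t := by
  have h := UnitAddCircle.intervalIntegral_preimage 0 fun y : UnitAddCircle => a (rep y)
  rw [zero_add] at h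
  rw [← h, intervalIntegral.integral_of_le zero_le_one, intervalIntegral.integral_of_le zero_le_one,
    integral_Ioc_eq_integral_Ioo, integral_Ioc_eq_integral_Ioo]
  refine setIntegral_congr_fun measurableSet_Ioo fun t ht => ?_
  simp only [rep_coe, Int.fract_eq_self.2 ⟨ht.1.le, ht.2⟩]

theorem int_prod (a b c : ℝ → ℂ) :
    ∫ x : T3, a (rep (x 0)) * b (rep (x 1)) * c (rep (x 2)) =
      (∫ t in (0 : ℝ)..1, a t) * (∫ t in (0 : ℝ)..1, b t) * ∫ t in (0 : ℝ)..1, c t := by
  have h := integral_fintype_prod_volume_eq_prod (E := fun _ : Fin 3 => UnitAddCircle)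
    (fun i y => (![a, b, c] i) (rep y))
  simp only [Fin.prod_univ_three, Matrix.cons_val_zero, Matrix.cons_val_one, Matrix.cons_val]
    at h
  rw [h, circle_rep, circle_rep, circle_rep]

/-- A function of the middle coordinate times a character of the other two. -/
noncomputable def gen (m : ℤ × ℤ) (b : ℝ → ℂ) (x : T3) : ℂ :=
  b (rep (x 1)) * ee (m.1 * rep (x 0) + m.2 * rep (x 2))

theorem int_gen (m : ℤ × ℤ) (b : ℝ → ℂ) :
    ∫ x, gen m b x = if m = 0 then ∫ t in (0 : ℝ)..1, b t else 0 := by
  have h := int_prod (fun t => ee (m.1 * t)) b (fun t => ee (m.2 * t))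
  have e : ∀ x : T3, gen m b x = ee (m.1 * rep (x 0)) * b (rep (x 1)) * ee (m.2 * rep (x 2)) := by
    intro x; rw [gen, ee_add]; ring
  simp only [e]
  rw [h, integral_ee_int, integral_ee_int]
  obtain ⟨k, j⟩ := m
  by_cases hk : k = 0 <;> by_cases hj : j = 0 <;> simp [hk, hj]

theorem int_conj_gen (m m' : ℤ × ℤ) (b b' : ℝ → ℂ) :
    ∫ x, conj (gen m b x) * gen m' b' x =
      if m = m' then ∫ t in (0 : ℝ)..1, conj (b t) * b' t else 0 := by
  have e : ∀ x : T3, conj (gen m b x) * gen m' b' x =
      gen (m' - m) (fun t => conj (b t) * b' t) x := by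
    intro x
    have : ((m' - m).1 : ℝ) * rep (x 0) + ((m' - m).2 : ℝ) * rep (x 2) =
        (m'.1 * rep (x 0) + m'.2 * rep (x 2)) - (m.1 * rep (x 0) + m.2 * rep (x 2)) := by
      simp only [Prod.fst_sub, Prod.snd_sub]; push_cast; ring
    simp only [gen]
    rw [this, ee_sub, map_mul]
    ring
  simp only [e]
  rw [int_gen]
  simp only [sub_eq_zero, eq_comm (a := m')]

theorem int_indicator {α : ℝ} (h0 : 0 ≤ α) (h1 : α ≤ 1 / 2) (g : ℝ → ℂ) :
    ∫ t in (0 : ℝ)..1, (Set.Icc α (1 - α)).indicator g t = ∫ t in α..(1 - α), g t := by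
  rw [intervalIntegral.integral_of_le zero_le_one,
    intervalIntegral.integral_of_le (by linarith : α ≤ 1 - α), ← integral_Icc_eq_integral_Ioc,
    ← integral_Icc_eq_integral_Ioc, setIntegral_indicator measurableSet_Icc,
    Set.inter_eq_right.2 (Set.Icc_subset_Icc h0 (by linarith))]

theorem chF_eq (k l j : ℤ) : chF k l j = gen (k, j) fun t => ee (l * t) := by
  funext x
  simp only [chF, gen, ← ee_add]
  congr 1; ring

theorem zpow_apply {M : Model} {S : TD} (hE : GoodE M.α M.E) (hS : M.IsMap S) (n : ℤ) (x : R3) :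
    (S.F ^ n) x = ![x 0 + n * (M.dbar + M.σ * deriv M.E (x 1)), x 1 + n * M.b, x 2 + n * M.γ] := by
  have hper : Function.Periodic (deriv M.E) 1 := fun y => by
    rw [← deriv_comp_add_const, funext hE.per]
  have step : ∀ n : ℤ, S.F ![x 0 + n * (M.dbar + M.σ * deriv M.E (x 1)), x 1 + n * M.b,
      x 2 + n * M.γ] = ![x 0 + ((n + 1 : ℤ) : ℝ) * (M.dbar + M.σ * deriv M.E (x 1)),
        x 1 + ((n + 1 : ℤ) : ℝ) * M.b, x 2 + ((n + 1 : ℤ) : ℝ) * M.γ] := by
    intro n
    have h := hper.int_mul (n * M.b) (x 1)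
    rw [mul_one, Int.cast_mul] at h
    rw [hS]
    simp only [Matrix.cons_val_zero, Matrix.cons_val_one, Matrix.cons_val, h]
    push_cast
    congr 1
    · ring
    · congr 1
      · ring
      · congr 1; ring
  induction n using Int.induction_on with
  | zero => funext i; fin_cases i <;> simp
  | succ n ih => rw [add_comm, zpow_one_add, Equiv.Perm.mul_apply, ih, step, add_comm (n : ℤ) 1]
  | pred n ih =>
    apply S.F.injective
    rw [step, ← Equiv.Perm.mul_apply, ← zpow_one_add, sub_add_cancel, add_sub_cancel, ih]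

theorem fibF_zpow {M : Model} {S : TD} (hE : GoodE M.α M.E) (hS : M.IsMap S) (n : ℤ) (m : ℤ × ℤ)
    (φ : ℝ → ℂ) (t : T3) :
    fibF M.α m φ ((S ^ n).T t) = fibF M.α m (fun y => φ y * ee (n * M.freq m y)) t := by
  obtain ⟨x, rfl⟩ := proj_surjective t
  have hper : Function.Periodic (deriv M.E) 1 := fun y => by
    rw [← deriv_comp_add_const, funext hE.per]
  rw [TD.cov, TD.zpow_F, zpow_apply hE hS, fibF_proj, fibF_proj]
  simp only [Matrix.cons_val_zero, Matrix.cons_val_one, Matrix.cons_val]
  rw [← Int.cast_mul, Int.fract_add_intCast]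
  by_cases h : Int.fract (x 1) ∈ Set.Icc M.α (1 - M.α)
  · have h1 : deriv M.E (x 1) = Int.fract (x 1) := by
      have h2 := hper.int_mul ⌊x 1⌋ (Int.fract (x 1))
      rw [mul_one, Int.fract_add_floor] at h2
      rw [h2, hE.der _ h]
    rw [Set.indicator_of_mem h, Set.indicator_of_mem h, h1, mul_assoc, ← ee_add, Model.freq]
    congr 2; ring
  · rw [Set.indicator_of_notMem h, Set.indicator_of_notMem h, zero_mul, zero_mul]

end Fib

open Fib in
theorem fib_of (h1 : IntegralStmt) : FibStmt := by
  refine ⟨fun α m m' φ φ' h0 h2 hφ hφ' => ?_, fun α m φ hφ hm => ?_, fun M S n m φ hE hS hφ => ?_,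
    fun k l j k' l' j' => ?_, fun α k l j h0 h2 => ?_⟩
  · rw [fib, fib, inner_toL2 (memLp_fibF α m hφ) (memLp_fibF α m' hφ')]
    refine (int_conj_gen m m' _ _).trans ?_
    rw [← int_indicator h0 h2]
    congr 2
    funext t
    by_cases h : t ∈ Set.Icc α (1 - α)
    · simp only [Set.indicator_of_mem h]
    · simp only [Set.indicator_of_notMem h, mul_zero]
  · rw [inner_ch_zero, integral_congr_ae (coeFn_fib α m hφ)]
    exact (int_gen m _).trans (if_neg fun h => hm (by rw [h]; rfl))
  · rw [fib, kp_toL2 _ (memLp_fibF _ m hφ), fib]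
    congr 1
    funext t
    exact fibF_zpow hE hS n m φ t
  · rw [ch, ch, inner_toL2 (memLp_chF _ _ _) (memLp_chF _ _ _), chF_eq, chF_eq, int_conj_gen]
    have e : ∀ t : ℝ, conj (ee (l * t)) * ee (l' * t) = ee (((l' - l : ℤ) : ℝ) * t) := by
      intro t
      rw [mul_comm, ← ee_sub]
      congr 1; push_cast; ring
    simp only [e, integral_ee_int, sub_eq_zero, Prod.mk.injEq]
    by_cases hk : k = k' <;> by_cases hj : j = j' <;> by_cases hl : l = l' <;>
      simp [hk, hj, hl, eq_comm (a := l')]
  · have hc : Continuous fun y : ℝ => ee (l * y) := by fun_prop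
    have hm : MemLp (fun x => chF k l j x - fibF α (k, j) (fun y : ℝ => ee (l * y)) x) 2 volume :=
      (memLp_chF k l j).sub (memLp_fibF α (k, j) hc)
    have e : (fun x => chF k l j x - fibF α (k, j) (fun y : ℝ => ee (l * y)) x) =
        gen (k, j) fun t => ee (l * t) - (Set.Icc α (1 - α)).indicator (fun y : ℝ => ee (l * y)) t := by
      funext x
      rw [chF_eq]
      simp only [gen, fibF]
      ring
    have hi : ⟪ch k l j - atom α (k, j) l, ch k l j - atom α (k, j) l⟫_ℂ = ((2 * α : ℝ) : ℂ) := by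
      rw [e] at hm
      rw [ch, atom, fib, ← toL2_sub (memLp_chF k l j) (memLp_fibF α (k, j) hc), e,
        inner_toL2 hm hm, int_conj_gen, if_pos rfl]
      have e2 : ∀ t : ℝ, conj (ee (l * t) -
          (Set.Icc α (1 - α)).indicator (fun y : ℝ => ee (l * y)) t) * (ee (l * t) -
          (Set.Icc α (1 - α)).indicator (fun y : ℝ => ee (l * y)) t) =
          1 - (Set.Icc α (1 - α)).indicator (fun _ => (1 : ℂ)) t := by
        intro t
        by_cases h : t ∈ Set.Icc α (1 - α)
        · simp only [Set.indicator_of_mem h, sub_self, mul_zero]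
        · simp only [Set.indicator_of_notMem h, sub_zero]
          rw [mul_comm, ← ee_sub, sub_self, ee_zero]
      simp only [e2]
      rw [intervalIntegral.integral_sub intervalIntegrable_const
        ((intervalIntegrable_iff.2 ((intervalIntegrable_iff.1
          (intervalIntegrable_const (c := (1 : ℂ)))).indicator measurableSet_Icc))),
        int_indicator h0 h2]
      simp only [intervalIntegral.integral_const, Complex.real_smul]
      push_cast
      ring
    rw [@norm_sq_eq_re_inner ℂ, hi]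
    simp

end Crest.Agent.R81
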