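import Crest.Agent.R81.Defs

/-!
# Row 81, module Fill

The statement and the recipe are in `R81/Defs.lean` (`FillStmt`).
-/

set_option autoImplicit false

open MeasureTheory Finset Crest.AnalysisR.Torus3 Crest.Agent.R75
open scoped InnerProductSpace ComplexConjugate ContDiff

namespace Crest.Agent.R81

namespace Fill

lemma sep_count {ι : Type*} (s : Finset ι) (w : ι → ℝ) {c Λ t : ℝ} (ht : 0 < t) (hΛ : 0 ≤ Λ)
    (hw : ∀ i ∈ s, w i ∈ Set.Icc c (c + Λ)) (hs : ∀ i ∈ s, ∀ j ∈ s, i ≠ j → t ≤ |w i - w j|) :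
    s.card * t ≤ Λ + t := by
  have h1 : s.card ≤ (range (⌊Λ / t⌋₊ + 1)).card := by
    refine card_le_card_of_injOn (fun i => ⌊(w i - c) / t⌋₊) (fun i hi => ?_)
      fun i hi j hj hij => ?_
    · have : (w i - c) / t ≤ Λ / t := by
        gcongr; linarith [(hw i hi).2]
      simpa using Nat.lt_succ_of_le (Nat.floor_le_floor this)
    · by_contra hne
      have h2 := hs i hi j hj hne
      have a1 : 0 ≤ (w i - c) / t := div_nonneg (by linarith [(hw i hi).1]) ht.le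
      have a2 : 0 ≤ (w j - c) / t := div_nonneg (by linarith [(hw j hj).1]) ht.le
      have b1 := Nat.floor_le a1
      have b2 := Nat.floor_le a2
      have b3 := Nat.lt_floor_add_one ((w i - c) / t)
      have b4 := Nat.lt_floor_add_one ((w j - c) / t)
      simp only at hij
      rw [hij] at b1 b3
      rw [le_div_iff₀ ht] at b1 b2
      rw [div_lt_iff₀ ht] at b3 b4
      have : |w i - w j| < t := by rw [abs_lt]; constructor <;> linarith
      linarith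
  rw [card_range] at h1
  have h2 : (s.card : ℝ) ≤ ⌊Λ / t⌋₊ + 1 := by exact_mod_cast h1
  have h3 := Nat.floor_le (div_nonneg hΛ ht.le)
  rw [le_div_iff₀ ht] at h3
  nlinarith

lemma circ_count {ι : Type*} (s : Finset ι) (z : ι → ℝ) {c Λ t : ℝ} (ht : 0 < t) (hΛ : 0 ≤ Λ)
    (hw : ∀ i ∈ s, ∃ N : ℤ, z i - N ∈ Set.Icc c (c + Λ))
    (hz : ∀ i ∈ s, z i ∈ Set.Icc (-1 / 2) (1 / 2 - t))
    (hs : ∀ i ∈ s, ∀ j ∈ s, i ≠ j → t ≤ |z i - z j|) : s.card * t ≤ Λ + t := by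
  choose! N hN using hw
  refine sep_count s (fun i => z i - N i) ht hΛ hN fun i hi j hj hij => ?_
  by_cases h : N i = N j
  · rw [h, sub_sub_sub_cancel_right]; exact hs i hi j hj hij
  · have h1 : (1 : ℝ) ≤ |(N i : ℝ) - N j| := by
      exact_mod_cast Int.one_le_abs (sub_ne_zero.2 h)
    have h2 : |z i - z j| ≤ 1 - t := by
      rw [abs_le]; constructor <;> linarith [(hz i hi).1, (hz i hi).2, (hz j hj).1, (hz j hj).2]
    have h3 := abs_sub (z i - z j) (z i - N i - (z j - N j))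
    rw [show z i - z j - (z i - N i - (z j - N j)) = (N i : ℝ) - N j by ring] at h3
    linarith

lemma freq_neg (M : Model) (m : ℤ × ℤ) (y : ℝ) : M.freq (-m) y = -M.freq m y := by
  simp only [Model.freq, Prod.fst_neg, Prod.snd_neg]; push_cast; ring

/-- the model with the additional modes `± P` -/
noncomputable def ext (M : Model) (P : Finset (ℤ × ℤ)) : Model :=
  { M with
    G := M.G ∪ (P ∪ P.image (-·))
    θ := fun m => if m ∈ M.G then M.θ m else 0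
    c := fun m => if m ∈ M.G then M.c m else (√M.σ : ℝ) }

lemma ext_freq (M : Model) (P : Finset (ℤ × ℤ)) : (ext M P).freq = M.freq := rfl

lemma mem_new {P : Finset (ℤ × ℤ)} {m : ℤ × ℤ} : m ∈ P ∪ P.image (-·) ↔ m ∈ P ∨ -m ∈ P := by
  simp only [mem_union, mem_image]
  refine or_congr Iff.rfl ⟨?_, fun h => ⟨-m, h, neg_neg m⟩⟩
  rintro ⟨p, hp, rfl⟩
  rwa [neg_neg]

lemma abs_new {P : Finset (ℤ × ℤ)} (hP : ∀ p ∈ P, p.1 = 1) {m : ℤ × ℤ}
    (hm : m ∈ P ∪ P.image (-·)) : |m.1| = 1 := by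
  rcases mem_new.1 hm with h | h
  · rw [hP m h, abs_one]
  · rw [← abs_neg]; exact (congrArg abs (hP _ h)).trans abs_one

lemma ext_valid (M : Model) (hM : M.Valid) (P : Finset (ℤ × ℤ)) (hP : ∀ p ∈ P, p.1 = 1)
    (h1 : ∀ p ∈ P, ∀ m ∈ M.G, ∀ y ∈ Set.Icc M.α (1 - M.α), ∀ y' ∈ Set.Icc M.α (1 - M.α), ∀ n : ℤ,
      M.freq p y - M.freq m y' ≠ n)
    (h2 : ∀ p ∈ P, ∀ p' ∈ P, ∀ y ∈ Set.Icc M.α (1 - M.α), ∀ y' ∈ Set.Icc M.α (1 - M.α), ∀ n : ℤ,
      M.freq p y - M.freq p' y' = n → p = p' ∧ y = y')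
    (h3 : ∀ p ∈ P, ∀ p' ∈ P, ∀ y ∈ Set.Icc M.α (1 - M.α), ∀ y' ∈ Set.Icc M.α (1 - M.α), ∀ n : ℤ,
      M.freq p y + M.freq p' y' ≠ n) : (ext M P).Valid := by
  have hneg : ∀ m, -m ∈ M.G ↔ m ∈ M.G := fun m =>
    ⟨fun h => neg_neg m ▸ hM.div.neg_mem h, hM.div.neg_mem⟩
  refine ⟨hM.σ_pos, hM.α_pos, hM.α_lt, hM.goodE, hM.q_pos, hM.qγ, fun m hm => ?_,
    fun m hm b m' hb => ?_, fun m _ => ?_, fun m _ => ?_, fun m hm => ?_, ?_⟩
  · rcases mem_union.1 hm with h | h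
    · exact hM.k_ne m h
    · intro h0
      have := abs_new hP h
      rw [h0] at this
      simp at this
  · rcases mem_union.1 hm with h | h
    · exact mem_union_left _ (hM.div m h b m' hb)
    · refine mem_union_right _ ?_
      have h4 := abs_new hP h
      rw [hb, Prod.smul_fst, smul_eq_mul, abs_mul] at h4
      have h5 : |b| = 1 := Int.eq_one_of_mul_eq_one_right (abs_nonneg _) h4
      rcases (abs_eq zero_le_one).1 h5 with rfl | rfl
      · rwa [hb, one_smul] at h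
      · rw [hb, neg_smul, one_smul, mem_new, neg_neg] at h
        exact mem_new.2 h.symm
  · simp only [ext, hneg]
    split_ifs with h
    · exact hM.θ_neg m h
    · simp
  · simp only [ext, hneg]
    split_ifs with h
    · exact hM.c_neg m h
    · simp
  · simp only [ext]
    split_ifs with h
    · exact hM.c_norm m h
    · have h4 : |(m.1 : ℝ)| = 1 := by
        exact_mod_cast abs_new hP ((mem_union.1 hm).resolve_left h)
      rw [h4, one_mul, Complex.norm_real, Real.norm_eq_abs, sq_abs, Real.sq_sqrt hM.σ_pos.le]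
  · intro m hm m' hm' y hy y' hy' n hn
    rw [ext_freq] at hn
    have e1 := freq_neg M m y
    have e2 := freq_neg M m' y'
    rcases mem_union.1 hm with g | g <;> rcases mem_union.1 hm' with g' | g'
    · exact hM.disj m g m' g' y hy y' hy' n hn
    · rcases mem_new.1 g' with g' | g'
      · exact absurd (by push_cast; linarith) (h1 m' g' m g y' hy' y hy (-n))
      · exact absurd (by linarith) (h1 _ g' _ (hM.div.neg_mem g) y' hy' y hy n)
    · rcases mem_new.1 g with g | g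
      · exact absurd hn (h1 m g m' g' y hy y' hy' n)
      · exact absurd (by push_cast; linarith) (h1 _ g _ (hM.div.neg_mem g') y hy y' hy' (-n))
    · rcases mem_new.1 g with g | g <;> rcases mem_new.1 g' with g' | g'
      · exact h2 m g m' g' y hy y' hy' n hn
      · exact absurd (by linarith) (h3 _ g _ g' y hy y' hy' n)
      · exact absurd (by push_cast; linarith) (h3 _ g _ g' y hy y' hy' (-n))
      · have := h2 _ g _ g' y hy y' hy' (-n) (by push_cast; linarith)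
        exact ⟨neg_injective this.1, this.2⟩

lemma ext_d (M : Model) (hG : ∀ m ∈ M.G, 1 < |m.1|) (P : Finset (ℤ × ℤ)) (hP : ∀ p ∈ P, p.1 = 1) :
    (ext M P).d = M.d - 2 * P.card * (M.σ * (1 - 2 * M.α)) := by
  have h1 : Disjoint M.G (P ∪ P.image (-·)) :=
    disjoint_left.2 fun m hm hm' => by have := hG m hm; rw [abs_new hP hm'] at this; omega
  have h2 : Disjoint P (P.image (-·)) := disjoint_left.2 fun m hm hm' => by
    obtain ⟨p, hp, rfl⟩ := mem_image.1 hm'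
    have a1 := hP _ hm
    have a2 := hP _ hp
    simp only [Prod.fst_neg] at a1
    omega
  have h3 : ∑ m ∈ P ∪ P.image (-·), |(m.1 : ℝ)| * M.σ * (1 - 2 * M.α) =
      ∑ _m ∈ P ∪ P.image (-·), M.σ * (1 - 2 * M.α) := sum_congr rfl fun m hm => by
    have h4 : |(m.1 : ℝ)| = 1 := by exact_mod_cast abs_new hP hm
    rw [h4, one_mul]
  change 1 - ∑ m ∈ M.G ∪ (P ∪ P.image (-·)), |(m.1 : ℝ)| * M.σ * (1 - 2 * M.α) = _
  rw [sum_union h1, h3, sum_const, card_union_of_disjoint h2,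
    card_image_of_injective _ neg_injective, Model.d, nsmul_eq_mul]
  push_cast
  ring

lemma rat (X : ℝ) (q₀ : ℕ) : ∃ (q : ℕ) (γ : ℝ), q₀ ≤ q ∧ 0 < q ∧ |γ - X| ≤ 1 / q ∧
    (∃ n : ℤ, (q : ℝ) * γ = n) ∧ ∀ i : ℤ, ∃ j n : ℤ, j * γ = i / q + n := by
  obtain ⟨q, hq, hp⟩ := Nat.exists_infinite_primes q₀
  have hq0 : (0 : ℝ) < q := by exact_mod_cast hp.pos
  obtain ⟨p, h1, h2⟩ : ∃ p : ℤ, |(p : ℝ) - X * q| ≤ 1 ∧ ¬ (q : ℤ) ∣ p := by
    have a1 := Int.floor_le (X * q)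
    have a2 := Int.lt_floor_add_one (X * q)
    by_cases h : (q : ℤ) ∣ ⌊X * q⌋
    · refine ⟨⌊X * q⌋ + 1, ?_, fun h' => ?_⟩
      · push_cast; rw [abs_le]; constructor <;> linarith
      · have := (Int.dvd_add_right h).1 h'
        exact hp.one_lt.ne' (Nat.dvd_one.1 (by exact_mod_cast this))
    · exact ⟨_, by rw [abs_le]; constructor <;> linarith, h⟩
  obtain ⟨a, b, hab⟩ : IsCoprime (q : ℤ) p :=
    (Irreducible.coprime_iff_not_dvd (Nat.prime_iff_prime_int.1 hp).irreducible).2 h2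
  have hab' : (a : ℝ) * q + b * p = 1 := by exact_mod_cast hab
  refine ⟨q, p / q, hq, hp.pos, ?_, ⟨p, by field_simp⟩, fun i => ⟨b * i, -(a * i), ?_⟩⟩
  · rw [show (p : ℝ) / q - X = (p - X * q) / q by field_simp, abs_div, abs_of_pos hq0]
    gcongr
  · push_cast
    field_simp
    linear_combination (i : ℝ) * hab'

open Classical in
/-- the number of blocks which meet the interval of `m` or of `-m` -/
lemma count_mode (M : Model) (hM : M.Valid) {x₀ t : ℝ} {n : ℕ} (hx : 0 < x₀)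
    (ht : M.σ * (1 - 2 * M.α) < t) (hn : ∀ i < n, x₀ + (i + 1) * t ≤ 1 / 2)
    (S : ℤ × ℤ → Finset ℕ) (hS : ∀ m, ∀ i ∈ S m, i < n ∧ ∃ y ∈ Set.Icc M.α (1 - M.α),
      ∃ y' ∈ Set.Icc M.α (1 - M.α), ∃ N : ℤ, x₀ + i * t + M.σ * (y - M.α) - M.freq m y' = N)
    (m : ℤ × ℤ) :
    ((S m).card + (S (-m)).card) * t ≤ |(m.1 : ℝ)| * M.σ * (1 - 2 * M.α) + 2 * t := by
  have hσ := hM.σ_pos
  have hα := hM.α_lt
  have hl : 0 < M.σ * (1 - 2 * M.α) := mul_pos hσ (by linarith)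
  have ht0 : 0 < t := hl.trans ht
  have hJ : ∀ y ∈ Set.Icc M.α (1 - M.α),
      |M.freq m y - M.freq m (1 / 2)| ≤ |(m.1 : ℝ)| * M.σ * (1 - 2 * M.α) / 2 := fun y hy => by
    have : M.freq m y - M.freq m (1 / 2) = m.1 * M.σ * (y - 1 / 2) := by
      simp only [Model.freq]; ring
    rw [this, abs_mul, abs_mul, abs_of_pos hσ, mul_div_assoc]
    gcongr
    rw [abs_le]; constructor <;> linarith [hy.1, hy.2]
  have hy1 : ∀ y ∈ Set.Icc M.α (1 - M.α), 0 ≤ M.σ * (y - M.α) ∧ M.σ * (y - M.α) < t :=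
    fun y hy => ⟨mul_nonneg hσ.le (by linarith [hy.1]),
      lt_of_le_of_lt (mul_le_mul_of_nonneg_left (by linarith [hy.2]) hσ.le) ht⟩
  have key := circ_count ((S m).disjSum (S (-m)))
    (Sum.elim (fun i : ℕ => x₀ + i * t) (fun i : ℕ => -(x₀ + (i + 1) * t)))
    (c := M.freq m (1 / 2) - |(m.1 : ℝ)| * M.σ * (1 - 2 * M.α) / 2 - t)
    (Λ := |(m.1 : ℝ)| * M.σ * (1 - 2 * M.α) + t) ht0 (by rw [mul_assoc]; positivity) ?_ ?_ ?_
  · rw [card_disjSum] at key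
    push_cast at key
    linarith
  · rintro (i | i) hi
    · obtain ⟨-, y, hy, y', hy', N, hN⟩ := hS m i (inl_mem_disjSum.1 hi)
      have a1 := abs_le.1 (hJ y' hy')
      have a2 := hy1 y hy
      refine ⟨N, ?_, ?_⟩ <;> simp only [Sum.elim_inl] <;> linarith
    · obtain ⟨-, y, hy, y', hy', N, hN⟩ := hS (-m) i (inr_mem_disjSum.1 hi)
      have a1 := abs_le.1 (hJ y' hy')
      have a2 := hy1 y hy
      rw [freq_neg] at hN
      refine ⟨-N, ?_, ?_⟩ <;> simp only [Sum.elim_inr, Int.cast_neg] <;> linarith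
  · rintro (i | i) hi
    · have a1 := hn i (hS m i (inl_mem_disjSum.1 hi)).1
      have a2 : 0 ≤ (i : ℝ) * t := by positivity
      constructor <;> simp only [Sum.elim_inl] <;> linarith
    · have a1 := hn i (hS _ i (inr_mem_disjSum.1 hi)).1
      have a2 : 0 ≤ (i : ℝ) * t := by positivity
      constructor <;> simp only [Sum.elim_inr] <;> linarith
  · have hsep : ∀ i j : ℕ, i ≠ j → t ≤ |(i : ℝ) * t - j * t| := fun i j hij => by
      have : (1 : ℝ) ≤ |(i : ℝ) - j| := by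
        exact_mod_cast Int.one_le_abs (sub_ne_zero.2 (Int.natCast_inj.ne.2 hij))
      rw [← sub_mul, abs_mul, abs_of_pos ht0]
      nlinarith
    rintro (i | i) _ (j | j) _ hij <;> simp only [Sum.elim_inl, Sum.elim_inr]
    · rw [add_sub_add_left_eq_sub]; exact hsep i j fun h => hij (by rw [h])
    · have a2 : 0 ≤ (i : ℝ) * t := by positivity
      have a3 : 0 ≤ (j : ℝ) * t := by positivity
      exact le_trans (by linarith) (le_abs_self _)
    · have a2 : 0 ≤ (i : ℝ) * t := by positivity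
      have a3 : 0 ≤ (j : ℝ) * t := by positivity
      exact le_trans (by linarith) (neg_le_abs _)
    · rw [show -(x₀ + ((i : ℝ) + 1) * t) - -(x₀ + ((j : ℝ) + 1) * t) = j * t - i * t by ring]
      exact hsep j i fun h => hij (by rw [h])

lemma arith {σ l t q x₀ n k T g D : ℝ} (hσ : 0 < σ) (hq : 0 < q) (hl0 : σ / 2 ≤ l) (hl1 : l ≤ σ)
    (ht1 : l < t) (ht2 : t ≤ l + 1 / q) (hx : x₀ ≤ 1 / q) (hn2 : n * t ≤ 1 / 2)
    (hn3 : 1 / 2 - x₀ < (n + 1) * t) (hk : 0 ≤ k) (hg : 0 ≤ g) (c4 : n ≤ k + T) (c5 : k ≤ n)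
    (c2 : (T + T) * t ≤ D + g * (2 * t)) :
    1 - D - 2 * k * l ≤ (2 * g + 6) * (σ + 1 / q) + 4 / (q * σ) := by
  have ht0 : 0 < t := by linarith
  have c6 : k * (1 / q) ≤ 1 / (q * σ) := by
    rw [mul_one_div, div_le_div_iff₀ hq (by positivity)]
    have : k * σ ≤ 1 := by nlinarith
    nlinarith
  have c7 : 0 ≤ 1 / (q * σ) := by positivity
  have c8 : 0 ≤ 1 / q := by positivity
  rw [show 4 / (q * σ) = 4 * (1 / (q * σ)) by ring]
  generalize 1 / (q * σ) = A at *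
  generalize 1 / q = B at *
  have d1 : k * t ≤ k * (l + B) := by gcongr
  have d2 : g * t ≤ g * (σ + B) := by gcongr; linarith
  have d3 := mul_le_mul_of_nonneg_right c4 ht0.le
  nlinarith

lemma block_inj {x₀ t u u' : ℝ} {i i' : ℕ} {k : ℤ} (a1 : 0 < x₀ + i * t + u ∧ x₀ + i * t + u < 1 / 2)
    (a2 : 0 < x₀ + i' * t + u' ∧ x₀ + i' * t + u' < 1 / 2) (b1 : 0 ≤ u ∧ u < t)
    (b2 : 0 ≤ u' ∧ u' < t) (hk : x₀ + i * t + u - (x₀ + i' * t + u') = k) : i = i' ∧ u = u' := by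
  have a3 : |(k : ℝ)| < 1 := by
    rw [abs_lt]; constructor <;> linarith
  have a4 : k = 0 := Int.abs_lt_one_iff.1 (by exact_mod_cast a3)
  rw [a4, Int.cast_zero] at hk
  have a6 : |(((i : ℤ) - i' : ℤ) : ℝ)| < 1 := by
    push_cast; rw [abs_lt]; constructor <;> nlinarith
  have a7 : i = i' := by
    have := Int.abs_lt_one_iff.1 (by exact_mod_cast a6 : |(i : ℤ) - i'| < 1)
    omega
  subst a7
  exact ⟨rfl, by linarith⟩

lemma not_int {x y : ℝ} {k : ℤ} (hx : 0 < x ∧ x < 1 / 2) (hy : 0 < y ∧ y < 1 / 2) : x + y ≠ k := by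
  intro h
  have a3 : (0 : ℝ) < k := by linarith
  have a4 : (k : ℝ) < 1 := by linarith
  have a5 : 0 < k := by exact_mod_cast a3
  have a6 : k < 1 := by exact_mod_cast a4
  omega

lemma exists_n {x₀ t : ℝ} (ht0 : 0 < t) : ∃ n : ℕ, (∀ i < n, x₀ + (i + 1) * t ≤ 1 / 2) ∧
    (0 < x₀ → n * t ≤ 1 / 2) ∧ 1 / 2 - x₀ < (n + 1) * t := by
  have h3 := Nat.lt_floor_add_one ((1 / 2 - x₀) / t)
  rw [div_lt_iff₀ ht0] at h3
  by_cases h : 0 ≤ (1 / 2 - x₀) / t
  · have h4 := Nat.floor_le h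
    rw [le_div_iff₀ ht0] at h4
    refine ⟨_, fun i hi => ?_, fun _ => by linarith, h3⟩
    have : (i : ℝ) + 1 ≤ ⌊(1 / 2 - x₀) / t⌋₊ := by exact_mod_cast hi
    nlinarith
  · rw [Nat.floor_of_nonpos (not_le.1 h).le] at h3
    exact ⟨0, by simp, by simp, h3⟩

theorem fill (M : Model) (hM : M.Valid) (hG : ∀ m ∈ M.G, 1 < |m.1|)
    (hγ : ∀ i : ℤ, ∃ j n : ℤ, j * M.γ = i / M.q + n) :
    ∃ M' : Model, M'.Valid ∧ M'.dbar = M.dbar ∧ M'.σ = M.σ ∧ M'.α = M.α ∧ M'.E = M.E ∧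
      M'.b = M.b ∧ M'.γ = M.γ ∧ M.G ⊆ M'.G ∧ (∀ m ∈ M'.G, m ∉ M.G → |m.1| = 1) ∧
      (∀ m ∈ M.G, M'.θ m = M.θ m ∧ M'.c m = M.c m) ∧
      M'.d ≤ (2 * M.G.card + 6) * (M.σ + 1 / M.q) + 4 / (M.q * M.σ) := by
  classical
  have hσ := hM.σ_pos
  have hα := hM.α_lt
  have hα0 := hM.α_pos
  have hq : (0 : ℝ) < M.q := by exact_mod_cast hM.q_pos
  obtain ⟨l, hl⟩ : ∃ l, l = M.σ * (1 - 2 * M.α) := ⟨_, rfl⟩
  have hl0 : M.σ / 2 ≤ l := by rw [hl]; nlinarith
  have hl1 : l ≤ M.σ := by rw [hl]; nlinarith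
  obtain ⟨a, t, hta, ht1, ht2⟩ : ∃ (a : ℤ) (t : ℝ), t = a / M.q ∧ l < t ∧ t ≤ l + 1 / M.q := by
    refine ⟨⌊l * M.q⌋ + 1, _, rfl, ?_, ?_⟩
    · rw [lt_div_iff₀ hq]; push_cast; exact Int.lt_floor_add_one _
    · rw [div_le_iff₀ hq, add_mul, one_div_mul_cancel hq.ne']
      push_cast
      linarith [Int.floor_le (l * M.q)]
  have ht0 : 0 < t := by linarith
  obtain ⟨i₀, x₀, hx, hx0, hx1⟩ : ∃ (i₀ : ℤ) (x₀ : ℝ), x₀ = M.dbar + M.σ * M.α + i₀ / M.q ∧
      0 < x₀ ∧ x₀ ≤ 1 / M.q := by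
    obtain ⟨X, hX⟩ : ∃ X, X = M.dbar + M.σ * M.α := ⟨_, rfl⟩
    rw [← hX]
    have e : X + ((1 - ⌈X * M.q⌉ : ℤ) : ℝ) / M.q = (X * M.q + 1 - ⌈X * M.q⌉) / M.q := by
      push_cast; field_simp; ring
    refine ⟨1 - ⌈X * M.q⌉, _, rfl, ?_, ?_⟩
    · rw [e]; exact div_pos (by linarith [Int.ceil_lt_add_one (X * M.q)]) hq
    · rw [e]; gcongr; linarith [Int.le_ceil (X * M.q)]
  obtain ⟨n, hn1, hn2, hn3⟩ := exists_n (x₀ := x₀) ht0
  choose j N hj using fun i : ℕ => hγ (i₀ + i * a)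
  have hf : ∀ (i : ℕ) (y : ℝ), M.freq (1, j i) y = x₀ + i * t + M.σ * (y - M.α) + N i := by
    intro i y
    simp only [Model.freq, hj, hx, hta]
    push_cast
    ring
  have hy1 : ∀ y ∈ Set.Icc M.α (1 - M.α), 0 ≤ M.σ * (y - M.α) ∧ M.σ * (y - M.α) < t :=
    fun y hy => ⟨mul_nonneg hσ.le (by linarith [hy.1]),
      lt_of_le_of_lt (mul_le_mul_of_nonneg_left (by linarith [hy.2]) hσ.le) (hl ▸ ht1)⟩
  have hrange : ∀ i < n, ∀ y ∈ Set.Icc M.α (1 - M.α),
      0 < x₀ + i * t + M.σ * (y - M.α) ∧ x₀ + i * t + M.σ * (y - M.α) < 1 / 2 := by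
    intro i hi y hy
    have a1 := hn1 i hi
    have a2 := hy1 y hy
    have a3 : 0 ≤ (i : ℝ) * t := by positivity
    constructor <;> linarith
  have hinj : ∀ i < n, ∀ i' < n, ∀ y ∈ Set.Icc M.α (1 - M.α), ∀ y' ∈ Set.Icc M.α (1 - M.α),
      ∀ k : ℤ, M.freq (1, j i) y - M.freq (1, j i') y' = k → i = i' ∧ y = y' := by
    intro i hi i' hi' y hy y' hy' k hk
    rw [hf, hf] at hk
    obtain ⟨h1, h2⟩ := block_inj (k := k - N i + N i') (hrange i hi y hy) (hrange i' hi' y' hy')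
      (hy1 y hy) (hy1 y' hy') (by push_cast; linear_combination hk)
    exact ⟨h1, sub_left_inj.1 (mul_left_cancel₀ hσ.ne' h2)⟩
  set S : ℤ × ℤ → Finset ℕ := fun m => (range n).filter fun i => ∃ y ∈ Set.Icc M.α (1 - M.α),
    ∃ y' ∈ Set.Icc M.α (1 - M.α), ∃ k : ℤ, M.freq (1, j i) y - M.freq m y' = k with hS
  set Kp : Finset ℕ := range n \ M.G.biUnion S with hKp
  have hKn : ∀ i ∈ Kp, i < n := fun i hi => mem_range.1 (mem_sdiff.1 hi).1
  set P : Finset (ℤ × ℤ) := Kp.image fun i => (1, j i) with hPd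
  have hP : ∀ p ∈ P, p.1 = 1 := fun p hp => by
    obtain ⟨i, -, rfl⟩ := mem_image.1 hp
    rfl
  have hαI : M.α ∈ Set.Icc M.α (1 - M.α) := ⟨le_rfl, by linarith⟩
  have hcard : P.card = Kp.card := card_image_of_injOn fun i hi i' hi' h =>
    (hinj i (hKn i hi) i' (hKn i' hi') _ hαI _ hαI 0 (by
      rw [show ((1, j i) : ℤ × ℤ) = (1, j i') from h]; simp)).1
  refine ⟨ext M P, ext_valid M hM P hP ?_ ?_ ?_, rfl, rfl, rfl, rfl, rfl, rfl, subset_union_left,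
    fun m hm hm' => abs_new hP ((mem_union.1 hm).resolve_left hm'),
    fun m hm => by simp [ext, hm], ?_⟩
  · intro p hp m hm y hy y' hy' k hk
    obtain ⟨i, hi, rfl⟩ := mem_image.1 hp
    exact (mem_sdiff.1 hi).2 (mem_biUnion.2 ⟨m, hm, mem_filter.2
      ⟨(mem_sdiff.1 hi).1, y, hy, y', hy', k, hk⟩⟩)
  · intro p hp p' hp' y hy y' hy' k hk
    obtain ⟨i, hi, rfl⟩ := mem_image.1 hp
    obtain ⟨i', hi', rfl⟩ := mem_image.1 hp'
    obtain ⟨rfl, h⟩ := hinj i (hKn i hi) i' (hKn i' hi') y hy y' hy' k hk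
    exact ⟨rfl, h⟩
  · intro p hp p' hp' y hy y' hy' k hk
    obtain ⟨i, hi, rfl⟩ := mem_image.1 hp
    obtain ⟨i', hi', rfl⟩ := mem_image.1 hp'
    rw [hf, hf] at hk
    exact not_int (k := k - N i - N i') (hrange i (hKn i hi) y hy) (hrange i' (hKn i' hi') y' hy')
      (by push_cast; linear_combination hk)
  · rw [ext_d M hG P hP, hcard, ← hl]
    have c1 : ∀ m ∈ M.G, (((S m).card : ℝ) + (S (-m)).card) * t ≤
        |(m.1 : ℝ)| * M.σ * (1 - 2 * M.α) + 2 * t := fun m _ =>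
      count_mode M hM hx0 (hl ▸ ht1) hn1 S (fun m i hi => by
        obtain ⟨h1, y, hy, y', hy', k, hk⟩ := mem_filter.1 hi
        rw [hf] at hk
        exact ⟨mem_range.1 h1, y, hy, y', hy', k - N i, by push_cast; linear_combination hk⟩) m
    have c2 := sum_le_sum c1
    have c3 : ∑ m ∈ M.G, ((S (-m)).card : ℝ) = ∑ m ∈ M.G, ((S m).card : ℝ) :=
      sum_nbij' (-·) (-·) (fun m hm => hM.div.neg_mem hm) (fun m hm => hM.div.neg_mem hm)
        (fun m _ => neg_neg m) (fun m _ => neg_neg m) fun m _ => rfl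
    rw [← sum_mul, sum_add_distrib, sum_add_distrib, c3, sum_const, nsmul_eq_mul] at c2
    have c4 : (n : ℝ) ≤ Kp.card + ∑ m ∈ M.G, ((S m).card : ℝ) := by
      have a1 := le_card_sdiff (M.G.biUnion S) (range n)
      have a2 := card_biUnion_le (s := M.G) (t := S)
      rw [card_range, ← hKp] at a1
      have : n ≤ Kp.card + ∑ m ∈ M.G, (S m).card := by omega
      exact_mod_cast this
    have c5 : (Kp.card : ℝ) ≤ n := by
      have := card_le_card (sdiff_subset : Kp ⊆ range n)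
      rw [card_range] at this
      exact_mod_cast this
    exact arith hσ hq hl0 hl1 ht1 ht2 hx1 (hn2 hx0) hn3 (Nat.cast_nonneg _) (Nat.cast_nonneg _)
      c4 c5 c2

end Fill

theorem fill_stmt : FillStmt := by
  exact ⟨Fill.fill, Fill.rat⟩

end Crest.Agent.R81
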