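import Crest.Agent.R81.Defs

/-!
# Row 81, module Final

The statement and the recipe are in `R81/Defs.lean` (`MainStmt`).
-/

set_option autoImplicit false

open MeasureTheory Finset Crest.AnalysisR.Torus3 Crest.Agent.R75
open scoped InnerProductSpace ComplexConjugate ContDiff

namespace Crest.Agent.R81

namespace Final

theorem ae_re {G : L2} (hG : IsReal G) (H : TD) :
    ∀ᵐ x, kp H G x = (((G (H.T x)).re : ℝ) : ℂ) := by
  filter_upwards [coeFn_kp H G, H.mp.quasiMeasurePreserving.ae hG] with x h1 h2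
  rw [h1]
  exact Complex.ext rfl (by simpa using h2)

theorem inner_kp {G : L2} (hG : IsReal G) (H : TD) (f : L2) :
    ⟪kp H G, f⟫_ℂ = ∫ x, f x * (((G (H.T x)).re : ℝ) : ℂ) := by
  rw [L2.inner_def]
  apply integral_congr_ae
  filter_upwards [ae_re hG H] with x h1
  rw [h1]; simp

theorem eq_zero_of_small {z : ℂ} {c : ℝ} (hc : 0 ≤ c) (h : ∀ ε : ℝ, 0 < ε → ‖z‖ ≤ ε * c) :
    z = 0 := by
  rw [← norm_le_zero_iff]
  refine le_of_forall_pos_le_add fun ε hε => ?_
  have h1 := h (ε / (c + 1)) (by positivity)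
  have h2 : ε / (c + 1) * c ≤ ε := by
    rw [div_mul_eq_mul_div, div_le_iff₀ (by positivity)]; nlinarith
  linarith

theorem inner_eq_zero {ι : Type*} (v : ι → L2) (f φ : L2) (P : Finset ι → Prop)
    (hv : ∀ A, P A → ∀ i ∈ A, ⟪v i, f⟫_ℂ = 0)
    (h : ∀ ε : ℝ, 0 < ε → ∃ (A : Finset ι) (a : ι → ℂ), P A ∧ ‖φ - ∑ i ∈ A, a i • v i‖ ≤ ε) :
    ⟪φ, f⟫_ℂ = 0 := by
  refine eq_zero_of_small (norm_nonneg f) fun ε hε => ?_
  obtain ⟨A, a, hA, h1⟩ := h ε hε
  have h2 : ⟪φ - ∑ i ∈ A, a i • v i, f⟫_ℂ = ⟪φ, f⟫_ℂ := by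
    rw [inner_sub_left, sum_inner, Finset.sum_eq_zero, sub_zero]
    intro i hi
    rw [inner_smul_left, hv A hA i hi, mul_zero]
  rw [← h2]
  exact (norm_inner_le_norm _ _).trans (by gcongr)

end Final

open Final in
theorem main_of (h1 : DenseStmt) (h2 : CyclicStmt) : MainStmt := by
  obtain ⟨T, G, hG, h0, hcorr, hcyc⟩ := h2
  refine ⟨T.T, fun x => (G x).re, T.isSmoothDiffeo, T.mp, (Lp.memLp G).re, ?_, fun m n => ?_,
    fun h hh hm ho => ?_⟩
  · rw [inner_ch_zero] at h0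
    have hi : Integrable G volume := (Lp.memLp G).integrable one_le_two
    have := integral_re hi
    rw [h0] at this
    simpa using this
  · have e1 : ⟪kp (T ^ n) G, kp (T ^ m) G⟫_ℂ = if m = n then 1 else 0 := by
      have : kp (T ^ m) G = kp (T ^ n) (kp (T ^ (m - n)) G) := by
        rw [← kp_mul, ← zpow_add, sub_add_cancel]
      rw [this, LinearIsometry.inner_map_map, hcorr]
      simp only [sub_eq_zero]
    rw [inner_kp hG] at e1
    have e2 : ∫ x, kp (T ^ m) G x * (((G ((T ^ n).T x)).re : ℝ) : ℂ) =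
        ((∫ x, (G ((T.T ^ m) x)).re * (G ((T.T ^ n) x)).re : ℝ) : ℂ) := by
      rw [← integral_complex_ofReal]
      apply integral_congr_ae
      filter_upwards [ae_re hG (T ^ m)] with x h1
      rw [h1]; simp
    rw [e2] at e1
    apply Complex.ofReal_injective
    rw [e1]; split_ifs <;> simp
  · have hf := coeFn_toL2 hh
    have e1 : ∀ n : ℤ, ⟪kp (T ^ n) G, toL2 h⟫_ℂ = 0 := by
      intro n
      rw [inner_kp hG, ← ho n]
      apply integral_congr_ae
      filter_upwards [hf] with x h1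
      rw [h1]; simp
    have e2 : ∀ k l j : ℤ, (k, l, j) ≠ (0, 0, 0) → ⟪ch k l j, toL2 h⟫_ℂ = 0 := by
      intro k l j hk
      refine inner_eq_zero (fun n : ℤ => kp (T ^ n) G) _ _ (fun _ => True) (fun _ _ n _ => e1 n)
        fun ε hε => ?_
      obtain ⟨A, p, hp⟩ := hcyc k l j ε hk hε
      exact ⟨A, p, trivial, hp⟩
    have e0 : ⟪ch 0 0 0, toL2 h⟫_ℂ = 0 := by
      rw [inner_ch_zero, ← hm]; exact integral_congr_ae hf
    have e3 : ⟪toL2 h, toL2 h⟫_ℂ = 0 :=
      inner_eq_zero (fun p : ℤ × ℤ × ℤ => ch p.1 p.2.1 p.2.2) _ _ (fun A => (0, 0, 0) ∉ A)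
        (fun A hA p hp => e2 _ _ _ fun e => hA (e ▸ hp)) fun ε hε => h1 _ ε e0 hε
    rw [inner_self_eq_zero] at e3
    rw [e3] at hf
    exact hf.symm.trans (Lp.coeFn_zero ℂ 2 _)

end Crest.Agent.R81
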