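import Crest.Agent.R81.Defs
import Crest.Agent.R75.StatPhase
import Crest.Agent.R75.VdC

/-!
# Row 81, module Fresnel

The statement and the recipe are in `R81/Defs.lean` (`FresnelStmt`).
-/

set_option autoImplicit false

open MeasureTheory Finset Crest.AnalysisR.Torus3 Crest.Agent.R75
open scoped InnerProductSpace ComplexConjugate ContDiff

namespace Crest.Agent.R81

namespace Fresnel

open StatPhase

theorem norm_gam_eq : ‖gam‖ = 1 := by
  have h : (1 / 2 : ℂ) = ((1 / 2 : ℝ) : ℂ) := by push_cast; ring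
  rw [gam, h, Complex.norm_cpow_real]
  have : ‖((Real.pi : ℂ) / ((0 : ℝ) - Real.pi * Complex.I))‖ = 1 := by
    simp [abs_of_pos Real.pi_pos, Real.pi_ne_zero]
  rw [this]; simp

theorem trunc (R A B : ℝ) (hR : 0 < R) (hA : R ≤ A) (hB : R ≤ B) :
    ‖(∫ u in (-A)..B, ee (u ^ 2 / 2)) - gam‖ ≤ 8 / R := by
  have hc : Continuous fun u : ℝ => ee (u ^ 2 / 2) := by fun_prop
  have t1 := tail_neg vdc1 0 R A le_rfl hR hA
  have t2 := tail_pos vdc1 0 R B le_rfl hR hB
  simp only [neg_zero, zero_mul, Real.exp_zero, Complex.ofReal_one, one_mul] at t1 t2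
  have t3 := fres_sub_gam vdc1 R hR
  have e1 : (∫ u in (-A)..B, ee (u ^ 2 / 2)) - gam =
      (∫ u in (-A)..(-R), ee (u ^ 2 / 2)) + (fres R - gam) + ∫ u in R..B, ee (u ^ 2 / 2) := by
    rw [← intervalIntegral.integral_add_adjacent_intervals (a := -A) (b := R) (c := B)
      (hc.intervalIntegrable _ _) (hc.intervalIntegrable _ _),
      ← intervalIntegral.integral_add_adjacent_intervals (a := -A) (b := -R) (c := R)
      (hc.intervalIntegrable _ _) (hc.intervalIntegrable _ _), fres]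
    ring
  rw [e1]
  refine norm_add₃_le.trans ?_
  have : 8 / R = 2 / R + 4 / R + 2 / R := by ring
  linarith

theorem norm_phiHat (α β ξ : ℝ) (hβ : β ≠ 0) :
    ‖phiHat α β ξ‖ = ‖∫ y in α..(1 - α), ee (|β| * (y - ξ / β) ^ 2 / 2)‖ := by
  have e1 : phiHat α β ξ =
      ee (-(β * (ξ / β) ^ 2 / 2)) * ∫ y in α..(1 - α), ee (β * (y - ξ / β) ^ 2 / 2) := by
    rw [phiHat, ← intervalIntegral.integral_const_mul]
    congr 1
    funext y
    rw [← ee_add]
    congr 1
    field_simp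
    ring
  rw [e1, norm_mul, norm_ee, one_mul]
  rcases lt_or_gt_of_ne hβ with h | h
  · have e2 : (fun y : ℝ => ee (|β| * (y - ξ / β) ^ 2 / 2)) =
        fun y : ℝ => conj (ee (β * (y - ξ / β) ^ 2 / 2)) := by
      funext y
      rw [← ee_neg, abs_of_neg h]
      congr 1
      ring
    rw [e2]
    simp only [intervalIntegral, integral_conj, ← map_sub, Complex.norm_conj]
  · rw [abs_of_pos h]

theorem rescale' (a b y₀ N : ℝ) (hN : 0 < N) :
    √N * ‖∫ y in a..b, ee (N * (y - y₀) ^ 2 / 2)‖ =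
      ‖∫ u in (-(√N * (y₀ - a)))..(√N * (b - y₀)), ee (u ^ 2 / 2)‖ := by
  have hs : 0 < √N := Real.sqrt_pos.2 hN
  have e1 : ∀ t : ℝ, ee (N * (t - y₀) ^ 2 / 2) =
      (fun u : ℝ => ee (u ^ 2 / 2)) (√N * t + -(√N * y₀)) := by
    intro t
    simp only
    congr 1
    have : (√N * t + -(√N * y₀)) ^ 2 = √N ^ 2 * (t - y₀) ^ 2 := by ring
    rw [this, Real.sq_sqrt hN.le]
  simp only [e1]
  rw [intervalIntegral.integral_comp_mul_add (fun u : ℝ => ee (u ^ 2 / 2)) hs.ne', norm_smul,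
    Real.norm_eq_abs, abs_of_pos (inv_pos.2 hs), ← mul_assoc, mul_inv_cancel₀ hs.ne', one_mul]
  congr 2 <;> ring

end Fresnel

open Fresnel in
theorem fresnel_stmt : FresnelStmt := by
  intro ζ η hζ hη
  set δ : ℝ := min 1 (η / 3) with hδ
  have hδ0 : 0 < δ := lt_min one_pos (by positivity)
  have hδ1 : δ ≤ 1 := min_le_left _ _
  have hδ2 : δ ≤ η / 3 := min_le_right _ _
  refine ⟨(8 / (ζ * δ)) ^ 2, by positivity, fun α β ξ hβ h1 h2 => ?_⟩
  have hN : 0 < |β| := lt_of_lt_of_le (by positivity) hβ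
  have hs : 0 < √|β| := Real.sqrt_pos.2 hN
  have h3 : 8 / (ζ * δ) ≤ √|β| := Real.le_sqrt_of_sq_le hβ
  have h4 := trunc (√|β| * ζ) (√|β| * (ξ / β - α)) (√|β| * (1 - α - ξ / β)) (by positivity)
    (mul_le_mul_of_nonneg_left (by linarith) hs.le) (mul_le_mul_of_nonneg_left (by linarith) hs.le)
  have h5 : 8 / (√|β| * ζ) ≤ δ := by
    rw [div_le_iff₀ (by positivity)] at h3 ⊢
    nlinarith
  have h6 := (abs_norm_sub_norm_le _ _).trans (h4.trans h5)
  rw [norm_gam_eq, ← rescale' _ _ _ _ hN, ← norm_phiHat α β ξ (abs_pos.1 hN)] at h6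
  have e : |β| * ‖phiHat α β ξ‖ ^ 2 = (√|β| * ‖phiHat α β ξ‖) ^ 2 := by
    rw [mul_pow, Real.sq_sqrt hN.le]
  rw [e]
  generalize √|β| * ‖phiHat α β ξ‖ = w at h6
  obtain ⟨h7, h8⟩ := abs_le.1 h6
  rw [abs_le]
  constructor <;> nlinarith

end Crest.Agent.R81
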