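import Crest.Agent.R81.Defs

/-!
# Row 81, module GEst

The statement and the recipe are in `R81/Defs.lean` (`GEstStmt`).
-/

set_option autoImplicit false

open MeasureTheory Finset Crest.AnalysisR.Torus3 Crest.Agent.R75
open scoped InnerProductSpace ComplexConjugate ContDiff

namespace Crest.Agent.R81

namespace GEst

theorem inner_atom_ne (h1 : FibStmt) {α : ℝ} (h0 : 0 ≤ α) (h2 : α ≤ 1 / 2) {m m' : ℤ × ℤ}
    (hm : m ≠ m') (θ θ' : ℝ) : ⟪atom α m θ, atom α m' θ'⟫_ℂ = 0 := by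
  unfold atom
  rw [h1.inner_fib α m m' _ _ h0 h2 (by fun_prop) (by fun_prop), if_neg hm]

theorem norm_atom_le (h1 : FibStmt) {α : ℝ} (h0 : 0 ≤ α) (h2 : α ≤ 1 / 2) (m : ℤ × ℤ) (θ : ℝ) :
    ‖atom α m θ‖ ≤ 1 := by
  have h3 : ⟪atom α m θ, atom α m θ⟫_ℂ = ∫ y in α..(1 - α), conj (ee (θ * y)) * ee (θ * y) := by
    unfold atom
    rw [h1.inner_fib α m m _ _ h0 h2 (by fun_prop) (by fun_prop), if_pos rfl]
  have h4 : ‖⟪atom α m θ, atom α m θ⟫_ℂ‖ ≤ 1 * |1 - α - α| := by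
    rw [h3]
    exact intervalIntegral.norm_integral_le_of_norm_le_const fun y _ => by simp
  rw [inner_self_eq_norm_sq_to_K, abs_of_nonneg (by linarith)] at h4
  simp only [norm_pow, abs_norm, Complex.coe_algebraMap, Complex.norm_real,
    Real.norm_eq_abs] at h4
  nlinarith [norm_nonneg (atom α m θ)]

/-- Bessel-type bound for a combination of an orthogonal family of norm at most one. -/
theorem norm_sum_sq_le {ι : Type*} (s : Finset ι) (v : ι → L2) (a : ι → ℂ)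
    (ho : ∀ i ∈ s, ∀ j ∈ s, i ≠ j → ⟪v i, v j⟫_ℂ = 0) (hn : ∀ i ∈ s, ‖v i‖ ≤ 1) :
    ‖∑ i ∈ s, a i • v i‖ ^ 2 ≤ ∑ i ∈ s, ‖a i‖ ^ 2 := by
  classical
  induction s using Finset.induction_on with
  | empty => simp
  | insert i s hi ih =>
    rw [sum_insert hi, sum_insert hi]
    have h0 : ⟪a i • v i, ∑ j ∈ s, a j • v j⟫_ℂ = 0 := by
      rw [inner_sum]
      refine sum_eq_zero fun j hj => ?_
      rw [inner_smul_left, inner_smul_right, ho i (mem_insert_self _ _) j (mem_insert_of_mem hj)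
        (fun h => hi (h ▸ hj))]
      simp
    rw [sq, norm_add_sq_eq_norm_sq_add_norm_sq_of_inner_eq_zero _ _ h0, ← sq, ← sq]
    refine add_le_add ?_ (ih (fun j hj k hk => ho j (mem_insert_of_mem hj) k (mem_insert_of_mem hk))
      fun j hj => hn j (mem_insert_of_mem hj))
    rw [norm_smul]
    have := hn i (mem_insert_self _ _)
    gcongr
    exact mul_le_of_le_one_right (norm_nonneg _) this

end GEst

open GEst in
theorem gEst_of (h1 : FibStmt) (h2 : SpecStmt) : GEstStmt := by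
  classical
  intro M M' h A D w e₁ e₂ hM hM' hD hA he₁ he₂ hat hc
  have hα0 := hM'.α_pos.le
  have hα1 : M'.α ≤ 1 / 2 := by linarith [hM'.α_lt]
  set a' : ℤ × ℤ → L2 := fun m => atom M'.α m (M'.θ m) with ha'
  set e := e₁ * ∑ m ∈ M.G, ‖M.c m‖ + e₂ with he
  set g₁ : L2 := ∑ p ∈ A, M'.c (D p) • a' (D p) with hg₁
  set u : L2 := ∑ p ∈ A, (M.c p.1 * w p) • a' (D p) with hu
  have he0 : 0 ≤ e := by positivity
  -- `u` is close to `kp h g`
  have k1 : ‖kp h M.g - u‖ ≤ e₁ * ∑ m ∈ M.G, ‖M.c m‖ := by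
    have e1 : kp h M.g - u = ∑ m ∈ M.G, M.c m • (kp h (atom M.α m (M.θ m)) -
        ∑ p ∈ A.filter (fun p => p.1 = m), w p • a' (D p)) := by
      simp only [smul_sub, sum_sub_distrib, Model.g, map_sum, map_smul]
      congr 1
      rw [hu, ← sum_fiberwise_of_maps_to (s := A) (t := M.G) (g := fun p => p.1)
        fun p hp => (hA p hp).1]
      refine sum_congr rfl fun m _ => ?_
      rw [smul_sum]
      refine sum_congr rfl fun p hp => ?_
      rw [(mem_filter.mp hp).2, mul_smul]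
    rw [e1, mul_sum]
    refine (norm_sum_le _ _).trans (sum_le_sum fun m hm => ?_)
    rw [norm_smul, mul_comm]
    exact mul_le_mul_of_nonneg_right (hat m hm) (norm_nonneg _)
  -- `u` is close to `g₁`
  have k2 : ‖g₁ - u‖ ≤ e₂ := by
    have e1 : g₁ - u = ∑ p ∈ A, (M'.c (D p) - M.c p.1 * w p) • a' (D p) := by
      simp only [sub_smul, sum_sub_distrib, hg₁, hu]
    rw [e1]
    refine (pow_le_pow_iff_left₀ (norm_nonneg _) he₂ two_ne_zero).mp ?_
    refine (norm_sum_sq_le A (fun p => a' (D p)) _ (fun p hp q hq hpq => ?_)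
      fun p _ => norm_atom_le h1 hα0 hα1 _ _).trans hc
    exact inner_atom_ne h1 hα0 hα1 (fun h => hpq (hD hp hq h)) _ _
  have k3 : ‖g₁ - kp h M.g‖ ≤ e := by
    have : g₁ - kp h M.g = (g₁ - u) - (kp h M.g - u) := by abel
    rw [this]
    exact (norm_sub_le _ _).trans (by linarith)
  -- orthogonal decomposition of `g'`
  have hsub : A.image D ⊆ M'.G := fun m hm => by
    obtain ⟨p, hp, rfl⟩ := mem_image.mp hm
    exact (hA p hp).2
  have k4 : M'.g - g₁ = ∑ m ∈ M'.G \ A.image D, M'.c m • a' m := by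
    rw [sub_eq_iff_eq_add, hg₁, ← sum_image (s := A) (g := D) (f := fun m => M'.c m • a' m) hD,
      sum_sdiff hsub]
    rfl
  have k5 : ⟪g₁, M'.g - g₁⟫_ℂ = 0 := by
    rw [k4, hg₁, sum_inner]
    refine sum_eq_zero fun p hp => ?_
    rw [inner_sum]
    refine sum_eq_zero fun m hm => ?_
    have hne : D p ≠ m := fun h => (mem_sdiff.mp hm).2 (h ▸ mem_image_of_mem D hp)
    rw [inner_smul_left, inner_smul_right, inner_atom_ne h1 hα0 hα1 hne]
    simp
  have k6 : ‖M'.g‖ ^ 2 = ‖g₁‖ ^ 2 + ‖M'.g - g₁‖ ^ 2 := by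
    have := norm_add_sq_eq_norm_sq_add_norm_sq_of_inner_eq_zero _ _ k5
    rw [add_sub_cancel] at this
    simp only [sq]
    exact this
  have k7 : ‖kp h M.g‖ ^ 2 = 1 - M.d := by rw [LinearIsometry.norm_map, h2.norm_g M hM]
  have hd := h2.d_nonneg M hM
  have hd' := h2.d_nonneg M' hM'
  rw [h2.norm_g M' hM'] at k6
  have k8 : ‖kp h M.g‖ ≤ 1 := by nlinarith [norm_nonneg (kp h M.g)]
  have k9 : ‖g₁‖ ≤ 1 := by nlinarith [norm_nonneg g₁, sq_nonneg ‖M'.g - g₁‖]
  have k10 : ‖kp h M.g‖ - ‖g₁‖ ≤ e := by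
    have := norm_sub_norm_le (kp h M.g) g₁
    rw [norm_sub_rev] at this
    linarith
  have k11 : ‖M'.g - g₁‖ ^ 2 ≤ M.d + 2 * e := by
    nlinarith [norm_nonneg g₁, norm_nonneg (kp h M.g)]
  have k12 : ‖M'.g - g₁‖ ≤ √M.d + √(2 * e) := by
    refine (pow_le_pow_iff_left₀ (norm_nonneg _) (by positivity) two_ne_zero).mp (k11.trans ?_)
    nlinarith [Real.sq_sqrt hd, Real.sq_sqrt (by positivity : 0 ≤ 2 * e), Real.sqrt_nonneg M.d,
      Real.sqrt_nonneg (2 * e)]
  have : M'.g - kp h M.g = (M'.g - g₁) + (g₁ - kp h M.g) := by abel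
  rw [this]
  exact (norm_add_le _ _).trans (by linarith)

end Crest.Agent.R81
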