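import Crest.Agent.R81.Defs
import Crest.Agent.R75.Perfect

/-!
# Row 81, module Gadget

The statement and the recipe are in `R81/Defs.lean` (`GadgetStmt`).
-/

set_option autoImplicit false

open MeasureTheory Finset Crest.AnalysisR.Torus3 Crest.Agent.R75
open scoped InnerProductSpace ComplexConjugate ContDiff

namespace Crest.Agent.R81

namespace GadgetAux

/-- the sum of a periodic function over a period does not depend on the period -/
theorem zsum_shift {E : Type*} [AddCommGroup E] {f : ℤ → E} {q : ℕ} (hf : ∀ x, f (x + q) = f x)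
    (a : ℤ) : ∑ x ∈ range q, f (a + x) = ∑ x ∈ range q, f x := by
  have step : ∀ a : ℤ, ∑ x ∈ range q, f (a + 1 + x) = ∑ x ∈ range q, f (a + x) := by
    intro a
    have h1 := Finset.sum_range_succ (fun x : ℕ => f (a + x)) q
    have h2 := Finset.sum_range_succ' (fun x : ℕ => f (a + x)) q
    have h3 : f (a + q) = f (a + (0 : ℕ)) := by rw [hf]; simp
    have h4 : ∑ x ∈ range q, f (a + 1 + x) = ∑ x ∈ range q, f (a + (x + 1 : ℕ)) :=
      Finset.sum_congr rfl fun x _ => by congr 1; push_cast; ring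
    rw [h4]
    rw [h1, h3] at h2
    exact (add_right_cancel h2).symm
  induction a using Int.induction_on with
  | zero => simp
  | succ n ih => rw [step, ih]
  | pred n ih =>
    have := step (-(n : ℤ) - 1)
    rw [sub_add_cancel] at this
    rw [← this, ih]

theorem sum_Ico_eq {E : Type*} [AddCommMonoid E] (g : ℤ → E) (a : ℤ) (m : ℕ) :
    ∑ ν ∈ Ico a (a + m), g ν = ∑ i ∈ range m, g (a + i) := by
  symm
  refine Finset.sum_nbij' (fun i : ℕ => a + i) (fun ν => (ν - a).toNat) ?_ ?_ ?_ ?_ ?_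
  · intro i hi
    simp only [mem_range] at hi
    simp only [mem_Ico]; omega
  · intro ν hν
    simp only [mem_Ico] at hν
    simp only [mem_range]; omega
  · intro i _; simp
  · intro ν hν
    simp only [mem_Ico] at hν
    omega
  · intro i _; rfl

theorem zsum_neg {E : Type*} [AddCommGroup E] {f : ℤ → E} {q : ℕ} (hf : ∀ x, f (x + q) = f x) :
    ∑ x ∈ range q, f (-x) = ∑ x ∈ range q, f x := by
  rw [← zsum_shift hf (1 - q), ← Finset.sum_range_reflect]
  refine Finset.sum_congr rfl fun x hx => ?_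
  simp only [mem_range] at hx
  congr 1
  omega

theorem dft_add {M : ℕ} (hM : 0 < M) (ψ : ℤ → ℝ) (k n t : ℤ) :
    dft M ψ k (n + t * M) = dft M ψ k n := by
  have hM' : (M : ℝ) ≠ 0 := by positivity
  unfold dft
  congr 1
  refine Finset.sum_congr rfl fun J _ => ?_
  rw [← ee_add_intCast (k * ψ J - n * J / M) (-(t * J))]
  congr 1
  push_cast
  field_simp
  ring

/-- a short period forces divisibility -/
theorem dvd_of_dft_ne {M M' r : ℕ} (hM : 0 < M) (hr : M = r * M') {ψ : ℤ → ℝ}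
    (hper : ∀ J : ℤ, ψ (J + M) = ψ J) {k n : ℤ}
    (hs : ∀ J : ℤ, ee (k * ψ (J + M')) = ee (k * ψ J)) (h : dft M ψ k n ≠ 0) : (r : ℤ) ∣ n := by
  have hM' : (M : ℝ) ≠ 0 := by positivity
  have hr0 : 0 < r := Nat.pos_of_mul_pos_right (hr ▸ hM)
  have hM0 : 0 < M' := Nat.pos_of_mul_pos_left (hr ▸ hM)
  have hr' : (r : ℝ) ≠ 0 := by positivity
  have hM0' : (M' : ℝ) ≠ 0 := by positivity
  have hMr : (M : ℝ) = r * M' := by exact_mod_cast hr
  set g : ℤ → ℂ := fun J => ee (k * ψ J - n * J / M) with hg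
  have g1 : ∀ J, g (J + M) = g J := by
    intro J
    simp only [hg, hper]
    rw [← ee_add_intCast (k * ψ J - n * J / M) (-n)]
    congr 1
    push_cast
    field_simp
    ring
  have g2 : ∀ J : ℤ, g (M' + J) = g J * ee (-(n / r)) := by
    intro J
    simp only [hg]
    rw [add_comm (M' : ℤ) J, sub_eq_add_neg, ee_add, hs, ← ee_add, ← ee_add]
    congr 1
    push_cast
    rw [hMr]
    field_simp
    ring
  have h2 := zsum_shift g1 M'
  simp only [g2] at h2
  rw [← Finset.sum_mul] at h2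
  have h3 : ∑ J ∈ range M, g J ≠ 0 := by
    intro h0
    apply h
    unfold dft
    have : ∑ J ∈ range M, ee (k * ψ J - n * J / M) = ∑ J ∈ range M, g J :=
      Finset.sum_congr rfl fun J _ => by simp only [hg, Int.cast_natCast]
    rw [this, h0, mul_zero]
  have h4 : ee (-(n / r)) = 1 := by
    have : (∑ J ∈ range M, g J) * ee (-(n / r)) = (∑ J ∈ range M, g J) * 1 := by
      rw [h2, mul_one]
    exact mul_left_cancel₀ h3 this
  obtain ⟨t, ht⟩ := (ee_eq_one_iff _).1 h4
  refine ⟨-t, ?_⟩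
  have : (n : ℝ) = r * -t := by field_simp at ht; linarith
  exact_mod_cast this

/-- Parseval on `ℤ/M` -/
theorem parseval {M : ℕ} (hM : 0 < M) (ψ : ℤ → ℝ) (k : ℤ) :
    ∑ n ∈ range M, ‖dft M ψ k n‖ ^ 2 = 1 := by
  have hM' : (M : ℝ) ≠ 0 := by positivity
  have hMc : (M : ℂ) ≠ 0 := by exact_mod_cast hM.ne'
  apply Complex.ofReal_injective
  have h1 : ∀ n : ℕ, ((‖dft M ψ k n‖ ^ 2 : ℝ) : ℂ) = (1 / (M : ℂ)) ^ 2 *
      ∑ J ∈ range M, ∑ J' ∈ range M,
        ee (k * ψ J - k * ψ J') * ee ((((J' : ℤ) - J : ℤ) : ℝ) * n / M) := by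
    intro n
    rw [← Complex.normSq_eq_norm_sq, ← Complex.mul_conj]
    unfold dft
    rw [map_mul, map_sum, mul_mul_mul_comm, Finset.sum_mul_sum]
    congr 1
    · simp [sq]
    · refine Finset.sum_congr rfl fun J _ => Finset.sum_congr rfl fun J' _ => ?_
      rw [← ee_sub, ← ee_add]
      congr 1
      push_cast
      ring
  push_cast [Complex.ofReal_sum] at h1 ⊢
  simp only [h1]
  rw [← Finset.mul_sum, Finset.sum_comm]
  have h2 : ∀ J ∈ range M, ∑ n ∈ range M, ∑ J' ∈ range M,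
      ee (k * ψ J - k * ψ J') * ee (((J' : ℝ) - J) * n / M) = M := by
    intro J hJ
    rw [Finset.sum_comm]
    have h3 : ∀ J' ∈ range M, ∑ n ∈ range M,
        ee (k * ψ J - k * ψ J') * ee (((J' : ℝ) - J) * n / M) = if J' = J then (M : ℂ) else 0 := by
      intro J' hJ'
      rw [← Finset.mul_sum]
      have h4 := sum_ee_div M hM ((J' : ℤ) - J)
      push_cast at h4
      rw [h4]
      simp only [mem_range] at hJ hJ'
      by_cases e : J' = J
      · subst e; simp
      · have : ¬ (M : ℤ) ∣ (J' : ℤ) - J := by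
          intro hd
          have := Int.eq_zero_of_abs_lt_dvd hd (by rw [abs_lt]; constructor <;> omega)
          omega
        rw [if_neg this, if_neg e, mul_zero]
    rw [Finset.sum_congr rfl h3]
    simp [hJ]
  rw [Finset.sum_congr rfl h2]
  simp only [sum_const, card_range, nsmul_eq_mul]
  field_simp

theorem sum_multiples {κ m : ℕ} (hκ : 0 < κ) (h : ℤ → ℝ) (h0 : ∀ n : ℤ, h n ≠ 0 → (κ : ℤ) ∣ n) :
    ∑ i ∈ range m, h (κ * i) = ∑ n ∈ range (κ * m), h n := by
  refine Finset.sum_of_injOn (fun i => κ * i) ?_ ?_ ?_ ?_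
  · intro i _ j _ e
    exact Nat.eq_of_mul_eq_mul_left hκ e
  · intro i hi
    simp only [coe_range, Set.mem_Iio] at hi ⊢
    exact Nat.mul_lt_mul_of_pos_left hi hκ
  · intro n hn hn'
    by_contra hne
    apply hn'
    obtain ⟨i, hi⟩ : κ ∣ n := by exact_mod_cast h0 n hne
    refine ⟨i, ?_, hi.symm⟩
    simp only [mem_range] at hn
    simp only [coe_range, Set.mem_Iio]
    rw [hi] at hn
    exact Nat.lt_of_mul_lt_mul_left hn
  · intro i _
    push_cast; rfl

theorem gadget_of_pre {K : ℕ} {D : Finset ℤ} {η : ℝ} {ℓ₀ M : ℕ} {ψ : ℤ → ℝ} {L : ℤ → ℕ}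
    (h : PreGadget K D η ℓ₀ M ψ L) : Gadget K D η ℓ₀ M ψ L where
  M_pos := h.M_pos
  per := h.per
  L_dvd := h.L_dvd
  L_big := h.L_big
  k_dvd := by
    intro k hk hK
    obtain ⟨M', hM', -⟩ := h.short k hk hK
    rw [← Int.natAbs_dvd, Int.natCast_dvd_natCast]
    exact ⟨L k * M', by rw [hM', mul_assoc]⟩
  vanish := by
    intro k hk hK ν hν
    obtain ⟨M', hM', hs⟩ := h.short k hk hK
    have h1 := dvd_of_dft_ne h.M_pos hM' h.per hs hν
    push_cast at h1
    have h2 : |k| * (L k : ℤ) ∣ |k| * ν := by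
      rcases abs_choice k with e | e
      · rwa [e] at h1 ⊢
      · rw [e] at h1 ⊢
        rw [neg_mul k ν, dvd_neg]; exact h1
    exact Int.dvd_of_mul_dvd_mul_left (abs_ne_zero.2 hk) h2
  mass := by
    intro k hk hK a
    obtain ⟨M', hM', hs⟩ := h.short k hk hK
    have hκ : 0 < k.natAbs := Int.natAbs_pos.2 hk
    set m : ℕ := L k * M' with hm
    have hM : M = k.natAbs * m := by rw [hM', mul_assoc]
    have hMz : (M : ℤ) = |k| * m := by rw [hM]; push_cast; rfl
    have e1 : (M : ℤ) / |k| = m := by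
      rw [hMz]; exact Int.mul_ediv_cancel_left _ (abs_ne_zero.2 hk)
    have p1 : ∀ x : ℤ, ‖dft M ψ k (|k| * (x + m))‖ ^ 2 = ‖dft M ψ k (|k| * x)‖ ^ 2 := by
      intro x
      rw [← dft_add h.M_pos ψ k (|k| * x) 1, hMz]
      congr 3; ring
    have p2 : ∀ x : ℤ, ‖dft M ψ k (k * (x + m))‖ ^ 2 = ‖dft M ψ k (k * x)‖ ^ 2 := by
      intro x
      rcases abs_choice k with e | e
      · rw [← dft_add h.M_pos ψ k (k * x) 1, hMz, e]
        congr 3; ring
      · rw [← dft_add h.M_pos ψ k (k * x) (-1), hMz, e]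
        congr 3; ring
    have e2 : ∑ i ∈ range m, ‖dft M ψ k (|k| * i)‖ ^ 2 = 1 := by
      have h1 := sum_multiples (m := m) hκ (fun n => ‖dft M ψ k n‖ ^ 2) (by
        intro n hn
        have h2 : dft M ψ k n ≠ 0 := by
          intro h0; apply hn; simp [h0]
        have h3 := dvd_of_dft_ne h.M_pos hM' h.per hs h2
        refine Dvd.dvd.trans ?_ h3
        push_cast
        exact Dvd.intro _ rfl)
      rw [← hM, parseval h.M_pos] at h1
      push_cast at h1
      exact h1
    rw [e1, sum_Ico_eq, zsum_shift (f := fun x => ‖dft M ψ k (k * x)‖ ^ 2) p2 a, ← e2]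
    rcases abs_choice k with e | e
    · rw [e]
    · rw [← zsum_neg (f := fun x => ‖dft M ψ k (|k| * x)‖ ^ 2) p1]
      refine Finset.sum_congr rfl fun i _ => ?_
      rw [e]; congr 3; ring
  flat := h.flat

/-- the Chu sequence -/
noncomputable def chu (M : ℕ) (J : ℤ) : ℝ := ((J % M : ℤ) : ℝ) ^ 2 / (2 * M)

theorem ee_chu {M N : ℕ} (hN : 0 < N) (hM : M = 2 * N) (k J : ℤ) :
    ee (k * chu M J) = ee (k * ((J : ℝ) ^ 2 / (2 * M))) := by
  have hN' : (N : ℝ) ≠ 0 := by positivity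
  have hMr : (M : ℝ) = 2 * N := by exact_mod_cast hM
  have hJ : (J : ℝ) = M * (J / M : ℤ) + (J % M : ℤ) := by
    exact_mod_cast (Int.mul_ediv_add_emod J M).symm
  rw [chu]
  generalize J / M = q at hJ
  generalize J % M = r at hJ
  rw [← ee_add_intCast _ (k * (q * r + N * q ^ 2)), hJ]
  congr 1
  push_cast
  rw [hMr]
  field_simp
  ring

theorem chu_flat {M M' N : ℕ} (hN : 0 < N) (hM : M = 2 * N) {k : ℤ} (hk : k ≠ 0)
    (hM' : M = k.natAbs * M') (n : ℤ) : ‖dft M (chu M) k n‖ ^ 2 ≤ |(k : ℝ)| / M := by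
  have hM0 : 0 < M := by omega
  have hMr0 : (0 : ℝ) < M := by exact_mod_cast hM0
  have hN' : (N : ℝ) ≠ 0 := by positivity
  have hMr : (M : ℝ) = 2 * N := by exact_mod_cast hM
  have hM'0 : 0 < M' := Nat.pos_of_mul_pos_left (hM' ▸ hM0)
  set g : ℤ → ℂ := fun J => ee (k * ((J : ℝ) ^ 2 / (2 * M)) - n * J / M) with hg
  have g1 : ∀ J, g (J + M) = g J := by
    intro J
    simp only [hg]
    rw [← ee_add_intCast (k * ((J : ℝ) ^ 2 / (2 * M)) - n * J / M) (k * (J + N) - n)]
    congr 1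
    push_cast
    rw [hMr]
    field_simp
    ring
  set S := ∑ J ∈ range M, g J with hS
  have e0 : dft M (chu M) k n = (1 / (M : ℂ)) * S := by
    unfold dft
    congr 1
    refine Finset.sum_congr rfl fun J _ => ?_
    simp only [hg, Int.cast_natCast]
    rw [ee_sub, ee_sub, ee_chu hN hM, Int.cast_natCast]
  have h1 : S * (starRingEnd ℂ) S =
      ∑ h ∈ range M, g h * (if (M : ℤ) ∣ k * h then (M : ℂ) else 0) := by
    have h2 : S * (starRingEnd ℂ) S =
        ∑ J ∈ range M, ∑ h ∈ range M, g (J + h) * (starRingEnd ℂ) (g J) := by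
      rw [hS, map_sum, Finset.mul_sum]
      refine Finset.sum_congr rfl fun J _ => ?_
      rw [← Finset.sum_mul, zsum_shift g1]
    rw [h2, Finset.sum_comm]
    refine Finset.sum_congr rfl fun h _ => ?_
    rw [← sum_ee_div M hM0 (k * h), Finset.mul_sum]
    refine Finset.sum_congr rfl fun J _ => ?_
    simp only [hg]
    rw [← ee_sub, ← ee_add]
    congr 1
    push_cast
    field_simp
    ring
  have h3 : ‖S‖ ^ 2 = ‖S * (starRingEnd ℂ) S‖ := by
    rw [norm_mul, Complex.norm_conj, sq]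
  have h4 : ‖S‖ ^ 2 ≤ (k.natAbs : ℝ) * M := by
    rw [h3, h1]
    calc ‖∑ h ∈ range M, g h * (if (M : ℤ) ∣ k * h then (M : ℂ) else 0)‖
        ≤ ∑ h ∈ range M, ‖g h * (if (M : ℤ) ∣ k * h then (M : ℂ) else 0)‖ := norm_sum_le _ _
      _ ≤ ∑ h ∈ range M, (if M' ∣ h then (M : ℝ) else 0) := by
          refine Finset.sum_le_sum fun h _ => ?_
          simp only [hg]
          rw [norm_mul, norm_ee, one_mul]
          by_cases hdiv : (M : ℤ) ∣ k * h
          · have h5 : M ∣ k.natAbs * h := by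
              have := Int.natAbs_dvd_natAbs.2 hdiv
              simpa [Int.natAbs_mul] using this
            have h6 : M' ∣ h := by
              rw [hM'] at h5
              exact Nat.dvd_of_mul_dvd_mul_left (Int.natAbs_pos.2 hk) h5
            rw [if_pos hdiv, if_pos h6]
            simp
          · rw [if_neg hdiv, norm_zero]
            split_ifs <;> positivity
      _ = ((range M).filter fun h => M' ∣ h).card * (M : ℝ) := by
          rw [← Finset.sum_filter]; simp
      _ ≤ (k.natAbs : ℝ) * M := by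
          refine mul_le_mul_of_nonneg_right ?_ (by positivity)
          have h9 := PerfectAux.card_filter_dvd_le M' k.natAbs hM'0
          rw [← hM'] at h9
          exact_mod_cast h9
  have h5 : (k.natAbs : ℝ) = |(k : ℝ)| := by
    rw [Nat.cast_natAbs]; push_cast; rfl
  rw [e0, norm_mul, mul_pow, ← h5]
  have h6 : ‖(1 / (M : ℂ))‖ = 1 / M := by simp
  rw [h6]
  calc (1 / (M : ℝ)) ^ 2 * ‖S‖ ^ 2 ≤ (1 / (M : ℝ)) ^ 2 * ((k.natAbs : ℝ) * M) :=
        mul_le_mul_of_nonneg_left h4 (by positivity)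
    _ = (k.natAbs : ℝ) / M := by field_simp

theorem base (K : ℕ) {η : ℝ} (hη : 0 ≤ η) (ℓ₀ : ℕ) :
    PreGadget K ∅ η ℓ₀ (2 * K.factorial) (chu (2 * K.factorial)) (fun _ => 1) := by
  have hN : 0 < K.factorial := Nat.factorial_pos K
  have hdvd : ∀ k : ℤ, k ≠ 0 → |k| ≤ K → ∃ m : ℕ, K.factorial = k.natAbs * m := by
    intro k hk hK
    refine Nat.dvd_factorial (Int.natAbs_pos.2 hk) ?_
    have : ((k.natAbs : ℕ) : ℤ) ≤ K := by rwa [Int.natCast_natAbs]
    exact_mod_cast this
  refine ⟨by omega, ?_, fun _ => one_pos, fun _ _ => dvd_rfl, ?_, ?_, ?_⟩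
  · intro J
    simp only [chu, Int.add_emod_right]
  · rintro k ⟨d, hd, -⟩
    simp at hd
  · intro k hk hK
    obtain ⟨m, hm⟩ := hdvd k hk hK
    refine ⟨2 * m, by rw [hm]; ring, fun J => ?_⟩
    rw [ee_chu hN rfl, ee_chu hN rfl]
    have hm0 : 0 < m := Nat.pos_of_mul_pos_left (hm ▸ hN)
    have hm' : (m : ℝ) ≠ 0 := by positivity
    have hk' : (k : ℝ) ≠ 0 := by exact_mod_cast hk
    have h1 : ((K.factorial : ℕ) : ℝ) = |(k : ℝ)| * m := by
      rw [hm, Nat.cast_mul, Nat.cast_natAbs]; push_cast; rfl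
    rcases abs_choice (k : ℝ) with e | e
    · rw [← ee_add_intCast (k * ((J : ℝ) ^ 2 / (2 * (2 * K.factorial : ℕ)))) (J + m)]
      congr 1
      push_cast
      rw [h1, e]
      field_simp
      ring
    · rw [← ee_add_intCast (k * ((J : ℝ) ^ 2 / (2 * (2 * K.factorial : ℕ)))) (-(J + m))]
      congr 1
      push_cast
      rw [h1, e]
      field_simp
      ring
  · intro k hk hK _ n
    obtain ⟨m, hm⟩ := hdvd k hk hK
    refine (chu_flat (M' := 2 * m) hN rfl hk (by rw [hm]; ring) n).trans ?_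
    refine div_le_div_of_nonneg_right ?_ (by positivity)
    nlinarith [abs_nonneg (k : ℝ)]

theorem exists_pre (h1 : GadgetCharStmt) (K ℓ₀ : ℕ) (D : Finset ℤ) : 0 ∉ D → ∀ η : ℝ, 0 < η →
    ∃ (M : ℕ) (ψ : ℤ → ℝ) (L : ℤ → ℕ), PreGadget K D η ℓ₀ M ψ L := by
  induction D using Finset.induction_on with
  | empty => exact fun _ η hη => ⟨_, _, _, base K hη.le ℓ₀⟩
  | insert d D _ ih =>
    intro h0 η hη
    simp only [mem_insert, not_or] at h0
    obtain ⟨M, ψ, L, h⟩ := ih h0.2 (η / 2) (by positivity)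
    exact h1 K D (η / 2) η ℓ₀ M ψ L d h (fun e => h0.1 e.symm) (by positivity) (by linarith)

end GadgetAux

theorem gadget_of (h1 : GadgetCharStmt) : GadgetStmt := by
  intro K D η ℓ₀ h0 hη
  obtain ⟨M, ψ, L, h⟩ := GadgetAux.exists_pre h1 K ℓ₀ D h0 η hη
  exact ⟨M, ψ, L, GadgetAux.gadget_of_pre h⟩

end Crest.Agent.R81
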