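import Crest.Agent.R81.Defs
import Crest.Agent.R75.Perfect

/-!
# Row 81, module GadgetChar

The statement and the recipe are in `R81/Defs.lean` (`GadgetCharStmt`).
-/

set_option autoImplicit false

open MeasureTheory Finset Crest.AnalysisR.Torus3 Crest.Agent.R75
open scoped InnerProductSpace ComplexConjugate ContDiff

namespace Crest.Agent.R81

namespace GadgetChar

theorem norm_gaussSum_le {ℓ : ℕ} [Fact ℓ.Prime] {χ : MulChar (ZMod ℓ) ℂ} (hχ : χ ≠ 1)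
    (ψ : AddChar (ZMod ℓ) ℂ) : ‖gaussSum χ ψ‖ ≤ Real.sqrt ℓ := by
  by_cases hψ : ψ = 1
  · subst hψ
    have : gaussSum χ 1 = 0 := by
      simpa [gaussSum] using MulChar.sum_eq_zero_of_ne_one hχ
    rw [this, norm_zero]; positivity
  · have h := gaussSum_mul_gaussSum_eq_card hχ (AddChar.IsPrimitive.of_ne_one hψ)
    rw [← star_gaussSum_eq, ZMod.card] at h
    have h2 : ‖gaussSum χ ψ‖ ^ 2 = ℓ := by
      have := congrArg norm h
      rw [norm_mul, norm_star, Complex.norm_natCast] at this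
      rw [sq, this]
    exact Real.le_sqrt_of_sq_le h2.le

theorem ee_int_mul (k : ℤ) (x : ℝ) : ee (k * x) = ee x ^ k := by
  rw [ee, ee, ← Complex.exp_int_mul]
  congr 1; push_cast; ring

theorem sum_range_zmod {ℓ : ℕ} [NeZero ℓ] (f : ZMod ℓ → ℂ) :
    ∑ J ∈ range ℓ, f (J : ZMod ℓ) = ∑ a : ZMod ℓ, f a := by
  refine Finset.sum_bij (fun J _ => (J : ZMod ℓ)) (fun _ _ => mem_univ _) ?_ ?_ (fun _ _ => rfl)
  · intro x hx y hy e
    exact Nat.ModEq.eq_of_lt_of_lt ((ZMod.natCast_eq_natCast_iff _ _ _).1 e) (mem_range.1 hx)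
      (mem_range.1 hy)
  · intro a _
    exact ⟨a.val, mem_range.2 (ZMod.val_lt a), ZMod.natCast_zmod_val a⟩

/-- the phase function attached to a character of order `e`. -/
theorem exists_phase {ℓ e : ℕ} (hℓ : ℓ.Prime) (he : 0 < e) (h : ℓ ≡ 1 [MOD e]) :
    ∃ φ : ℤ → ℤ, (∀ J, φ (J + ℓ) = φ J) ∧ ∀ k : ℤ, ¬ (e : ℤ) ∣ k → ∀ n : ℤ,
      ‖∑ J ∈ range ℓ, ee (k * (φ J / e) - n * J / ℓ)‖ ≤ Real.sqrt ℓ + 1 := by
  classical
  have : Fact ℓ.Prime := ⟨hℓ⟩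
  have : NeZero e := ⟨he.ne'⟩
  have hζ := Complex.isPrimitiveRoot_exp e he.ne'
  obtain ⟨χ, hχ⟩ := MulChar.exists_mulChar_orderOf (ZMod ℓ) (R := ℂ) (n := e)
    (by rw [ZMod.card]; exact (Nat.modEq_iff_dvd' hℓ.one_le).1 h.symm) hζ
  have hex : ∀ a : ZMod ℓ, ∃ i : ℕ, a ≠ 0 → χ a = ee (i / e) := by
    intro a
    by_cases ha : a = 0
    · exact ⟨0, fun h => absurd ha h⟩
    · have h1 : χ a ^ e = 1 := by
        rw [← MulChar.pow_apply' χ he.ne', ← hχ, pow_orderOf_eq_one]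
        exact MulChar.one_apply (Ne.isUnit ha)
      obtain ⟨i, -, hi⟩ := hζ.eq_pow_of_pow_eq_one h1
      refine ⟨i, fun _ => ?_⟩
      rw [← hi, ← Complex.exp_nat_mul, ee]
      congr 1; push_cast; ring
  choose i hi using hex
  refine ⟨fun J => (i (J : ZMod ℓ) : ℤ), fun J => by simp, fun k hk n => ?_⟩
  have hχk : χ ^ k ≠ 1 := by
    intro h1
    apply hk
    rw [← hχ]
    exact orderOf_dvd_iff_zpow_eq_one.2 h1
  set ψ : AddChar (ZMod ℓ) ℂ := (ZMod.stdAddChar (N := ℓ)).mulShift ((-n : ℤ) : ZMod ℓ) with hψ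
  have hψJ : ∀ J : ℕ, ψ (J : ZMod ℓ) = ee (-(n * J / ℓ)) := by
    intro J
    have : ((-n : ℤ) : ZMod ℓ) * (J : ZMod ℓ) = ((-n * J : ℤ) : ZMod ℓ) := by push_cast; ring
    rw [hψ, AddChar.mulShift_apply, this, ZMod.stdAddChar_coe, ee]
    congr 1; push_cast; ring
  have h1 : ∑ J ∈ range ℓ, ee (k * ((((i ((J : ℤ) : ZMod ℓ) : ℕ) : ℤ) : ℝ) / e) - n * J / ℓ) =
      ∑ a : ZMod ℓ, ee (k * (i a / e)) * ψ a := by
    rw [← sum_range_zmod]
    refine Finset.sum_congr rfl fun J _ => ?_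
    rw [hψJ, ← ee_add]
    congr 1
    simp [sub_eq_add_neg]
  have h2 : ∑ a : ZMod ℓ, ee (k * (i a / e)) * ψ a =
      gaussSum (χ ^ k) ψ + ee (k * (i 0 / e)) := by
    rw [gaussSum, ← Finset.add_sum_erase _ _ (mem_univ (0 : ZMod ℓ)),
      ← Finset.add_sum_erase _ _ (mem_univ (0 : ZMod ℓ)), MulChar.map_zero, zero_mul, zero_add,
      AddChar.map_zero_eq_one, mul_one, add_comm]
    congr 1
    refine Finset.sum_congr rfl fun a ha => ?_
    have ha0 : a ≠ 0 := (mem_erase.1 ha).1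
    congr 1
    have h3 := MulChar.zpow_apply_coe χ k (Units.mk0 a ha0)
    rw [Units.val_mk0] at h3
    rw [h3, ee_int_mul, ← hi a ha0, Units.val_zpow_eq_zpow_val, Units.val_mk0]
    exact (map_zpow₀ χ.toMonoidWithZeroHom a k).symm
  rw [h1, h2]
  refine (norm_add_le _ _).trans ?_
  rw [norm_ee]
  linarith [norm_gaussSum_le hχk ψ]

theorem exists_prime (e M ℓ₀ : ℕ) (he : 0 < e) {η η' : ℝ} (h0 : 0 ≤ η) (h : η < η') :
    ∃ ℓ : ℕ, ℓ.Prime ∧ M < ℓ ∧ ℓ₀ ≤ ℓ ∧ ℓ ≡ 1 [MOD e] ∧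
      (1 + η) * (Real.sqrt ℓ + 1) ^ 2 ≤ (1 + η') * ℓ := by
  set δ : ℝ := (η' - η) / (1 + η) with hδ
  have hδ0 : 0 < δ := div_pos (by linarith) (by linarith)
  obtain ⟨N, hN⟩ := exists_nat_ge ((3 / δ) ^ 2)
  obtain ⟨ℓ, hp, hgt, hmod⟩ := Nat.exists_prime_gt_modEq_one (M + ℓ₀ + N) he.ne'
  refine ⟨ℓ, hp, by omega, by omega, hmod, ?_⟩
  have hℓ1 : (1 : ℝ) ≤ ℓ := by exact_mod_cast hp.one_le
  have hs : Real.sqrt ℓ ^ 2 = ℓ := Real.sq_sqrt (by linarith)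
  have hs1 : 1 ≤ Real.sqrt ℓ := Real.one_le_sqrt.2 hℓ1
  have hNl : (N : ℝ) ≤ ℓ := by exact_mod_cast (by omega : N ≤ ℓ)
  have hs2 : 3 / δ ≤ Real.sqrt ℓ := Real.le_sqrt_of_sq_le (hN.trans hNl)
  have hs3 : 3 ≤ δ * Real.sqrt ℓ := by rw [div_le_iff₀ hδ0] at hs2; linarith
  have h4 : (Real.sqrt ℓ + 1) ^ 2 ≤ (1 + δ) * ℓ := by nlinarith
  have h5 : (1 + η) * (1 + δ) = 1 + η' := by rw [hδ]; field_simp; ring
  calc (1 + η) * (Real.sqrt ℓ + 1) ^ 2 ≤ (1 + η) * ((1 + δ) * ℓ) :=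
        mul_le_mul_of_nonneg_left h4 (by linarith)
    _ = (1 + η') * ℓ := by rw [← mul_assoc, h5]

theorem per_mul {β : Type*} {f : ℤ → β} {m : ℤ} (h : ∀ J, f (J + m) = f J) (c : ℕ) (J : ℤ) :
    f (J + m * c) = f J := by
  induction c with
  | zero => simp
  | succ c ih => rw [← ih, ← h (J + m * c)]; congr 1; push_cast; ring

theorem dft_mul {M ℓ : ℕ} (hc : Nat.Coprime M ℓ) (hM : 0 < M) (hℓ : 0 < ℓ) {ψ ϑ : ℤ → ℝ}
    (hψ : ∀ J, ψ (J + M) = ψ J) (hϑ : ∀ J, ϑ (J + ℓ) = ϑ J) (k n : ℤ) :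
    ∃ n₁ n₂ : ℤ, dft (M * ℓ) (fun J => ψ J + ϑ J) k n = dft M ψ k n₁ * dft ℓ ϑ k n₂ := by
  obtain ⟨b, a, hab⟩ : IsCoprime (M : ℤ) (ℓ : ℤ) := Nat.isCoprime_iff_coprime.2 hc
  have hq₁ : (M : ℝ) ≠ 0 := by positivity
  have hq₂ : (ℓ : ℝ) ≠ 0 := by positivity
  have habr : (b : ℝ) * M + a * ℓ = 1 := by exact_mod_cast hab
  refine ⟨n * a, n * b, ?_⟩
  have key : ∑ J ∈ range (M * ℓ), ee (k * (ψ J + ϑ J) - n * J / ((M * ℓ : ℕ) : ℝ)) =
      (∑ J ∈ range M, ee (k * ψ J - ((n * a : ℤ) : ℝ) * J / M)) *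
        ∑ J ∈ range ℓ, ee (k * ϑ J - ((n * b : ℤ) : ℝ) * J / ℓ) := by
    rw [← PerfectAux.sum_crt hc hM hℓ]
    · refine Finset.sum_congr rfl fun x _ => ?_
      rw [← ee_add]
      congr 1
      push_cast
      field_simp
      linear_combination (n * x : ℝ) * habr
    · intro x
      rw [← ee_add_intCast (k * ψ x - ((n * a : ℤ) : ℝ) * x / M) (-(n * a)), Nat.cast_add, hψ]
      congr 1
      push_cast
      field_simp
      ring
    · intro x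
      rw [← ee_add_intCast (k * ϑ x - ((n * b : ℤ) : ℝ) * x / ℓ) (-(n * b)), Nat.cast_add, hϑ]
      congr 1
      push_cast
      field_simp
      ring
  simp only [dft]
  rw [key]
  push_cast
  ring

end GadgetChar

open GadgetChar in
theorem gadgetChar_stmt : GadgetCharStmt := by
  intro K D η η' ℓ₀ M ψ L d hP hd h0 hη
  classical
  have he : 0 < d.natAbs := Int.natAbs_pos.2 hd
  obtain ⟨ℓ, hp, hMℓ, hℓ₀, hmod, hbig⟩ := exists_prime d.natAbs M ℓ₀ he h0 hη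
  obtain ⟨φ, hφ, hsum⟩ := exists_phase hp he hmod
  have hℓ : 0 < ℓ := hp.pos
  have hc : Nat.Coprime M ℓ :=
    ((Nat.Prime.coprime_iff_not_dvd hp).2 (Nat.not_dvd_of_pos_of_lt hP.M_pos hMℓ)).symm
  have her : ((d.natAbs : ℕ) : ℝ) ≠ 0 := by positivity
  set ϑ : ℤ → ℝ := fun J => (φ J : ℝ) / (d.natAbs : ℝ) with hϑdef
  have hϑ : ∀ J, ϑ (J + ℓ) = ϑ J := fun J => by simp only [hϑdef, hφ]
  refine ⟨M * ℓ, fun J => ψ J + ϑ J, fun k => L k * (if d ∣ k then ℓ else 1),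
    Nat.mul_pos hP.M_pos hℓ, fun J => ?_, fun k => ?_, fun b k => ?_, fun k hk => ?_,
    fun k hk0 hk => ?_, fun k hk0 hk hD n => ?_⟩
  · have h1 := per_mul hP.per ℓ J
    have h2 := per_mul hϑ M J
    push_cast
    rw [h1, mul_comm, h2]
  · refine Nat.mul_pos (hP.L_pos k) ?_
    split_ifs
    · exact hℓ
    · exact one_pos
  · refine Nat.mul_dvd_mul (hP.L_dvd b k) ?_
    by_cases h1 : d ∣ k
    · rw [if_pos h1, if_pos (h1.mul_left b)]
    · rw [if_neg h1]; exact one_dvd _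
  · obtain ⟨d', hd', hdk⟩ := hk
    rcases mem_insert.1 hd' with rfl | hd'
    · rw [if_pos hdk]
      exact hℓ₀.trans (Nat.le_mul_of_pos_left _ (hP.L_pos k))
    · refine (hP.L_big k ⟨d', hd', hdk⟩).trans (Nat.le_mul_of_pos_right _ ?_)
      split_ifs
      · exact hℓ
      · exact one_pos
  · obtain ⟨M', hM', hper⟩ := hP.short k hk0 hk
    by_cases h1 : d ∣ k
    · refine ⟨M', by rw [if_pos h1, hM']; ring, fun J => ?_⟩
      obtain ⟨c, hc'⟩ : (d.natAbs : ℤ) ∣ k := Int.natAbs_dvd.2 h1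
      have hint : ∀ J, (k : ℝ) * ϑ J = ((c * φ J : ℤ) : ℝ) := fun J => by
        have : (k : ℝ) = ((d.natAbs : ℕ) : ℝ) * c := by
          rw [hc', Int.cast_mul, Int.cast_natCast]
        rw [this, hϑdef]
        simp only [Int.cast_mul]
        field_simp
      rw [mul_add, mul_add, hint, hint, ee_add_intCast, ee_add_intCast, hper]
    · refine ⟨M' * ℓ, by rw [if_neg h1, hM']; ring, fun J => ?_⟩
      have h2 := per_mul (f := fun J => ee (k * ψ J)) hper ℓ J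
      have h3 := per_mul hϑ M' J
      push_cast
      rw [mul_add, mul_add, ee_add, ee_add, h2, mul_comm (M' : ℤ), h3]
  · have h1 : ¬ (d.natAbs : ℤ) ∣ k := fun h =>
      hD d (mem_insert_self _ _) (Int.natAbs_dvd.1 h)
    obtain ⟨n₁, n₂, hn⟩ := dft_mul hc hP.M_pos hℓ hP.per hϑ k n
    have h2 := hP.flat k hk0 hk (fun d' hd' => hD d' (mem_insert_of_mem hd')) n₁
    have hℓr : (0 : ℝ) < ℓ := by exact_mod_cast hℓ
    have hMr : (0 : ℝ) < M := by exact_mod_cast hP.M_pos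
    have h3 : ‖dft ℓ ϑ k n₂‖ ≤ (Real.sqrt ℓ + 1) / ℓ := by
      rw [dft, norm_mul, norm_div, norm_one, Complex.norm_natCast, one_div, ← div_eq_inv_mul]
      exact div_le_div_of_nonneg_right (hsum k h1 n₂) hℓr.le
    rw [hn, norm_mul, mul_pow]
    calc ‖dft M ψ k n₁‖ ^ 2 * ‖dft ℓ ϑ k n₂‖ ^ 2
        ≤ ((1 + η) * |(k : ℝ)| / M) * ((Real.sqrt ℓ + 1) / ℓ) ^ 2 :=
          mul_le_mul h2 (pow_le_pow_left₀ (norm_nonneg _) h3 2) (by positivity) (by positivity)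
      _ = ((1 + η) * (Real.sqrt ℓ + 1) ^ 2) * (|(k : ℝ)| / (M * ℓ ^ 2)) := by
          field_simp
      _ ≤ ((1 + η') * ℓ) * (|(k : ℝ)| / (M * ℓ ^ 2)) :=
          mul_le_mul_of_nonneg_right hbig (by positivity)
      _ = (1 + η') * |(k : ℝ)| / ((M * ℓ : ℕ) : ℝ) := by
          push_cast
          field_simp

end Crest.Agent.R81
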