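import Crest.Agent.R81.Defs

/-!
# Row 81, module Geom

The statement and the recipe are in `R81/Defs.lean` (`GeomStmt`).
-/

set_option autoImplicit false

open MeasureTheory Finset Crest.AnalysisR.Torus3 Crest.Agent.R75
open scoped InnerProductSpace ComplexConjugate ContDiff

namespace Crest.Agent.R81

namespace Geom

lemma dvd_aux {K Q lam r k₁ j₁ ν₁ k₂ j₂ ν₂ b : ℤ} (hk₁ : k₁ ≠ 0) (hk₂ : k₂ ≠ 0) (hK₂ : |k₂| ≤ K)
    (hj₁ : |j₁| ≤ K) (hj₂ : |j₂| ≤ K) (hQ : 2 * K < Q) (ht₁ : |j₁ + Q * k₁ * ν₁| ≤ r)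
    (ht₂ : |j₂ + Q * k₂ * ν₂| ≤ r) (hl : (2 * K + 2) * r + 2 ≤ lam)
    (h : k₂ * lam + j₂ + Q * k₂ * ν₂ = (k₁ * lam + j₁ + Q * k₁ * ν₁) * b) :
    ν₁ = ν₂ ∧ k₂ = b * k₁ ∧ j₂ = b * j₁ := by
  set t₁ := j₁ + Q * k₁ * ν₁ with e₁
  set t₂ := j₂ + Q * k₂ * ν₂ with e₂
  have h' : k₂ * lam + t₂ = (k₁ * lam + t₁) * b := by rw [e₁, e₂]; linarith
  have hr : 0 ≤ r := (abs_nonneg _).trans ht₁
  have hK : 0 ≤ K := (abs_nonneg _).trans hj₁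
  have hKr : 0 ≤ K * r := mul_nonneg hK hr
  have hlam : 0 < lam := by nlinarith
  have h1 : 1 ≤ |k₁| := Int.one_le_abs hk₁
  have h2 : lam - r ≤ |k₁ * lam + t₁| := by
    have a1 : |k₁ * lam| ≤ |k₁ * lam + t₁| + |t₁| := by
      simpa using abs_sub (k₁ * lam + t₁) t₁
    rw [abs_mul, abs_of_pos hlam] at a1
    nlinarith
  have h3 : |k₂ * lam + t₂| ≤ K * lam + r := by
    have a1 := abs_add_le (k₂ * lam) t₂
    rw [abs_mul, abs_of_pos hlam] at a1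
    nlinarith
  have hb : |b| ≤ 2 * K + 1 := by
    by_contra hb
    have a1 : 2 * K + 2 ≤ |b| := by omega
    rw [h', abs_mul] at h3
    have a2 : (lam - r) * (2 * K + 2) ≤ |k₁ * lam + t₁| * |b| :=
      mul_le_mul h2 a1 (by omega) (abs_nonneg _)
    nlinarith
  have h4 : k₂ = b * k₁ := by
    by_contra hne
    have a1 : 1 ≤ |k₂ - b * k₁| := Int.one_le_abs (sub_ne_zero.2 hne)
    have a2 : (k₂ - b * k₁) * lam = b * t₁ - t₂ := by linarith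
    have a3 : |b * t₁ - t₂| ≤ |b| * |t₁| + |t₂| := by
      rw [← abs_mul]; exact abs_sub _ _
    have a4 : |b| * |t₁| ≤ (2 * K + 1) * r := mul_le_mul hb ht₁ (abs_nonneg _) (by omega)
    rw [← a2, abs_mul, abs_of_pos hlam] at a3
    nlinarith
  have h5 : t₂ = b * t₁ := by rw [h4] at h'; linarith
  have h6 : j₂ = b * (j₁ + Q * (k₁ * (ν₁ - ν₂))) := by
    rw [e₁, e₂, h4] at h5; linarith
  have hb0 : 1 ≤ |b| := Int.one_le_abs (by rintro rfl; simp at h4; exact hk₂ h4)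
  have h7 : ν₁ = ν₂ := by
    by_contra hne
    have a1 : 1 ≤ |k₁ * (ν₁ - ν₂)| := Int.one_le_abs (mul_ne_zero hk₁ (sub_ne_zero.2 hne))
    have a2 : |Q * (k₁ * (ν₁ - ν₂))| ≤ |j₁ + Q * (k₁ * (ν₁ - ν₂))| + |j₁| := by
      simpa using abs_sub (j₁ + Q * (k₁ * (ν₁ - ν₂))) j₁
    rw [h6, abs_mul] at hj₂
    rw [abs_mul, abs_of_pos (by omega : 0 < Q)] at a2
    have a3 := abs_nonneg (j₁ + Q * (k₁ * (ν₁ - ν₂)))
    nlinarith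
  refine ⟨h7, h4, ?_⟩
  rw [h6, h7]; ring

lemma abs_bounds {K lam r k t : ℤ} (hk : k ≠ 0) (hK : |k| ≤ K) (ht : |t| ≤ r)
    (hl : (2 * K + 2) * r + 2 ≤ lam) : 1 < |k * lam + t| ∧ |k * lam + t| ≤ (K + 1) * lam := by
  have hr : 0 ≤ r := (abs_nonneg _).trans ht
  have hK0 : 0 ≤ K := (abs_nonneg _).trans hK
  have hKr : 0 ≤ K * r := mul_nonneg hK0 hr
  have hlam : 0 < lam := by nlinarith
  have h1 : 1 ≤ |k| := Int.one_le_abs hk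
  have a1 : |k * lam| ≤ |k * lam + t| + |t| := by simpa using abs_sub (k * lam + t) t
  have a2 := abs_add_le (k * lam) t
  rw [abs_mul, abs_of_pos hlam] at a1 a2
  constructor <;> nlinarith

lemma mem_kept {L : ℤ → ℕ} {R : Finset ℤ} {A : Finset (ℤ × ℤ)} {p : (ℤ × ℤ) × ℤ} :
    p ∈ kept L R A ↔ p.1 ∈ A ∧ p.2 ∈ R ∧ (L p.1.1 : ℤ) ∣ p.2 := by
  simp [kept, and_assoc]

lemma kept_union (L : ℤ → ℕ) (R : Finset ℤ) (A B : Finset (ℤ × ℤ)) :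
    kept L R (A ∪ B) = kept L R A ∪ kept L R B := by
  ext p
  simp only [mem_kept, mem_union]
  tauto

lemma divClosed {L : ℤ → ℕ} {R : Finset ℤ} {A : Finset (ℤ × ℤ)} (hA : DivClosed A)
    (hL : ∀ b k : ℤ, L k ∣ L (b * k)) (lam Q : ℤ) :
    DivClosed ((kept L R A).image (desc lam Q)) := by
  intro m hm b m' hb
  obtain ⟨⟨⟨k, j⟩, ν⟩, hp, rfl⟩ := mem_image.1 hm
  obtain ⟨h1, h2, h3⟩ := mem_kept.1 hp
  obtain ⟨x, y⟩ := m'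
  simp only [desc, Prod.smul_mk, smul_eq_mul, Prod.mk.injEq] at hb
  obtain ⟨hb1, rfl⟩ := hb
  refine mem_image.2 ⟨((y, x - y * lam - Q * y * ν), ν), mem_kept.2 ⟨hA _ h1 b _ ?_, h2, ?_⟩, ?_⟩
  · simp only [Prod.smul_mk, smul_eq_mul, Prod.mk.injEq, true_and]
    linarith
  · exact (Int.natCast_dvd_natCast.2 (hL b y)).trans h3
  · simp only [desc, Prod.mk.injEq, and_true]
    ring

/-- the frequency of a descendant is a point of its cell -/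
lemma freq_desc (M₀ M₁ : Model) (Q lam : ℤ) (s : ℕ) (ρ c₁ : ℝ) (nQ : ℤ) (hQ : (Q : ℝ) ≠ 0)
    (hρ : ρ ≠ 0) (hγ : (Q : ℝ) * M₀.γ = nQ) (h1 : M₁.dbar = M₀.γ + ρ / Q) (h2 : lam * M₁.σ = ρ)
    (h3 : M₁.γ = M₀.dbar + (s * ρ + c₁) - lam * (M₀.γ + ρ / Q)) (m : ℤ × ℤ) (hm : m.1 ≠ 0)
    (ν : ℤ) (v : ℝ) :
    M₁.freq (desc lam Q (m, ν)) v = cellPt M₀.dbar (M₀.γ + ρ / Q) ρ s m ν
      (v + (m.1 * c₁ + (m.2 + Q * m.1 * ν : ℤ) * M₁.σ * v) / (ρ * m.1)) + (nQ * m.1 * ν : ℤ) := by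
  have hm' : (m.1 : ℝ) ≠ 0 := by exact_mod_cast hm
  simp only [Model.freq, desc, cellPt, h1, h3]
  push_cast
  rw [← hγ, ← h2]
  have hl : (lam : ℝ) * M₁.σ ≠ 0 := by rwa [h2]
  have hl1 : (lam : ℝ) ≠ 0 := left_ne_zero_of_mul hl
  have hl2 : M₁.σ ≠ 0 := right_ne_zero_of_mul hl
  field_simp
  ring

/-- a point of a cell is an old frequency -/
lemma cell_freq (M₀ : Model) (Q : ℤ) (s : ℕ) (ρ : ℝ) (hσ : M₀.σ ≠ 0) (m : ℤ × ℤ) (hm : m.1 ≠ 0)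
    (ν : ℤ) (a : ℝ) :
    cellPt M₀.dbar (M₀.γ + ρ / Q) ρ s m ν a =
      M₀.freq m ((ρ * (ν + s + a) + m.2 * (ρ / Q) / m.1) / M₀.σ) := by
  have hm' : (m.1 : ℝ) ≠ 0 := by exact_mod_cast hm
  simp only [Model.freq, cellPt]
  field_simp
  ring

end Geom

open Geom in
theorem geom_stmt : GeomStmt := by
  intro M₀ M₁ N P K Q M S s lam r₀ L R u ζ c₁ hV hS hK hQ ⟨nQ, hnQ⟩ hM hs hL hu hζ hK1 hR hBad hr
    hlam hα0 hα1 hE hc hd hσ hγ hq hqγ hG hdata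
  set ρ : ℝ := u / M with hρ
  have hM' : (0 : ℝ) < M := by exact_mod_cast hM
  have hρ0 : 0 < ρ := div_pos hu hM'
  have hQ0 : (0 : ℝ) < Q := by exact_mod_cast (by omega : 0 < Q)
  have hQ1 : (1 : ℝ) ≤ Q := by exact_mod_cast (by omega : 1 ≤ Q)
  have hlam0 : (0 : ℝ) < lam := by exact_mod_cast (by omega : 0 < lam)
  have hκ : u / (M * Q) = ρ / ((Q : ℤ) : ℝ) := by rw [hρ, div_div]; simp
  rw [hκ] at hBad hd hγ
  have hσ0 : 0 < M₁.σ := by rw [hσ]; positivity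
  have hlσ : ((lam : ℤ) : ℝ) * M₁.σ = ρ := by
    rw [hσ, hρ]; push_cast; field_simp
  have hlam' : (2 * (K : ℤ) + 2) * r₀ + 2 ≤ lam := by exact_mod_cast hlam
  have hQ' : 2 * (K : ℤ) < Q := by exact_mod_cast hQ
  have hne : ∀ m ∈ M₀.G ∪ N ∪ P, m.1 ≠ 0 := fun m hm => by
    rw [union_assoc] at hm
    rcases mem_union.1 hm with h | h
    · exact hV.k_ne m h
    · exact hS.k_ne m h
  have hbd : ∀ p ∈ kept L R (M₀.G ∪ N ∪ P),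
      1 < |(desc lam Q p).1| ∧ |(desc lam Q p).1| ≤ (K + 1) * lam := fun p hp => by
    obtain ⟨h1, h2, -⟩ := mem_kept.1 hp
    have := abs_bounds (hne _ h1) (hK _ h1).1 (hr _ h1 _ h2) hlam'
    rwa [← add_assoc] at this
  have hdvd : ∀ p₁ ∈ kept L R (M₀.G ∪ N ∪ P), ∀ p₂ ∈ kept L R (M₀.G ∪ N ∪ P), ∀ b : ℤ,
      (desc lam Q p₂).1 = (desc lam Q p₁).1 * b → p₁.2 = p₂.2 ∧ p₂.1 = b • p₁.1 := by
    intro p₁ hp₁ p₂ hp₂ b hb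
    obtain ⟨h1, h2, -⟩ := mem_kept.1 hp₁
    obtain ⟨h3, h4, -⟩ := mem_kept.1 hp₂
    obtain ⟨a1, a2, a3⟩ := dvd_aux (hne _ h1) (hne _ h3) (hK _ h3).1 (hK _ h1).2 (hK _ h3).2 hQ'
      (hr _ h1 _ h2) (hr _ h3 _ h4) hlam' hb
    exact ⟨a1, Prod.ext a2 a3⟩
  have hU : M₁.G ∪ (kept L R P).image (desc lam Q) =
      (kept L R (M₀.G ∪ N ∪ P)).image (desc lam Q) := by
    rw [hG, kept_union L R _ P, image_union]
  have hsub1 : ∀ p ∈ kept L R (M₀.G ∪ N), p ∈ kept L R (M₀.G ∪ N ∪ P) := fun p hp => by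
    rw [kept_union L R _ P]; exact mem_union_left _ hp
  have hsub2 : ∀ p ∈ kept L R P, p ∈ kept L R (M₀.G ∪ N ∪ P) := fun p hp => by
    rw [kept_union L R _ P]; exact mem_union_right _ hp
  have hone : ∀ m ∈ M₁.G ∪ (kept L R P).image (desc lam Q), 1 < |m.1| := fun m hm => by
    rw [hU] at hm
    obtain ⟨p, hp, rfl⟩ := mem_image.1 hm
    exact (hbd p hp).1
  have hne' : ∀ m ∈ M₁.G ∪ (kept L R P).image (desc lam Q), m.1 ≠ 0 := fun m hm h0 => by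
    have := hone m hm
    rw [h0] at this
    simp at this
  have hneg : ∀ p : (ℤ × ℤ) × ℤ, -desc lam Q p = desc lam Q (-p.1, p.2) := fun p => by
    simp only [desc, Prod.neg_mk, Prod.fst_neg, Prod.snd_neg, Prod.mk.injEq, and_true]
    ring
  -- the position inside the cell
  have hpos : ∀ m ∈ M₀.G ∪ N ∪ P, ∀ ν ∈ R, ∀ v ∈ Set.Icc M₁.α (1 - M₁.α),
      v + (m.1 * c₁ + (m.2 + Q * m.1 * ν : ℤ) * M₁.σ * v) / (ρ * m.1) ∈ Set.Ioo (0 : ℝ) 1 := by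
    intro m hm ν hν v hv
    have h1 : (1 : ℝ) ≤ |(m.1 : ℝ)| := by exact_mod_cast Int.one_le_abs (hne m hm)
    have h2 : |(m.1 : ℝ)| ≤ K := by exact_mod_cast (hK m hm).1
    have h3 : |((m.2 + Q * m.1 * ν : ℤ) : ℝ)| ≤ r₀ := by exact_mod_cast hr m hm ν hν
    have h4 : |(m.1 * c₁ + (m.2 + Q * m.1 * ν : ℤ) * M₁.σ * v) / (ρ * m.1)| ≤ M₁.α / 2 := by
      rw [abs_div, abs_mul ρ, abs_of_pos hρ0, div_le_iff₀ (by positivity)]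
      refine (abs_add_le _ _).trans ?_
      rw [abs_mul, abs_mul, abs_mul, abs_of_pos hσ0, abs_of_pos (hα0.trans_le hv.1)]
      have a1 : |(m.1 : ℝ)| * |c₁| ≤ K * |c₁| := by gcongr
      have a2 : |((m.2 + Q * m.1 * ν : ℤ) : ℝ)| * M₁.σ * v ≤ r₀ * M₁.σ * 1 := by
        have := hv.1
        have := hv.2
        gcongr
        · linarith
        · linarith
      have a3 : M₁.α / 2 * (ρ * 1) ≤ M₁.α / 2 * (ρ * |(m.1 : ℝ)|) := by gcongr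
      linarith
    have h5 := abs_le.1 h4
    constructor <;> linarith [hv.1, hv.2]
  have hy : ∀ m ∈ M₀.G ∪ N ∪ P, ∀ ν ∈ R, ∀ a ∈ Set.Ioo (0 : ℝ) 1,
      (ρ * (ν + s + a) + m.2 * (ρ / ((Q : ℤ) : ℝ)) / m.1) / M₀.σ ∈ Set.Icc M₀.α (1 - M₀.α) := by
    intro m hm ν hν a ha
    have h1 : (1 : ℝ) ≤ |(m.1 : ℝ)| := by exact_mod_cast Int.one_le_abs (hne m hm)
    have h2 : |(m.2 : ℝ)| ≤ K := by exact_mod_cast (hK m hm).2
    have h3 : |m.2 * (ρ / ((Q : ℤ) : ℝ)) / m.1| ≤ K * ρ := by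
      rw [abs_div, abs_mul, div_le_iff₀ (by positivity), Int.cast_natCast,
        abs_of_pos (div_pos hρ0 hQ0)]
      have a1 : ρ / Q ≤ ρ := div_le_self hρ0.le hQ1
      calc _ ≤ K * ρ * 1 := by rw [mul_one]; gcongr
        _ ≤ _ := by gcongr
    have h4 := abs_le.1 h3
    have h5 := hR ν hν
    have h6 : (s : ℝ) ≤ S := by exact_mod_cast hs.le
    have h7 : (0 : ℝ) ≤ s := Nat.cast_nonneg s
    have h8 : 0 ≤ ρ * (s + a) := mul_nonneg hρ0.le (by linarith [ha.1])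
    have h9 : ρ * (s + a) ≤ ρ * (S + 1) := by gcongr; exact ha.2.le
    have h10 : 0 ≤ ρ * (S + 1) := by positivity
    constructor
    · rw [le_div_iff₀ hV.σ_pos]; nlinarith
    · rw [div_le_iff₀ hV.σ_pos]; nlinarith
  refine ⟨⟨hσ0, hα0, hα1, hE, hq, hqγ, fun m hm => hne' m (mem_union_left _ hm),
    hG ▸ divClosed hS.div₁ hL _ _, fun m hm => ?_, fun m hm => ?_, fun m hm => ?_, ?_⟩,
    ⟨fun m hm => hne' m (mem_union_right _ (by simpa using hm)), hU ▸ divClosed hS.div₂ hL _ _,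
      by rw [union_empty, hU]; exact divClosed hS.div₂ hL _ _, disjoint_empty_left _, ?_, ?_, ?_⟩,
    hone⟩
  · rw [hG] at hm
    obtain ⟨p, hp, rfl⟩ := mem_image.1 hm
    obtain ⟨h1, h2, h3⟩ := mem_kept.1 hp
    have hp' : (-p.1, p.2) ∈ kept L R (M₀.G ∪ N) := by
      refine mem_kept.2 ⟨hS.div₁.neg_mem h1, h2, Dvd.dvd.trans ?_ h3⟩
      have := hL (-1) (-p.1.1)
      rw [neg_mul_neg, one_mul] at this
      exact Int.natCast_dvd_natCast.2 this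
    rw [hneg, (hdata _ hp').1, (hdata _ hp).1]
    simp only [Prod.fst_neg]
    push_cast
    ring
  · rw [hG] at hm
    obtain ⟨p, hp, rfl⟩ := mem_image.1 hm
    rw [hneg, (hdata _ hp).2.2]
  · rw [hG] at hm
    obtain ⟨p, hp, rfl⟩ := mem_image.1 hm
    exact (hdata _ hp).2.1
  · intro m₁ hm₁ m₂ hm₂ v₁ hv₁ v₂ hv₂ n hn
    rw [hG] at hm₁ hm₂
    obtain ⟨⟨m₁, ν₁⟩, hp₁, rfl⟩ := mem_image.1 hm₁
    obtain ⟨⟨m₂, ν₂⟩, hp₂, rfl⟩ := mem_image.1 hm₂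
    obtain ⟨g₁, n₁, l₁⟩ := mem_kept.1 hp₁
    obtain ⟨g₂, n₂, l₂⟩ := mem_kept.1 hp₂
    have f₁ : m₁ ∈ M₀.G ∪ N ∪ P := mem_union_left _ g₁
    have f₂ : m₂ ∈ M₀.G ∪ N ∪ P := mem_union_left _ g₂
    have hQZ : (((Q : ℕ) : ℤ) : ℝ) ≠ 0 := by simpa using hQ0.ne'
    have hγ' : M₁.γ = M₀.dbar + (s * ρ + c₁) - ((lam : ℤ) : ℝ) * (M₀.γ + ρ / ((Q : ℤ) : ℝ)) := by
      rw [hγ]; simp
    rw [freq_desc M₀ M₁ Q lam s ρ c₁ nQ hQZ hρ0.ne' (by simpa using hnQ) hd hlσ hγ' m₁ (hne _ f₁),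
      freq_desc M₀ M₁ Q lam s ρ c₁ nQ hQZ hρ0.ne' (by simpa using hnQ) hd hlσ hγ' m₂ (hne _ f₂)]
      at hn
    have ha₁ := hpos m₁ f₁ ν₁ n₁ v₁ hv₁
    have ha₂ := hpos m₂ f₂ ν₂ n₂ v₂ hv₂
    obtain ⟨a₁, e₁⟩ : ∃ a, a = v₁ + (m₁.1 * c₁ + (m₁.2 + Q * m₁.1 * ν₁ : ℤ) * M₁.σ * v₁) /
      (ρ * m₁.1) := ⟨_, rfl⟩
    obtain ⟨a₂, e₂⟩ : ∃ a, a = v₂ + (m₂.1 * c₁ + (m₂.2 + Q * m₂.1 * ν₂ : ℤ) * M₁.σ * v₂) /
      (ρ * m₂.1) := ⟨_, rfl⟩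
    rw [← e₁] at ha₁ hn
    rw [← e₂] at ha₂ hn
    have hn' : cellPt M₀.dbar (M₀.γ + ρ / ((Q : ℤ) : ℝ)) ρ s m₁ ν₁ a₁ -
        cellPt M₀.dbar (M₀.γ + ρ / ((Q : ℤ) : ℝ)) ρ s m₂ ν₂ a₂ =
        (n - nQ * m₁.1 * ν₁ + nQ * m₂.1 * ν₂ : ℤ) := by
      push_cast at hn ⊢
      linarith
    generalize n - nQ * m₁.1 * ν₁ + nQ * m₂.1 * ν₂ = n' at hn'
    have hy₁ := hy m₁ f₁ ν₁ n₁ a₁ ha₁
    have hy₂ := hy m₂ f₂ ν₂ n₂ a₂ ha₂
    have hf := hn'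
    rw [cell_freq M₀ Q s ρ hV.σ_pos.ne' m₁ (hne _ f₁),
      cell_freq M₀ Q s ρ hV.σ_pos.ne' m₂ (hne _ f₂)] at hf
    have key : m₁ = m₂ ∧ (ρ * (ν₁ + s + a₁) + m₁.2 * (ρ / ((Q : ℤ) : ℝ)) / m₁.1) / M₀.σ =
        (ρ * (ν₂ + s + a₂) + m₂.2 * (ρ / ((Q : ℤ) : ℝ)) / m₂.1) / M₀.σ := by
      have hN : m₁ ∈ N ∨ m₂ ∈ N → m₁ = m₂ := by
        rintro (h | h) <;> by_contra hm
        · exact hBad ν₂ n₂ m₂ f₂ ⟨m₁, h, hm, ν₁, n₁, l₁, a₂, Set.Ioo_subset_Icc_self ha₂, a₁,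
            Set.Ioo_subset_Icc_self ha₁, -n', by rw [Int.cast_neg]; linarith⟩
        · exact hBad ν₁ n₁ m₁ f₁ ⟨m₂, h, Ne.symm hm, ν₂, n₂, l₂, a₁, Set.Ioo_subset_Icc_self ha₁,
            a₂, Set.Ioo_subset_Icc_self ha₂, n', hn'⟩
      by_cases hN' : m₁ ∈ N ∨ m₂ ∈ N
      · obtain rfl := hN hN'
        refine ⟨rfl, ?_⟩
        have hsm := hS.small m₁ (by simpa using hN')
        generalize (ρ * (ν₁ + s + a₁) + m₁.2 * (ρ / ((Q : ℤ) : ℝ)) / m₁.1) / M₀.σ = y₁ at hf hy₁ ⊢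
        generalize (ρ * (ν₂ + s + a₂) + m₁.2 * (ρ / ((Q : ℤ) : ℝ)) / m₁.1) / M₀.σ = y₂ at hf hy₂ ⊢
        have b1 : (n' : ℝ) = m₁.1 * M₀.σ * (y₁ - y₂) := by
          rw [← hf]; simp only [Model.freq]; ring
        have b2 : |y₁ - y₂| ≤ 1 := by
          have := hV.α_pos
          rw [abs_le]; constructor <;> linarith [hy₁.1, hy₁.2, hy₂.1, hy₂.2]
        have b3 : |(n' : ℝ)| < 1 := by
          rw [b1, abs_mul, abs_mul, abs_of_pos hV.σ_pos]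
          have := mul_le_mul_of_nonneg_left b2
            (mul_nonneg (abs_nonneg (m₁.1 : ℝ)) hV.σ_pos.le)
          linarith
        have b4 : n' = 0 := Int.abs_lt_one_iff.1 (by exact_mod_cast b3)
        rw [b4, Int.cast_zero] at b1
        have b5 : (m₁.1 : ℝ) ≠ 0 := by exact_mod_cast hne _ f₁
        exact sub_eq_zero.1 ((mul_eq_zero.1 b1.symm).resolve_left (mul_ne_zero b5 hV.σ_pos.ne'))
      · push Not at hN'
        exact hV.disj m₁ ((mem_union.1 g₁).resolve_right hN'.1) m₂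
          ((mem_union.1 g₂).resolve_right hN'.2) _ hy₁ _ hy₂ n' hf
    obtain ⟨rfl, key⟩ := key
    have k1 : (ν₁ : ℝ) + a₁ = ν₂ + a₂ := by
      rw [div_left_inj' hV.σ_pos.ne', add_left_inj, mul_right_inj' hρ0.ne'] at key
      linarith
    have k2 : ν₁ = ν₂ := by
      have : |((ν₁ - ν₂ : ℤ) : ℝ)| < 1 := by
        push_cast
        rw [abs_lt]; constructor <;> linarith [ha₁.1, ha₁.2, ha₂.1, ha₂.2]
      exact sub_eq_zero.1 (Int.abs_lt_one_iff.1 (by exact_mod_cast this))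
    subst k2
    refine ⟨rfl, ?_⟩
    have k3 : a₁ = a₂ := by linarith
    have b5 : (m₁.1 : ℝ) ≠ 0 := by exact_mod_cast hne _ f₁
    have k4 : (v₁ - v₂) * (ρ * m₁.1 + (m₁.2 + Q * m₁.1 * ν₁ : ℤ) * M₁.σ) = 0 := by
      rw [e₁, e₂] at k3
      field_simp at k3
      linarith
    refine sub_eq_zero.1 ((mul_eq_zero.1 k4).resolve_right fun h0 => ?_)
    have h1 : (1 : ℝ) ≤ |(m₁.1 : ℝ)| := by exact_mod_cast Int.one_le_abs (hne _ f₁)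
    have h3 : |((m₁.2 + Q * m₁.1 * ν₁ : ℤ) : ℝ)| ≤ r₀ := by exact_mod_cast hr _ f₁ _ n₁
    have h4 : |ρ * m₁.1| = |((m₁.2 + Q * m₁.1 * ν₁ : ℤ) : ℝ) * M₁.σ| := by
      rw [eq_neg_of_add_eq_zero_left h0, abs_neg]
    rw [abs_mul, abs_mul, abs_of_pos hρ0, abs_of_pos hσ0] at h4
    have h5 : |((m₁.2 + Q * m₁.1 * ν₁ : ℤ) : ℝ)| * M₁.σ ≤ r₀ * M₁.σ := by gcongr
    have h6 : 0 ≤ (K : ℝ) * |c₁| := by positivity
    nlinarith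
  · intro m hm m' hm' ⟨b, hb⟩
    rw [hG] at hm'
    obtain ⟨p₁, hp₁, rfl⟩ := mem_image.1 hm
    obtain ⟨p₂, hp₂, rfl⟩ := mem_image.1 hm'
    have := (hdvd p₁ (hsub2 _ hp₁) p₂ (hsub1 _ hp₂) b hb).2
    exact disjoint_left.1 hS.disj (mem_kept.1 hp₁).1 (hS.div₁ _ (mem_kept.1 hp₂).1 b _ this)
  · intro m hm m' hm' hb
    rw [union_empty, hU] at hm'
    obtain ⟨p₁, hp₁, rfl⟩ := mem_image.1 hm
    obtain ⟨p₂, hp₂, rfl⟩ := mem_image.1 hm'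
    have := hdvd p₁ (hsub2 _ hp₁) p₂ hp₂ 1 (by rw [hb, mul_one])
    rw [one_smul] at this
    rw [Prod.ext this.2.symm this.1]
  · intro m hm
    obtain ⟨p, hp, rfl⟩ := mem_image.1 hm
    have h1 : |((desc lam Q p).1 : ℝ)| ≤ (K + 1) * lam := by exact_mod_cast (hbd p (hsub2 _ hp)).2
    have h2 : (lam : ℝ) * M₁.σ = ρ := by simpa using hlσ
    calc _ ≤ (K + 1) * lam * M₁.σ := by gcongr
      _ = (K + 1) * ρ := by rw [mul_assoc, h2]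
      _ < 1 := hK1

end Crest.Agent.R81
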