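import Crest.Agent.R81.Defs

/-!
# Row 81, module Inner

The statement and the recipe are in `R81/Defs.lean` (`InnerStmt`).
-/

set_option autoImplicit false

open MeasureTheory Finset Crest.AnalysisR.Torus3 Crest.Agent.R75
open scoped InnerProductSpace ComplexConjugate ContDiff

namespace Crest.Agent.R81

namespace Inner

theorem integral_indicator_fract {α : ℝ} (h0 : 0 < α) (h1 : α < 1 / 4) (φ : ℝ → ℂ) :
    ∫ y in (0 : ℝ)..1, (Set.Icc α (1 - α)).indicator φ (Int.fract y) =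
      ∫ y in α..(1 - α), φ y := by
  rw [intervalIntegral.integral_of_le zero_le_one, integral_Ioc_eq_integral_Ioo,
    setIntegral_congr_fun measurableSet_Ioo (g := (Set.Icc α (1 - α)).indicator φ)
      (fun y hy => by simp only [Int.fract_eq_self.2 ⟨hy.1.le, hy.2⟩]),
    setIntegral_indicator measurableSet_Icc, Set.inter_eq_right.2
      (Set.Icc_subset_Ioo h0 (by linarith)),
    intervalIntegral.integral_of_le (by linarith), integral_Icc_eq_integral_Ioc]

/-- The `M`-periodic function of the recipe. -/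
noncomputable def G (α β ξ : ℝ) (M : ℕ) (ψ : ℤ → ℝ) (k n : ℤ) (Y : ℝ) : ℂ :=
  (Set.Icc α (1 - α)).indicator (fun y => ee (β * y ^ 2 / 2 - ξ * y)) (Int.fract Y) *
    ee (k * ψ ⌊Y⌋ - n * ⌊Y⌋ / M)

theorem measurable_G (α β ξ : ℝ) (M : ℕ) (ψ : ℤ → ℝ) (k n : ℤ) : Measurable (G α β ξ M ψ k n) := by
  unfold G
  refine Measurable.mul ?_ ?_
  · exact (Measurable.indicator (by fun_prop) measurableSet_Icc).comp measurable_fract
  · exact (measurable_from_top (f := fun J : ℤ => ee (k * ψ J - n * J / M))).comp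
      Int.measurable_floor

theorem norm_G_le (α β ξ : ℝ) (M : ℕ) (ψ : ℤ → ℝ) (k n : ℤ) (Y : ℝ) : ‖G α β ξ M ψ k n Y‖ ≤ 1 := by
  rw [G, norm_mul, norm_ee, mul_one]
  by_cases h : Int.fract Y ∈ Set.Icc α (1 - α)
  · rw [Set.indicator_of_mem h, norm_ee]
  · rw [Set.indicator_of_notMem h]; simp

theorem intervalIntegrable_G (α β ξ : ℝ) (M : ℕ) (ψ : ℤ → ℝ) (k n : ℤ) (a b : ℝ) :
    IntervalIntegrable (G α β ξ M ψ k n) volume a b :=
  (intervalIntegrable_const (c := (1 : ℝ))).mono_fun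
    (measurable_G α β ξ M ψ k n).aestronglyMeasurable
    (Filter.Eventually.of_forall fun Y => by simpa using norm_G_le α β ξ M ψ k n Y)

theorem periodic_G (α β ξ : ℝ) {M : ℕ} (hM : 0 < M) {ψ : ℤ → ℝ} (hψ : ∀ J : ℤ, ψ (J + M) = ψ J)
    (k n : ℤ) : Function.Periodic (G α β ξ M ψ k n) (M : ℝ) := by
  intro Y
  have hM' : (M : ℝ) ≠ 0 := by positivity
  simp only [G, Int.fract_add_natCast, Int.floor_add_natCast, hψ]
  congr 1
  rw [← ee_add_intCast _ n]
  congr 1
  push_cast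
  field_simp
  ring

theorem integral_G_unit {α : ℝ} (h0 : 0 < α) (h1 : α < 1 / 4) (β ξ : ℝ) (M : ℕ) (ψ : ℤ → ℝ)
    (k n : ℤ) (J : ℕ) :
    ∫ Y in (J : ℝ)..((J + 1 : ℕ) : ℝ), G α β ξ M ψ k n Y =
      ee (k * ψ J - n * J / M) * phiHat α β ξ := by
  have e1 : ∫ Y in (J : ℝ)..((J + 1 : ℕ) : ℝ), G α β ξ M ψ k n Y =
      ∫ y in (0 : ℝ)..1, G α β ξ M ψ k n (y + J) := by
    rw [intervalIntegral.integral_comp_add_right]
    congr 1 <;> push_cast <;> ring
  rw [e1, phiHat, ← integral_indicator_fract h0 h1, ← intervalIntegral.integral_const_mul,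
    intervalIntegral.integral_of_le zero_le_one, intervalIntegral.integral_of_le zero_le_one,
    integral_Ioc_eq_integral_Ioo, integral_Ioc_eq_integral_Ioo]
  refine setIntegral_congr_fun measurableSet_Ioo fun y hy => ?_
  have : ⌊y⌋ = 0 := Int.floor_eq_zero_iff.2 ⟨hy.1.le, hy.2⟩
  simp only [G, Int.fract_add_natCast, Int.floor_add_natCast, this, zero_add, Int.cast_natCast]
  ring

theorem integral_G {α : ℝ} (h0 : 0 < α) (h1 : α < 1 / 4) (β ξ : ℝ) {M Q : ℕ} (hM : 0 < M)
    (hQ : 0 < Q) {ψ : ℤ → ℝ} (hψ : ∀ J : ℤ, ψ (J + M) = ψ J) (k n : ℤ) (a : ℝ) :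
    ∫ x in (0 : ℝ)..1, G α β ξ M ψ k n (a + M * Q * x) = dft M ψ k n * phiHat α β ξ := by
  have hM' : (M : ℝ) ≠ 0 := by positivity
  have hQ' : (Q : ℝ) ≠ 0 := by positivity
  have e1 := (periodic_G α β ξ hM hψ k n).intervalIntegral_add_zsmul_eq (Q : ℤ) a
    (intervalIntegrable_G α β ξ M ψ k n)
  have e2 := (periodic_G α β ξ hM hψ k n).intervalIntegral_add_eq a 0
  have e3 := intervalIntegral.sum_integral_adjacent_intervals (f := G α β ξ M ψ k n)
    (μ := volume) (a := fun J : ℕ => (J : ℝ)) (n := M)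
    fun J _ => intervalIntegrable_G α β ξ M ψ k n _ _
  simp only [integral_G_unit h0 h1, Nat.cast_zero] at e3
  rw [intervalIntegral.integral_comp_add_mul _ (mul_ne_zero hM' hQ'), mul_zero, add_zero, mul_one,
    show a + (M : ℝ) * Q = a + (Q : ℤ) • (M : ℝ) by simp [mul_comm], e1, e2, zero_add, ← e3, dft,
    ← Finset.sum_mul]
  have hM'' : (M : ℂ) ≠ 0 := by exact_mod_cast hM.ne'
  have hQ'' : (Q : ℂ) ≠ 0 := by exact_mod_cast hQ.ne'
  generalize (∑ J ∈ range M, ee (k * ψ J - n * J / M)) = s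
  simp only [zsmul_eq_mul, Complex.real_smul]
  push_cast
  field_simp

theorem integrand {α α' σ u : ℝ} {E : ℝ → ℝ} {M Q : ℕ} {ψ : ℤ → ℝ} {V : ℝ → ℝ → ℝ} {lam : ℤ}
    {h : TD} (k j n : ℤ) (θ : ℝ) (hE : GoodE α E) (hM : 0 < M) (hV : GoodV α α' M ψ V)
    (hh : ∀ x, h.F x = stepF lam (M * Q) (Wf σ E u V Q) x) (x v z : ℝ) :
    conj (fibF α' (k * lam + j + Q * n, k) (fun y => ee (n / M * y)) (proj ![x, v, z])) *
        fibF α (k, j) (fun y => ee (θ * y)) (h.T (proj ![x, v, z])) =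
      (Set.Icc α' (1 - α')).indicator (fun _ => (1 : ℂ)) (Int.fract v) *
        G α (k * σ / u) (n / M - θ) M ψ k n (Int.fract v + M * Q * x) := by
  have hM' : (M : ℝ) ≠ 0 := by positivity
  rw [h.cov, hh, fibF_proj, fibF_proj]
  have eY : Int.fract v + (M : ℝ) * Q * x = v + M * Q * x - (⌊v⌋ : ℤ) := by
    rw [Int.fract]; ring
  simp only [stepF, G, eY, Int.fract_sub_intCast, Int.floor_sub_intCast, Matrix.cons_val_zero,
    Matrix.cons_val_one, Matrix.cons_val, Int.cast_mul, Int.cast_natCast]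
  set Y := v + (M : ℝ) * Q * x with hY
  by_cases hv : Int.fract v ∈ Set.Icc α' (1 - α')
  swap
  · simp [Set.indicator_of_notMem hv]
  by_cases hy : Int.fract Y ∈ Set.Icc α (1 - α)
  swap
  · simp [Set.indicator_of_notMem hy]
  simp only [Set.indicator_of_mem hv, Set.indicator_of_mem hy, one_mul, ← ee_add, ← ee_neg]
  have e1 : Y - M * (Q * x) = v := by rw [hY]; ring
  have e2 : V Y (Q * x) = ψ (⌊Y⌋ - ⌊v⌋) := by
    have := hV.val Y (Q * x) hy (by rwa [e1])
    rwa [e1] at this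
  have e3 : E Y = Int.fract Y ^ 2 / 2 := by
    rw [← hE.val _ hy, Int.fract]
    simpa using (hE.per.sub_int_mul_eq ⌊Y⌋ (x := Y)).symm
  have e4 : Int.fract Y = Int.fract v + M * Q * x - ((⌊Y⌋ : ℝ) - ⌊v⌋) := by
    rw [Int.fract, Int.fract, hY]; ring
  congr 1
  rw [Wf, e2, e3]
  push_cast
  have e5 : (n : ℝ) / M * Int.fract v + Q * n * x =
      n / M * Int.fract Y + n * ((⌊Y⌋ : ℝ) - ⌊v⌋) / M := by
    rw [e4]; field_simp; ring
  linear_combination -e5

end Inner

theorem inner_of (h1 : IntegralStmt) : InnerStmt := by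
  constructor
  · intro α α' σ u E M Q ψ V lam h k j n θ ha0 ha1 ha0' ha1' hE hM hQ hψ hV hh
    have c1 : Continuous fun y : ℝ => ee (n / M * y) := by fun_prop
    have c2 : Continuous fun y : ℝ => ee (θ * y) := by fun_prop
    have m1 := memLp_fibF α' (k * lam + j + Q * n, k) c1
    have m2 : MemLp (fun x => fibF α (k, j) (fun y => ee (θ * y)) (h.T x)) 2 volume :=
      (memLp_fibF α (k, j) c2).comp_measurePreserving h.mp
    have hi : Integrable (fun x => conj (fibF α' (k * lam + j + Q * n, k)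
        (fun y => ee (n / M * y)) x) * fibF α (k, j) (fun y => ee (θ * y)) (h.T x)) volume :=
      MemLp.integrable_mul m1.star m2
    rw [atom, atom, fib, fib, kp_toL2 h (memLp_fibF α (k, j) c2), inner_toL2 m1 m2, h1 _ hi]
    simp only [Inner.integrand k j n θ hE hM hV hh, intervalIntegral.integral_const_mul,
      Inner.integral_G ha0 ha1 _ _ hM hQ hψ, intervalIntegral.integral_const, sub_zero, one_smul,
      intervalIntegral.integral_mul_const, Inner.integral_indicator_fract ha0' ha1']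
    simp only [Complex.real_smul, mul_one]
    push_cast
    ring
  · intro lam N W h l j hh
    rw [ch, ch, kp_toL2 h (memLp_chF 0 l j)]
    congr 1
    funext t
    obtain ⟨x, rfl⟩ := proj_surjective t
    rw [h.cov, hh, chF_proj, chF_proj]
    congr 1
    simp only [stepF, Matrix.cons_val_zero, Matrix.cons_val_one, Matrix.cons_val]
    push_cast
    ring

end Crest.Agent.R81
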