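import Crest.Agent.R81.Defs

/-!
# Row 81, module Iter

The statement and the recipe are in `R81/Defs.lean` (`IterStmt`).
-/

set_option autoImplicit false

open MeasureTheory Finset Crest.AnalysisR.Torus3 Crest.Agent.R75
open scoped InnerProductSpace ComplexConjugate ContDiff

namespace Crest.Agent.R81

namespace Iter

open Filter Topology

/-- An enumeration of the nonzero triples in which every triple occurs infinitely often. -/
theorem exists_enum : ∃ e : ℕ → ℤ × ℤ × ℤ, (∀ n, e n ≠ (0, 0, 0)) ∧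
    ∀ v : ℤ × ℤ × ℤ, v ≠ (0, 0, 0) → ∀ N : ℕ, ∃ n, N ≤ n ∧ e n = v := by
  classical
  refine ⟨fun n => if Denumerable.ofNat (ℤ × ℤ × ℤ) (Nat.unpair n).1 = (0, 0, 0) then (1, 0, 0)
    else Denumerable.ofNat (ℤ × ℤ × ℤ) (Nat.unpair n).1, fun n => ?_, fun v hv N => ?_⟩
  · dsimp only
    split_ifs with h
    · simp
    · exact h
  · refine ⟨Nat.pair (Encodable.encode v) N, Nat.right_le_pair _ _, ?_⟩
    simp only [Nat.unpair_pair, Denumerable.ofNat_encode, if_neg hv]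

/-- What one step of the construction achieves. -/
structure Step (n : ℕ) (v : ℤ × ℤ × ℤ) (s : St) (η : ℝ) (s' : St) (η' : ℝ) : Prop where
  half : η' ≤ η / 2
  close : TClose n η s'.T s.T
  vec : ‖s'.G - s.G‖ ≤ √s.M.d + η
  d_le : s'.M.d ≤ η ^ 2
  α_le : s'.M.α ≤ η ^ 2
  approx : ∀ (T : TD) (G : L2), TClose 0 (2 * η') T s'.T → ‖G - s'.G‖ ≤ √s'.M.d + 4 * η' →
    ∃ (A : Finset ℤ) (p : ℤ → ℂ),
      ‖ch v.1 v.2.1 v.2.2 - ∑ n ∈ A, p n • kp (T ^ n) G‖ ≤ 7 * η + √(2 * s.M.α)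

theorem exists_step (hM : MacroStmt) (hR : RobustStmt) (hV : VonNeumannStmt) (hS : SpecStmt)
    (n : ℕ) (v : ℤ × ℤ × ℤ) (hv : v ≠ (0, 0, 0)) (s : St) (η : ℝ) (h0 : 0 < η) (h1 : η ≤ 1) :
    ∃ (s' : St) (η' : ℝ), 0 < η' ∧ Step n v s η s' η' := by
  have hη2 : η ^ 2 ≤ η := by nlinarith
  obtain ⟨s', A, p, B, c1, c2, c3, c4, c5, c6, c7⟩ :=
    hM s v.1 v.2.1 v.2.2 n (η ^ 2) hv (by positivity)
  have hB : 0 ≤ B := (norm_nonneg _).trans (c4 0)
  set P : ℝ := ∑ n ∈ A, ‖p n‖ with hP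
  have hP0 : 0 ≤ P := Finset.sum_nonneg fun _ _ => norm_nonneg _
  obtain ⟨δ, hδ, hδ'⟩ := hR s'.T s'.G A (η / (P + 1)) (by positivity)
  refine ⟨s', min (η / 2) (min (δ / 2) (η / (B + 1))), by positivity, min_le_left _ _,
    c1.mono le_rfl hη2, c2.trans (by linarith), c6, c7, fun T G hT hG => ⟨A, p, ?_⟩⟩
  set η' : ℝ := min (η / 2) (min (δ / 2) (η / (B + 1))) with hη'
  have e1 : η' ≤ δ / 2 := (min_le_right _ _).trans (min_le_left _ _)
  have e2 : η' ≤ η / (B + 1) := (min_le_right _ _).trans (min_le_right _ _)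
  have e3 : B * η' ≤ η := by
    calc B * η' ≤ (B + 1) * (η / (B + 1)) :=
          mul_le_mul (by linarith) e2 (by positivity) (by positivity)
      _ = η := by field_simp
  have e4 : B * √s'.M.d ≤ η := by
    refine (pow_le_pow_iff_left₀ (by positivity) h0.le two_ne_zero).1 ?_
    rw [mul_pow, Real.sq_sqrt (hS.d_nonneg _ s'.valid), mul_comm]
    exact c5
  have hT' := hδ' T (hT.mono le_rfl (by linarith))
  have a1 : ‖∑ n ∈ A, p n • kp (s'.T ^ n) s'.G - ∑ n ∈ A, p n • kp (T ^ n) s'.G‖ ≤ η := by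
    rw [← Finset.sum_sub_distrib]
    refine (norm_sum_le _ _).trans ?_
    calc ∑ n ∈ A, ‖p n • kp (s'.T ^ n) s'.G - p n • kp (T ^ n) s'.G‖
        ≤ ∑ n ∈ A, ‖p n‖ * (η / (P + 1)) := by
          refine Finset.sum_le_sum fun n hn => ?_
          rw [← smul_sub, norm_smul, norm_sub_rev]
          exact mul_le_mul_of_nonneg_left (hT' n hn) (norm_nonneg _)
      _ = P * (η / (P + 1)) := by rw [← Finset.sum_mul]
      _ ≤ (P + 1) * (η / (P + 1)) := mul_le_mul_of_nonneg_right (by linarith) (by positivity)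
      _ = η := by field_simp
  have a2 : ‖∑ n ∈ A, p n • kp (T ^ n) s'.G - ∑ n ∈ A, p n • kp (T ^ n) G‖ ≤ 5 * η := by
    have : ∑ n ∈ A, p n • kp (T ^ n) s'.G - ∑ n ∈ A, p n • kp (T ^ n) G =
        ∑ n ∈ A, p n • kp (T ^ n) (s'.G - G) := by
      rw [← Finset.sum_sub_distrib]
      exact Finset.sum_congr rfl fun n _ => by rw [map_sub, smul_sub]
    rw [this]
    refine (hV T A p B _ c4).trans ?_
    rw [norm_sub_rev]
    have := mul_le_mul_of_nonneg_left hG hB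
    nlinarith
  calc ‖ch v.1 v.2.1 v.2.2 - ∑ n ∈ A, p n • kp (T ^ n) G‖
      ≤ ‖ch v.1 v.2.1 v.2.2 - ∑ n ∈ A, p n • kp (s'.T ^ n) s'.G‖ +
        ‖∑ n ∈ A, p n • kp (s'.T ^ n) s'.G - ∑ n ∈ A, p n • kp (T ^ n) G‖ :=
        norm_sub_le_norm_sub_add_norm_sub _ _ _
    _ ≤ ‖ch v.1 v.2.1 v.2.2 - ∑ n ∈ A, p n • kp (s'.T ^ n) s'.G‖ +
        (‖∑ n ∈ A, p n • kp (s'.T ^ n) s'.G - ∑ n ∈ A, p n • kp (T ^ n) s'.G‖ +
        ‖∑ n ∈ A, p n • kp (T ^ n) s'.G - ∑ n ∈ A, p n • kp (T ^ n) G‖) :=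
        add_le_add le_rfl (norm_sub_le_norm_sub_add_norm_sub _ _ _)
    _ ≤ 7 * η + √(2 * s.M.α) := by linarith

theorem exists_seq (hN : Nonempty St) (hM : MacroStmt) (hR : RobustStmt) (hV : VonNeumannStmt)
    (hS : SpecStmt) (e : ℕ → ℤ × ℤ × ℤ) (he : ∀ n, e n ≠ (0, 0, 0)) :
    ∃ (s : ℕ → St) (η : ℕ → ℝ), (∀ n, 0 < η n ∧ η n ≤ 1) ∧
      ∀ n, Step n (e n) (s n) (η n) (s (n + 1)) (η (n + 1)) := by
  obtain ⟨s₀⟩ := hN
  have step : ∀ (n : ℕ) (x : {x : St × ℝ // 0 < x.2 ∧ x.2 ≤ 1}),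
      ∃ y : {x : St × ℝ // 0 < x.2 ∧ x.2 ≤ 1}, Step n (e n) x.1.1 x.1.2 y.1.1 y.1.2 := by
    intro n x
    obtain ⟨s', η', h1, h2⟩ := exists_step hM hR hV hS n (e n) (he n) x.1.1 x.1.2 x.2.1 x.2.2
    exact ⟨⟨(s', η'), h1, by have := h2.half; have := x.2.2; have := x.2.1; dsimp only; linarith⟩,
      h2⟩
  choose f hf using step
  let x : ℕ → {x : St × ℝ // 0 < x.2 ∧ x.2 ≤ 1} := fun n =>
    Nat.rec ⟨(s₀, 1), one_pos, le_rfl⟩ (fun n x => f n x) n
  exact ⟨fun n => (x n).1.1, fun n => (x n).1.2, fun n => (x n).2, fun n => hf n (x n)⟩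

end Iter

open Iter Filter Topology in
theorem iter_stmt : IterStmt := by
  intro hN hM hR hV hL hS
  obtain ⟨e, he, he'⟩ := exists_enum
  obtain ⟨s, η, hη, hst⟩ := exists_seq hN hM hR hV hS e he
  have hgeo : ∀ n k, η (n + k) ≤ η n * (1 / 2) ^ k := by
    intro n k
    induction k with
    | zero => simp
    | succ k ih =>
      have := (hst (n + k)).half
      rw [← add_assoc, pow_succ]
      linarith
  have hgeo0 : ∀ k, η k ≤ (1 / 2) ^ k := fun k => by
    have := hgeo 0 k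
    rw [zero_add] at this
    exact this.trans (mul_le_of_le_one_left (by positivity) (hη 0).2)
  have hsum : Summable η :=
    Summable.of_nonneg_of_le (fun n => (hη n).1.le) hgeo0 summable_geometric_two
  have hη0 : Tendsto η atTop (𝓝 0) := hsum.tendsto_atTop_zero
  obtain ⟨T, hT⟩ := hL (fun n => (s n).T) η hsum fun n => (hst n).close
  have hT2 : ∀ n, TClose 0 (2 * η n) T (s n).T := fun n => by
    refine (hT n).mono le_rfl ?_
    have h1 : Summable fun m => η (n + m) := by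
      simpa only [add_comm n] using (summable_nat_add_iff n).2 hsum
    have h2 := h1.tsum_le_tsum (hgeo n) (summable_geometric_two.mul_left (η n))
    rw [tsum_mul_left, tsum_geometric_two] at h2
    linarith
  have hd : ∀ n, √(s (n + 1)).M.d ≤ η n := fun n =>
    (Real.sqrt_le_sqrt (hst n).d_le).trans (le_of_eq (Real.sqrt_sq (hη n).1.le))
  -- the vectors converge
  have hdist : ∀ n k, dist (s (n + 1 + k)).G (s (n + 1 + (k + 1))).G ≤
      3 / 2 * η n * (1 / 2) ^ k := by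
    intro n k
    rw [dist_comm, dist_eq_norm, ← add_assoc]
    have h1 := (hst (n + 1 + k)).vec
    have h2 := hd (n + k)
    have h3 := (hst (n + k)).half
    have h4 := hgeo n k
    rw [show n + k + 1 = n + 1 + k by omega] at h2 h3
    linarith
  have hcau : CauchySeq fun k => (s (0 + 1 + k)).G :=
    cauchySeq_of_le_geometric (1 / 2) _ (by norm_num) (hdist 0)
  obtain ⟨G, hG0⟩ := cauchySeq_tendsto_of_complete hcau
  have hG : Tendsto (fun k => (s k).G) atTop (𝓝 G) := by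
    rw [← tendsto_add_atTop_iff_nat 1]
    simpa only [zero_add, add_comm 1] using hG0
  have hGn : ∀ n, ‖G - (s (n + 1)).G‖ ≤ 3 * η n := by
    intro n
    have h1 : Tendsto (fun k => (s (n + 1 + k)).G) atTop (𝓝 G) := by
      simpa only [add_comm (n + 1)] using (tendsto_add_atTop_iff_nat (n + 1)).2 hG
    have h2 := dist_le_of_le_geometric_of_tendsto₀ (1 / 2) _ (by norm_num) (hdist n) h1
    rw [dist_comm, dist_eq_norm, add_zero] at h2
    exact h2.trans (le_of_eq (by ring))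
  have hGn' : ∀ n, ‖G - (s n).G‖ ≤ √(s n).M.d + 4 * η n := by
    intro n
    have h1 := norm_sub_le_norm_sub_add_norm_sub G (s (n + 1)).G (s n).G
    have h2 := hGn n
    have h3 := (hst n).vec
    linarith
  refine ⟨T, G, ?_, ?_, fun n => ?_, fun k l j ε hv hε => ?_⟩
  · exact isClosed_isReal.mem_of_tendsto hG
      (Eventually.of_forall fun n => (hS.real_g _ (s n).valid).kp _)
  · have h1 : Tendsto (fun k => ⟪ch 0 0 0, (s k).G⟫_ℂ) atTop (𝓝 ⟪ch 0 0 0, G⟫_ℂ) :=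
      tendsto_const_nhds.inner hG
    have h2 : ∀ k, ⟪ch 0 0 0, (s k).G⟫_ℂ = 0 := fun k => by
      rw [St.G, ← kp_ch_zero (s k).H⁻¹, LinearIsometry.inner_map_map]
      exact hS.mean_g _ (s k).valid
    simp only [h2] at h1
    exact (tendsto_nhds_unique tendsto_const_nhds h1).symm
  · have h1 : Tendsto (fun k => kp ((s k).T ^ n) G) atTop (𝓝 (kp (T ^ n) G)) := by
      rw [Metric.tendsto_atTop]
      intro τ hτ
      obtain ⟨δ, hδ, hδ'⟩ := hR T G {n} (τ / 2) (by positivity)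
      obtain ⟨N, hN⟩ := (Metric.tendsto_atTop.1 hη0) (δ / 2) (by positivity)
      refine ⟨N, fun k hk => ?_⟩
      have h2 := hN k hk
      rw [Real.dist_eq, sub_zero, abs_of_pos (hη k).1] at h2
      have h3 := hδ' _ ((hT2 k).symm.mono le_rfl (by linarith)) n (Finset.mem_singleton_self n)
      rw [dist_eq_norm]
      linarith
    have h2 : Tendsto (fun k => kp ((s k).T ^ n) (s k).G) atTop (𝓝 (kp (T ^ n) G)) := by
      refine h1.congr_dist ?_
      have := tendsto_iff_dist_tendsto_zero.1 hG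
      simpa only [LinearIsometry.dist_map, dist_comm G] using this
    have h3 : Tendsto (fun k => ⟪(s k).G, kp ((s k).T ^ n) (s k).G⟫_ℂ) atTop
        (𝓝 ⟪G, kp (T ^ n) G⟫_ℂ) := hG.inner h2
    have h4 : Tendsto (fun k => ⟪(s k).G, kp ((s k).T ^ n) (s k).G⟫_ℂ) atTop
        (𝓝 (if n = 0 then 1 else 0)) := by
      rw [← tendsto_add_atTop_iff_nat 1, tendsto_iff_norm_sub_tendsto_zero]
      refine squeeze_zero (fun _ => norm_nonneg _) (fun k => ?_) hη0
      rw [St.kp_T_zpow_G, St.G, LinearIsometry.inner_map_map]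
      refine (hS.corr _ _ (s (k + 1)).valid (s (k + 1)).isMap n).trans ((hst k).d_le.trans ?_)
      have := hη k
      nlinarith
    exact tendsto_nhds_unique h3 h4
  · obtain ⟨N, hN⟩ := (Metric.tendsto_atTop.1 hη0) (ε / 9) (by positivity)
    obtain ⟨n, hn, hen⟩ := he' (k, l, j) hv (N + 1)
    obtain ⟨m, rfl⟩ : ∃ m, n = m + 1 := ⟨n - 1, by omega⟩
    obtain ⟨A, p, hp⟩ := (hst (m + 1)).approx T G (hT2 _) (hGn' _)
    rw [hen] at hp
    refine ⟨A, p, hp.trans ?_⟩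
    have h1 := hN m (by omega)
    rw [Real.dist_eq, sub_zero, abs_of_pos (hη m).1] at h1
    have h2 := (hst m).half
    have h3 : √(2 * (s (m + 1)).M.α) ≤ 2 * η m := by
      rw [Real.sqrt_le_left (by have := (hη m).1; positivity)]
      have := (hst m).α_le
      nlinarith [sq_nonneg (η m)]
    have := (hη m).1
    linarith

end Crest.Agent.R81
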