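import Crest.Agent.R81.Defs

/-!
# Row 81, module Limit

The statement and the recipe are in `R81/Defs.lean` (`LimitStmt`).
-/

set_option autoImplicit false

open MeasureTheory Finset Crest.AnalysisR.Torus3 Crest.Agent.R75
open scoped InnerProductSpace ComplexConjugate ContDiff

namespace Crest.Agent.R81

namespace Limit

open Filter Topology

theorem exists_lim (F : ℕ → R3 → R3) (hF : ∀ n, ContDiff ℝ ∞ (F n)) {ε : ℕ → ℝ}
    (hε : Summable ε) (h : ∀ n, CClose n (ε n) (F (n + 1)) (F n)) :
    ∃ G : R3 → R3, ContDiff ℝ ∞ G ∧ ∀ n x, ‖G x - F n x‖ ≤ ∑' m, ε (n + m) := by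
  have h0 : ∀ n x, ‖F (n + 1) x - F n x‖ ≤ ε n := fun n =>
    cclose_zero_iff.1 ((h n).mono (Nat.zero_le n) le_rfl)
  have hs : ∀ x, Summable fun n => F (n + 1) x - F n x := fun x =>
    Summable.of_norm_bounded hε fun n => h0 n x
  refine ⟨fun x => F 0 x + ∑' n, (F (n + 1) x - F n x), (hF 0).add ?_, fun n x => ?_⟩
  · refine contDiff_tsum_of_eventually (N := ⊤) (v := fun _ n => ε n)
      (fun n => (hF (n + 1)).sub (hF n)) (fun _ _ => hε) fun k _ => ?_
    rw [Nat.cofinite_eq_atTop]
    filter_upwards [eventually_ge_atTop k] with n hn x using h n k hn x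
  · have h1 := (hs x).sum_add_tsum_nat_add n
    rw [Finset.sum_range_sub (fun n => F n x)] at h1
    have h2 : F 0 x + ∑' n, (F (n + 1) x - F n x) - F n x =
        ∑' m, (F (m + n + 1) x - F (m + n) x) := by
      rw [← h1]; abel
    rw [h2]
    have h3 : Summable fun m => ε (n + m) := by
      simpa only [add_comm n] using (summable_nat_add_iff n).2 hε
    refine tsum_of_norm_bounded h3.hasSum fun m => ?_
    rw [add_comm n m]
    exact h0 _ x

theorem tendsto_tail (ε : ℕ → ℝ) : Tendsto (fun n => ∑' m, ε (n + m)) atTop (𝓝 0) := by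
  simpa only [add_comm] using tendsto_sum_nat_add ε

theorem tendsto_of_close {F : ℕ → R3 → R3} {G : R3 → R3} {δ : ℕ → ℝ}
    (hδ : Tendsto δ atTop (𝓝 0)) (h : ∀ n x, ‖G x - F n x‖ ≤ δ n) (hG : Continuous G)
    {u : ℕ → R3} {x : R3} (hu : Tendsto u atTop (𝓝 x)) :
    Tendsto (fun n => F n (u n)) atTop (𝓝 (G x)) := by
  have h1 : Tendsto (fun n => G (u n) - F n (u n)) atTop (𝓝 0) :=
    squeeze_zero_norm (fun n => h n _) hδ
  have h2 := ((hG.tendsto x).comp hu).sub h1
  simpa using h2

end Limit

open Filter Topology Limit in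
theorem limit_stmt : LimitStmt := by
  intro T ε hε h
  obtain ⟨F, hF, hFc⟩ := exists_lim (fun n => (T n).F) (fun n => (T n).smooth) hε fun n => (h n).1
  obtain ⟨G, hG, hGc⟩ := exists_lim (fun n => (T n)⁻¹.F) (fun n => (T n)⁻¹.smooth) hε
    fun n => (h n).2
  have hδ := tendsto_tail ε
  have tF : ∀ x, Tendsto (fun n => (T n).F x) atTop (𝓝 (F x)) := fun x =>
    tendsto_of_close hδ hFc hF.continuous tendsto_const_nhds
  have tG : ∀ x, Tendsto (fun n => (T n)⁻¹.F x) atTop (𝓝 (G x)) := fun x =>
    tendsto_of_close hδ hGc hG.continuous tendsto_const_nhds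
  have hFG : ∀ x, F (G x) = x := fun x => by
    have h1 := tendsto_of_close hδ hFc hF.continuous (tG x)
    simp only [TD.inv_F, Equiv.Perm.coe_inv, Equiv.apply_symm_apply] at h1
    exact tendsto_nhds_unique h1 tendsto_const_nhds
  have hGF : ∀ x, G (F x) = x := fun x => by
    have h1 := tendsto_of_close hδ hGc hG.continuous (tF x)
    simp only [TD.inv_F, Equiv.Perm.coe_inv, Equiv.symm_apply_apply] at h1
    exact tendsto_nhds_unique h1 tendsto_const_nhds
  have key : ∀ (H : ℕ → TD) (K : R3 → R3), (∀ x, Tendsto (fun n => (H n).F x) atTop (𝓝 (K x))) →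
      ∀ x y, proj x = proj y → proj (K x) = proj (K y) := fun H K hK x y hxy => by
    have h1 := (continuous_proj.tendsto _).comp (hK x)
    have h2 := (continuous_proj.tendsto _).comp (hK y)
    refine tendsto_nhds_unique h1 (h2.congr fun n => ?_)
    simp only [Function.comp_apply, ← TD.cov, hxy]
  have pF := key T F tF
  have pG := key (fun n => (T n)⁻¹) G tG
  let S : T3 → T3 := fun t => proj (F fun i => rep (t i))
  let S' : T3 → T3 := fun t => proj (G fun i => rep (t i))
  have hS : ∀ x, S (proj x) = proj (F x) := fun x => pF _ _ (proj_rep _)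
  have hS' : ∀ x, S' (proj x) = proj (G x) := fun x => pG _ _ (proj_rep _)
  have hSc : Continuous S := by
    rw [isOpenQuotientMap_proj.isQuotientMap.continuous_iff]
    have : S ∘ proj = proj ∘ F := funext hS
    rw [this]
    exact continuous_proj.comp hF.continuous
  have tS : ∀ t, Tendsto (fun n => (T n).T t) atTop (𝓝 (S t)) := fun t => by
    obtain ⟨x, rfl⟩ := proj_surjective t
    rw [hS]
    exact ((continuous_proj.tendsto _).comp (tF x)).congr fun n => ((T n).cov x).symm
  have hmp : MeasurePreserving S volume volume := by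
    refine ⟨hSc.measurable, ?_⟩
    have : IsProbabilityMeasure (Measure.map S (volume : Measure T3)) :=
      Measure.isProbabilityMeasure_map hSc.measurable.aemeasurable
    refine ext_of_forall_integral_eq_of_IsFiniteMeasure fun φ => ?_
    rw [integral_map hSc.measurable.aemeasurable φ.continuous.aestronglyMeasurable]
    have h1 : Tendsto (fun n => ∫ t, φ ((T n).T t)) atTop (𝓝 (∫ t, φ (S t))) :=
      tendsto_integral_of_dominated_convergence (fun _ => ‖φ‖)
        (fun n => (φ.continuous.comp (T n).continuous_T).aestronglyMeasurable)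
        (integrable_const _) (fun n => Eventually.of_forall fun t => φ.norm_coe_le_norm _)
        (Eventually.of_forall fun t => (φ.continuous.tendsto _).comp (tS t))
    have h2 : ∀ n, ∫ t, φ ((T n).T t) = ∫ t, φ t := fun n => by
      rw [← integral_map (T n).mp.measurable.aemeasurable φ.continuous.aestronglyMeasurable,
        (T n).mp.map_eq]
    simp only [h2] at h1
    exact (tendsto_nhds_unique tendsto_const_nhds h1).symm
  refine ⟨⟨⟨F, G, hGF, hFG⟩, ⟨S, S', fun t => ?_, fun t => ?_⟩, hF, hG, hS, hmp⟩, fun n =>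
    ⟨cclose_zero_iff.2 (hFc n), cclose_zero_iff.2 (hGc n)⟩⟩
  · obtain ⟨x, rfl⟩ := proj_surjective t
    rw [hS, hS', hGF]
  · obtain ⟨x, rfl⟩ := proj_surjective t
    rw [hS', hS, hFG]

end Crest.Agent.R81
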