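import Crest.Agent.R81.Defs

/-!
# Row 81, module Macro

The statement and the recipe are in `R81/Defs.lean` (`MacroStmt`).
-/

set_option autoImplicit false

open MeasureTheory Finset Crest.AnalysisR.Torus3 Crest.Agent.R75
open scoped InnerProductSpace ComplexConjugate ContDiff

namespace Crest.Agent.R81

namespace Macro

theorem divClosed_union {G G' : Finset (ℤ × ℤ)} (h : DivClosed G) (h' : DivClosed G') :
    DivClosed (G ∪ G') := fun m hm b m' e => by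
  rcases Finset.mem_union.1 hm with h1 | h1
  · exact Finset.mem_union_left _ (h m h1 b m' e)
  · exact Finset.mem_union_right _ (h' m h1 b m' e)

theorem abs_le_abs_mul {b x : ℤ} (hb : b ≠ 0) : |x| ≤ |b * x| := by
  rw [abs_mul]
  exact le_mul_of_one_le_left (abs_nonneg _) (Int.one_le_abs hb)

/-- The modes `(k, j)` with `1 ≤ |k| ≤ K`, `|j| ≤ K`. -/
noncomputable def box (K : ℤ) : Finset (ℤ × ℤ) := ((Icc (-K) K).erase 0) ×ˢ Icc (-K) K

theorem mem_box {K : ℤ} {m : ℤ × ℤ} : m ∈ box K ↔ m.1 ≠ 0 ∧ |m.1| ≤ K ∧ |m.2| ≤ K := by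
  simp only [box, Finset.mem_product, Finset.mem_erase, Finset.mem_Icc, abs_le, and_assoc]

theorem divClosed_box (K : ℤ) : DivClosed (box K) := fun m hm b m' e => by
  rw [mem_box] at hm ⊢
  have e1 : m.1 = b * m'.1 := by rw [e]; rfl
  have e2 : m.2 = b * m'.2 := by rw [e]; rfl
  have hb : b ≠ 0 := fun h => hm.1 (by rw [e1, h, zero_mul])
  refine ⟨fun h => hm.1 (by rw [e1, h, mul_zero]), ?_, ?_⟩
  · exact (abs_le_abs_mul hb).trans (e1 ▸ hm.2.1)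
  · exact (abs_le_abs_mul hb).trans (e2 ▸ hm.2.2)

theorem mem_axis {C : ℕ} {m : ℤ × ℤ} : m ∈ axis C ↔ m.1 ≠ 0 ∧ |m.1| ≤ C ∧ m.2 = 0 := by
  simp only [axis, Finset.mem_image, Finset.mem_erase, Finset.mem_Icc, abs_le]
  constructor
  · rintro ⟨c, ⟨h1, h2⟩, rfl⟩
    exact ⟨h1, h2, rfl⟩
  · rintro ⟨h1, h2, h3⟩
    exact ⟨m.1, ⟨h1, h2⟩, Prod.ext rfl h3.symm⟩

theorem divClosed_axis (C : ℕ) : DivClosed (axis C) := fun m hm b m' e => by
  rw [mem_axis] at hm ⊢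
  have e1 : m.1 = b * m'.1 := by rw [e]; rfl
  have e2 : m.2 = b * m'.2 := by rw [e]; rfl
  have hb : b ≠ 0 := fun h => hm.1 (by rw [e1, h, zero_mul])
  refine ⟨fun h => hm.1 (by rw [e1, h, mul_zero]), (abs_le_abs_mul hb).trans (e1 ▸ hm.2.1), ?_⟩
  exact (mul_eq_zero.1 (e2 ▸ hm.2.2)).resolve_left hb

/-- A plain step: no new modes. -/
theorem stepHyp_plain {M : Model} (hM : M.Valid) {Q : Finset (ℤ × ℤ)} (hk : ∀ m ∈ Q, m.1 ≠ 0)
    (hQ : DivClosed (M.G ∪ Q)) : StepHyp M ∅ (Q \ M.G) where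
  k_ne m hm := hk m (Finset.mem_sdiff.1 (by simpa using hm)).1
  div₁ := by simpa using hM.div
  div₂ := by simpa using hQ
  disj := by simpa using Finset.sdiff_disjoint
  ndvd m hm := by simp at hm
  uniq m hm := by simp at hm
  small m hm := by simp at hm

theorem subset_plain (G Q : Finset (ℤ × ℤ)) : G ∪ Q ⊆ G ∪ ∅ ∪ (Q \ G) := by
  simp

theorem norm_kp_sub (h : TD) (f g : L2) : ‖kp h f - kp h g‖ = ‖f - g‖ := by
  rw [← map_sub, LinearIsometry.norm_map]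

theorem norm_sub_kp_inv (h : TD) (f g : L2) : ‖f - kp h⁻¹ g‖ = ‖kp h f - g‖ := by
  rw [← norm_kp_sub h, kp_kp_inv]

/-- First reduction: the character composed with `H` is close to a vertical part plus atoms. -/
theorem approx_char (h3 : CutStmt) (h4 : DenseStmt) (h5 : FibStmt) (H : TD) (α : ℝ) (h0 : 0 ≤ α)
    (h1 : α ≤ 1 / 2) (k l j : ℤ) (hne : (k, l, j) ≠ (0, 0, 0)) (ε : ℝ) (hε : 0 < ε) :
    ∃ (K : ℤ) (v₀ v₁ : L2), v₀ ∈ vertSpan ∧ v₁ ∈ atomSpan α (box K) ∧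
      ‖kp H (ch k l j) - (v₁ + v₀)‖ ≤ 2 * ε + √(2 * α) := by
  have hmean : ⟪ch 0 0 0, kp H (ch k l j)⟫_ℂ = 0 := by
    rw [← kp_ch_zero H, LinearIsometry.inner_map_map, h5.inner_ch, if_neg hne.symm]
  have hbd : ∀ᵐ x, ‖kp H (ch k l j) x‖ ≤ 1 := by
    filter_upwards [coeFn_kp H (ch k l j),
      H.mp.quasiMeasurePreserving.ae_eq_comp (coeFn_ch k l j)] with x e1 e2
    rw [e1]
    have : ch k l j (H.T x) = chF k l j (H.T x) := e2
    rw [this, norm_chF]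
  obtain ⟨A, a, hA, ha⟩ := h4 _ ε hmean hε
  have hc := h3 α _ A a h0 h1 hbd
  refine ⟨∑ p ∈ A, (|p.1| + |p.2.2|), ∑ p ∈ A.filter (fun p => ¬ p.1 ≠ 0), a p • ch p.1 p.2.1 p.2.2,
    ∑ p ∈ A.filter (fun p => p.1 ≠ 0), a p • atom α (p.1, p.2.2) p.2.1, ?_, ?_, ?_⟩
  · refine Submodule.sum_mem _ fun p hp => Submodule.smul_mem _ _ (Submodule.subset_span ?_)
    obtain ⟨hp1, hp2⟩ := Finset.mem_filter.1 hp
    have hp3 : p.1 = 0 := not_not.1 hp2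
    refine ⟨p.2.1, p.2.2, fun e => hA ?_, by rw [hp3]⟩
    have : p = (0, 0, 0) := Prod.ext hp3 e
    exact this ▸ hp1
  · refine Submodule.sum_mem _ fun p hp => Submodule.smul_mem _ _ (atom_mem_atomSpan α ?_ _)
    obtain ⟨hp1, hp2⟩ := Finset.mem_filter.1 hp
    have := Finset.single_le_sum (f := fun p : ℤ × ℤ × ℤ => |p.1| + |p.2.2|)
      (fun q _ => add_nonneg (abs_nonneg _) (abs_nonneg _)) hp1
    rw [mem_box]
    refine ⟨hp2, le_trans ?_ this, le_trans ?_ this⟩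
    · exact le_add_of_nonneg_right (abs_nonneg _)
    · exact le_add_of_nonneg_left (abs_nonneg _)
  · have e : kp H (ch k l j) -
        (∑ p ∈ A.filter (fun p => p.1 ≠ 0), a p • atom α (p.1, p.2.2) p.2.1 +
          ∑ p ∈ A.filter (fun p => ¬ p.1 ≠ 0), a p • ch p.1 p.2.1 p.2.2) =
        (kp H (ch k l j) - ∑ p ∈ A, a p • ch p.1 p.2.1 p.2.2) +
          ∑ p ∈ A.filter (fun p => p.1 ≠ 0),
            a p • (ch p.1 p.2.1 p.2.2 - atom α (p.1, p.2.2) p.2.1) := by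
      rw [← Finset.sum_filter_add_sum_filter_not A (fun p => p.1 ≠ 0)
        (fun p => a p • ch p.1 p.2.1 p.2.2)]
      simp only [smul_sub, Finset.sum_sub_distrib]
      abel
    rw [e]
    refine (norm_add_le _ _).trans ?_
    linarith

end Macro

open Macro in
theorem macro_of (h1 : StepVecStmt) (h2 : ApproxStmt) (h3 : CutStmt) (h4 : DenseStmt) (h5 : FibStmt) : MacroStmt := by
  intro s k l j r ε hne hε
  obtain ⟨e, he, he1, he2⟩ : ∃ e : ℝ, 0 < e ∧ e ≤ ε / 10 ∧ √e ≤ ε / 4 := by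
    refine ⟨min (ε / 10) ((ε / 4) ^ 2), lt_min (by positivity) (by positivity), min_le_left _ _, ?_⟩
    rw [Real.sqrt_le_left (by positivity)]
    exact min_le_right _ _
  obtain ⟨K, v₀, v₁, hv₀, hv₁, hφ⟩ := approx_char h3 h4 h5 s.H s.M.α s.valid.α_pos.le
    (by linarith [s.valid.α_lt]) k l j hne e he
  obtain ⟨k₁, S₁, M₁, P₁, B₁, w₁, C₁, V₁, I₁, Q₁, -, d₁, -, g₁, c₁, -, -, ⟨u₁, hu₁, f₁⟩,
    ⟨u₂, hu₂, f₂⟩⟩ := h1 s.H s.S s.M ∅ (box K \ s.M.G) 0 v₁ v₀ r e s.valid s.isMap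
    (stepHyp_plain s.valid (fun m hm => (mem_box.1 hm).1)
      (divClosed_union s.valid.div (divClosed_box K))) (Submodule.zero_mem _)
    (atomSpan_mono _ (Finset.subset_union_right.trans (subset_plain _ _)) hv₁) hv₀ he
  obtain ⟨k₂, S₂, M₂, P₂, B₂, w₂, C₂, V₂, I₂, Q₂, -, d₂, -, g₂, c₂, -, -, ⟨u₃, hu₃, f₃⟩, -⟩ :=
    h1 (s.H * k₁) S₁ M₁ ∅ ((P₁ ∪ axis C₁) \ M₁.G) 0 (u₁ + u₂) 0 r e V₁ I₁
    (stepHyp_plain V₁ (fun m hm => (Finset.mem_union.1 hm).elim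
        (fun h => Q₁.k_ne m (Finset.mem_union_left _ h)) fun h => (mem_axis.1 h).1)
      (by rw [← Finset.union_assoc]; exact divClosed_union Q₁.div₁ (divClosed_axis C₁)))
    (Submodule.zero_mem _)
    (Submodule.add_mem _
      (atomSpan_mono _ ((Finset.union_subset_union_right Finset.subset_union_left).trans
        (subset_plain _ _)) hu₁)
      (atomSpan_mono _ ((Finset.subset_union_right.trans Finset.subset_union_right).trans
        (subset_plain _ _)) hu₂)) (Submodule.zero_mem _) he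
  obtain ⟨k₃, S₃, M₃, P₃, B, w, C₃, V₃, I₃, -, dB, d₃, a₃, g₃, c₃, f₄, hB, -, -⟩ :=
    h1 (s.H * k₁ * k₂) S₂ M₂ P₂ ∅ u₃ 0 0 r e V₂ I₂ Q₂ hu₃ (Submodule.zero_mem _)
    (Submodule.zero_mem _) he
  obtain ⟨A, p, hp, f₅⟩ := h2 M₃ S₃ w e V₃ I₃ he
  refine ⟨⟨s.H * k₁ * k₂ * k₃, S₃, M₃, V₃, I₃⟩, A, p, B, ?_, ?_, ?_, fun t => (hp t).trans hB,
    by dsimp only; linarith, by dsimp only; linarith, by dsimp only; linarith⟩
  · exact ((c₃.trans c₂).trans c₁).mono le_rfl (by linarith)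
  · have e1 : kp (s.H * k₁ * k₂ * k₃) (kp s.H⁻¹ s.M.g) = kp k₃ (kp k₂ (kp k₁ s.M.g)) := by
      rw [kp_mul, kp_mul, kp_mul, kp_kp_inv]
    have e2 : M₃.g - kp k₃ (kp k₂ (kp k₁ s.M.g)) = (M₃.g - kp k₃ M₂.g) +
        (kp k₃ M₂.g - kp k₃ (kp k₂ M₁.g)) +
        (kp k₃ (kp k₂ M₁.g) - kp k₃ (kp k₂ (kp k₁ s.M.g))) := by abel
    have s₁ := (Real.sqrt_le_sqrt d₁).trans he2
    have s₂ := (Real.sqrt_le_sqrt d₂).trans he2
    simp only [St.G]
    rw [norm_sub_rev, norm_sub_kp_inv, e1, norm_sub_rev, e2]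
    refine norm_add₃_le.trans ?_
    rw [norm_kp_sub, norm_kp_sub, norm_kp_sub]
    linarith
  · simp only [St.kp_T_zpow_G]
    have e0 : ∑ n ∈ A, p n • kp (s.H * k₁ * k₂ * k₃)⁻¹ (kp (S₃ ^ n) M₃.g) =
        kp (s.H * k₁ * k₂ * k₃)⁻¹ (∑ n ∈ A, p n • kp (S₃ ^ n) M₃.g) := by
      simp only [map_sum, map_smul]
    rw [e0, norm_sub_kp_inv, kp_mul, kp_mul, kp_mul]
    set φ := kp s.H (ch k l j)
    set X := ∑ n ∈ A, p n • kp (S₃ ^ n) M₃.g
    set Y := ∑ m' ∈ M₃.G, (w m' * M₃.c m') • atom M₃.α m' (M₃.θ m')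
    have t1 : ‖kp k₁ φ - (u₁ + u₂)‖ ≤ 4 * e + √(2 * s.M.α) := by
      have e2 : kp k₁ φ - (u₁ + u₂) = (kp k₁ φ - kp k₁ (v₁ + v₀)) + (kp k₁ v₁ - u₁) +
          (kp k₁ v₀ - u₂) := by rw [map_add]; abel
      rw [e2]
      refine norm_add₃_le.trans ?_
      rw [norm_kp_sub]
      linarith
    have t2 : ‖kp k₂ (kp k₁ φ) - u₃‖ ≤ 5 * e + √(2 * s.M.α) := by
      rw [← sub_add_sub_cancel _ (kp k₂ (u₁ + u₂))]
      refine (norm_add_le _ _).trans ?_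
      rw [norm_kp_sub]
      linarith
    have e3 : kp k₃ (kp k₂ (kp k₁ φ)) - X = (kp k₃ (kp k₂ (kp k₁ φ)) - kp k₃ u₃) +
        (kp k₃ u₃ - Y) + (Y - X) := by abel
    rw [e3]
    refine norm_add₃_le.trans ?_
    rw [norm_kp_sub, norm_sub_rev Y]
    linarith

end Crest.Agent.R81
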