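import Crest.Agent.R81.Defs

/-!
# Row 81, module Maps

The statement and the recipe are in `R81/Defs.lean` (`MapsStmt`).
-/

set_option autoImplicit false

open MeasureTheory Finset Crest.AnalysisR.Torus3 Crest.Agent.R75
open scoped InnerProductSpace ComplexConjugate ContDiff

namespace Crest.Agent.R81

namespace Maps

open Function

/-- A shear of a product of additive groups. -/
def shearEquiv {G : Type*} [AddGroup G] (i : Fin 3) (f : (Fin 3 → G) → G)
    (hi : ∀ x a, f (update x i a) = f x) : Equiv.Perm (Fin 3 → G) where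
  toFun x := update x i (x i + f x)
  invFun x := update x i (x i - f x)
  left_inv x := by simp [hi]
  right_inv x := by simp [hi]

theorem mp_shear (i : Fin 3) (φ : T3 → UnitAddCircle) (hφ : Measurable φ)
    (hi : ∀ x a, φ (update x i a) = φ x) :
    MeasurePreserving (fun x : T3 => update x i (x i + φ x)) volume volume := by
  have hm : Measurable (fun x : T3 => update x i (x i + φ x)) :=
    measurable_update'.comp (measurable_id.prodMk ((measurable_pi_apply i).add hφ))
  refine ⟨hm, Measure.ext_of_lintegral _ fun g hg => ?_⟩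
  rw [lintegral_map hg hm]
  refine lintegral_eq_of_lmarginal_eq (μ := fun _ : Fin 3 => (volume : Measure UnitAddCircle)) {i}
    (hg.comp hm) hg ?_
  rw [lmarginal_singleton, lmarginal_singleton]
  funext x
  simp only [update_self, update_idem, hi]
  exact lintegral_add_right_eq_self (fun a => g (update x i a)) (φ x)

theorem exists_shear (i : Fin 3) (f : R3 → ℝ) (hf : ContDiff ℝ ∞ f)
    (hi : ∀ x a, f (update x i a) = f x)
    (hz : ∀ (x : R3) (n : Fin 3 → ℤ), ∃ k : ℤ, f (x + fun j => (n j : ℝ)) - f x = k) :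
    ∃ H : TD, ∀ x, H.F x = update x i (x i + f x) := by
  set φ : T3 → UnitAddCircle := fun t => ((f (fun j => rep (t j)) : ℝ) : UnitAddCircle) with hφ
  have hφi : ∀ x a, φ (update x i a) = φ x := by
    intro x a
    have : (fun j => rep (update x i a j)) = update (fun j => rep (x j)) i (rep a) := by
      funext j
      by_cases h : j = i
      · subst h; simp
      · simp [h]
    simp only [hφ, this, hi]
  have hφp : ∀ x, φ (proj x) = ((f x : ℝ) : UnitAddCircle) := by
    intro x
    have e : (fun j => rep (proj x j)) = x + fun j => ((-⌊x j⌋ : ℤ) : ℝ) := by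
      funext j
      simp only [rep_proj, Pi.add_apply, Int.fract]
      push_cast; ring
    simp only [hφ, e]
    exact (coe_eq_coe_iff _ _).2 (hz x _)
  have hφm : Measurable φ :=
    AddCircle.measurable_mk'.comp (hf.continuous.measurable.comp (by fun_prop))
  have hs : ∀ g : R3 → ℝ, ContDiff ℝ ∞ g → ContDiff ℝ ∞ (fun x : R3 => update x i (g x)) := by
    intro g hg
    refine contDiff_pi.2 fun j => ?_
    by_cases h : j = i
    · subst h; simpa using hg
    · simp only [update_of_ne h]; exact contDiff_apply ℝ ℝ j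
  refine ⟨⟨shearEquiv i f hi, shearEquiv i φ hφi, hs _ ((contDiff_apply ℝ ℝ i).add hf),
    hs _ ((contDiff_apply ℝ ℝ i).sub hf), fun x => ?_, mp_shear i φ hφm hφi⟩, fun x => rfl⟩
  change update (proj x) i (proj x i + φ (proj x)) = proj (update x i (x i + f x))
  rw [hφp]
  funext j
  by_cases h : j = i
  · subst h; simp [proj]
  · simp [proj, h]

/-- Permuting the coordinates. -/
def permEquiv {G : Type*} (e : Equiv.Perm (Fin 3)) : Equiv.Perm (Fin 3 → G) where
  toFun x := fun j => x (e j)
  invFun x := fun j => x (e.symm j)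
  left_inv x := by simp
  right_inv x := by simp

theorem exists_perm (e : Equiv.Perm (Fin 3)) : ∃ H : TD, ∀ x, H.F x = fun j => x (e j) := by
  have hm : Measurable (fun (x : T3) (j : Fin 3) => x (e j)) := by fun_prop
  refine ⟨⟨permEquiv e, permEquiv e, contDiff_pi.2 fun j => contDiff_apply ℝ ℝ (e j),
    contDiff_pi.2 fun j => contDiff_apply ℝ ℝ (e.symm j), fun x => rfl, hm, ?_⟩, fun x => rfl⟩
  refine (Measure.pi_eq (μ := fun _ : Fin 3 => (volume : Measure UnitAddCircle)) fun s hs => ?_).symm
  change (Measure.map (fun (x : T3) (j : Fin 3) => x (e j)) volume) _ = _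
  rw [Measure.map_apply hm (MeasurableSet.univ_pi hs)]
  have : (fun (x : T3) (j : Fin 3) => x (e j)) ⁻¹' Set.univ.pi s =
      Set.univ.pi fun j => s (e.symm j) := by
    ext x
    simp only [Set.mem_preimage, Set.mem_univ_pi]
    exact ⟨fun h j => by simpa using h (e.symm j), fun h j => by simpa using h (e j)⟩
  rw [this, volume_pi_pi]
  exact Equiv.prod_comp e.symm fun j => volume (s j)

theorem per2_int {W : ℝ → ℝ → ℝ} (hW : Per2 W) (a b : ℝ) (m n : ℤ) : W (a + m) (b + n) = W a b := by
  have h1 : Function.Periodic (fun Y => W Y (b + n)) 1 := fun Y => hW.per₁ Y _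
  have h2 : Function.Periodic (W a) 1 := fun Y => hW.per₂ a Y
  have e1 := h1.int_mul m a
  have e2 := h2.int_mul n b
  simp only [mul_one] at e1 e2
  rw [e1, e2]

end Maps

open Maps Function in
theorem maps_stmt : MapsStmt where
  model M hE hper := by
    have hd : ContDiff ℝ ∞ (deriv M.E) := by simpa using hE.iterate_deriv 1
    have hp : Function.Periodic (deriv M.E) 1 := fun y => by
      rw [← deriv_comp_add_const, funext hper]
    obtain ⟨S0, h0⟩ := exists_shear 0 (fun x => M.dbar + M.σ * deriv M.E (x 1))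
      (contDiff_const.add (contDiff_const.mul (hd.comp (contDiff_apply ℝ ℝ 1))))
      (fun x a => by simp) (fun x n => ⟨0, by
        have := hp.int_mul (n 1) (x 1)
        simp only [mul_one] at this
        simp [this]⟩)
    obtain ⟨S1, h1⟩ := exists_shear 1 (fun _ => (M.b : ℝ)) contDiff_const (fun _ _ => rfl)
      (fun _ _ => ⟨0, by simp⟩)
    obtain ⟨S2, h2⟩ := exists_shear 2 (fun _ => M.γ) contDiff_const (fun _ _ => rfl)
      (fun _ _ => ⟨0, by simp⟩)
    refine ⟨S2 * S1 * S0, fun x => ?_⟩
    simp only [TD.mul_F, Equiv.Perm.mul_apply, h0, h1, h2]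
    funext j
    fin_cases j <;> simp [add_assoc]
  step lam N W hW := by
    obtain ⟨S1, h1⟩ := exists_shear 1 (fun x => (N : ℝ) * x 0)
      (contDiff_const.mul (contDiff_apply ℝ ℝ 0)) (fun x a => by simp)
      (fun x n => ⟨N * n 0, by simp only [Pi.add_apply]; push_cast; ring⟩)
    obtain ⟨S2, h2⟩ := exists_shear 2 (fun x => (lam : ℝ) * x 0 + W (x 1) (x 0))
      ((contDiff_const.mul (contDiff_apply ℝ ℝ 0)).add
        (hW.smooth.comp ((contDiff_apply ℝ ℝ 1).prodMk (contDiff_apply ℝ ℝ 0))))
      (fun x a => by simp)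
      (fun x n => ⟨lam * n 0, by simp only [Pi.add_apply, per2_int hW]; push_cast; ring⟩)
    obtain ⟨S3, h3⟩ := exists_perm (Equiv.swap 0 2)
    refine ⟨S3 * S2 * S1, fun x => ?_⟩
    simp only [TD.mul_F, Equiv.Perm.mul_apply, h1, h2, h3, stepF]
    funext j
    fin_cases j <;> simp [add_assoc, Equiv.swap_apply_of_ne_of_ne]

end Crest.Agent.R81
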