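import Crest.Agent.R81.Defs

/-!
# Row 81, module Proj

The statement and the recipe are in `R81/Defs.lean` (`ProjStmt`).
-/

set_option autoImplicit false

open MeasureTheory Finset Crest.AnalysisR.Torus3 Crest.Agent.R75
open scoped InnerProductSpace ComplexConjugate ContDiff

namespace Crest.Agent.R81

namespace Proj

theorem inner_atom_atom (h2 : FibStmt) {α : ℝ} (h0 : 0 ≤ α) (h1 : α ≤ 1 / 2) (m m' : ℤ × ℤ)
    (θ θ' : ℝ) (h : m = m' → θ = θ') :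
    ⟪atom α m θ, atom α m' θ'⟫_ℂ = if m = m' then ((1 - 2 * α : ℝ) : ℂ) else 0 := by
  rw [atom, atom, h2.inner_fib α m m' _ _ h0 h1 (by fun_prop) (by fun_prop)]
  split_ifs with hm
  · simp only [h hm, ← ee_neg, ← ee_add, neg_add_cancel, ee_zero, intervalIntegral.integral_const,
      Complex.real_smul, mul_one]
    congr 1
    ring
  · rfl

theorem norm_sub_sum_sq {ι : Type*} [DecidableEq ι] (A : Finset ι) (a : ι → L2) (v : L2)
    (w : ι → ℂ) (c : ℝ) (ha : ∀ i ∈ A, ∀ j ∈ A, ⟪a i, a j⟫_ℂ = if i = j then (c : ℂ) else 0)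
    (hv : ∀ i ∈ A, ⟪a i, v⟫_ℂ = c * w i) :
    ‖v - ∑ i ∈ A, w i • a i‖ ^ 2 = ‖v‖ ^ 2 - c * ∑ i ∈ A, ‖w i‖ ^ 2 := by
  have e1 : ⟪∑ i ∈ A, w i • a i, v⟫_ℂ = ((c * ∑ i ∈ A, ‖w i‖ ^ 2 : ℝ) : ℂ) := by
    rw [sum_inner]
    push_cast
    rw [Finset.mul_sum]
    refine Finset.sum_congr rfl fun i hi => ?_
    rw [inner_smul_left, hv i hi, ← Complex.conj_mul']
    ring
  have e2 : ⟪∑ i ∈ A, w i • a i, ∑ i ∈ A, w i • a i⟫_ℂ = ((c * ∑ i ∈ A, ‖w i‖ ^ 2 : ℝ) : ℂ) := by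
    rw [sum_inner]
    push_cast
    rw [Finset.mul_sum]
    refine Finset.sum_congr rfl fun i hi => ?_
    rw [inner_smul_left, inner_sum, Finset.sum_eq_single_of_mem i hi
      (fun j hj hji => by rw [inner_smul_right, ha i hi j hj, if_neg hji.symm, mul_zero]),
      inner_smul_right, ha i hi i hi, if_pos rfl, ← Complex.conj_mul']
    ring
  have e3 : ‖∑ i ∈ A, w i • a i‖ ^ 2 = c * ∑ i ∈ A, ‖w i‖ ^ 2 := by
    rw [← inner_self_eq_norm_sq (𝕜 := ℂ), e2]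
    exact Complex.ofReal_re _
  rw [norm_sub_rev, norm_sub_sq (𝕜 := ℂ), e1, e3]
  simp only [RCLike.re_to_complex, Complex.ofReal_re]
  ring

end Proj

theorem proj_of (h1 : InnerStmt) (h2 : FibStmt) : ProjStmt := by
  intro α α' σ u E M Q ψ V lam h m θ A ha0 ha1 ha0' ha1' hE hM hQ hψ hV hh hm
  have hn : ‖kp h (atom α m θ)‖ ^ 2 = 1 - 2 * α := by
    rw [LinearIsometry.norm_map, ← inner_self_eq_norm_sq (𝕜 := ℂ),
      Proj.inner_atom_atom h2 ha0.le (by linarith) m m θ θ fun _ => rfl, if_pos rfl]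
    exact Complex.ofReal_re _
  have hinj : ∀ ν ν' : ℤ, desc lam Q (m, ν) = desc lam Q (m, ν') ↔ ν = ν' := by
    intro ν ν'
    refine ⟨fun e => ?_, fun e => by rw [e]⟩
    have e1 := congrArg Prod.fst e
    simp only [desc, add_right_inj] at e1
    exact mul_left_cancel₀ (mul_ne_zero (by exact_mod_cast hQ.ne') hm) e1
  rw [Proj.norm_sub_sum_sq A _ _ _ (1 - 2 * α') (fun ν _ ν' _ => ?_) (fun ν _ => ?_), hn]
  · rw [Proj.inner_atom_atom h2 ha0'.le (by linarith) _ _ _ _ fun e => by rw [(hinj ν ν').1 e]]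
    simp only [hinj]
  · have := h1.inner_atom α α' σ u E M Q ψ V lam h m.1 m.2 (m.1 * ν) θ ha0 ha1 ha0' ha1' hE hM
      hQ hψ hV hh
    rw [Int.cast_mul, ← mul_assoc (Q : ℤ)] at this
    rw [wgt, ← mul_assoc]
    exact this

end Crest.Agent.R81
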