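import Crest.Agent.R81.Defs

/-!
# Row 81, module Robust

The statement and the recipe are in `R81/Defs.lean` (`RobustStmt`).
-/

set_option autoImplicit false

open MeasureTheory Finset Crest.AnalysisR.Torus3 Crest.Agent.R75
open scoped InnerProductSpace ComplexConjugate ContDiff

namespace Crest.Agent.R81

namespace Robust

theorem one_step (T₀ : TD) (f : L2) (ε : ℝ) (hε : 0 < ε) : ∃ δ : ℝ, 0 < δ ∧ ∀ T' : TD,
    CClose 0 δ T'.F T₀.F → ‖kp T' f - kp T₀ f‖ ≤ ε := by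
  obtain ⟨φ, hφ⟩ := Metric.denseRange_iff.1
    (ContinuousMap.toLp_denseRange ℂ (volume : Measure T3) ℂ (p := 2) (by simp)) f (ε / 3)
    (by positivity)
  obtain ⟨δ, hδ, hu⟩ := Metric.uniformContinuous_iff_le.1
    (CompactSpace.uniformContinuous_of_continuous φ.continuous) (ε / 3) (by positivity)
  refine ⟨δ, hδ, fun T' h => ?_⟩
  set g : L2 := ContinuousMap.toLp 2 (volume : Measure T3) ℂ φ with hg
  have hgc : g =ᵐ[volume] φ := ContinuousMap.coeFn_toLp _ φ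
  have h1 : ‖kp T' g - kp T₀ g‖ ≤ ε / 3 := by
    refine (Lp.norm_le_of_ae_bound (C := ε / 3) (by positivity) ?_).trans (by simp [measureUnivNNReal])
    filter_upwards [Lp.coeFn_sub (kp T' g) (kp T₀ g), coeFn_kp T' g, coeFn_kp T₀ g,
      T'.mp.quasiMeasurePreserving.ae_eq_comp hgc, T₀.mp.quasiMeasurePreserving.ae_eq_comp hgc]
      with x e1 e2 e3 e4 e5
    rw [e1, Pi.sub_apply, e2, e3]
    rw [Function.comp_apply, Function.comp_apply] at e4 e5
    rw [e4, e5, ← dist_eq_norm]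
    obtain ⟨y, rfl⟩ := proj_surjective x
    rw [T'.cov, T₀.cov]
    exact hu ((dist_proj_le _ _).trans (cclose_zero_iff.1 h y))
  have h2 : ∀ T : TD, ‖kp T f - kp T g‖ ≤ ε / 3 := fun T => by
    rw [← map_sub, LinearIsometry.norm_map, ← dist_eq_norm]
    exact hφ.le
  calc ‖kp T' f - kp T₀ f‖
      = ‖(kp T' f - kp T' g) + (kp T' g - kp T₀ g) - (kp T₀ f - kp T₀ g)‖ := by
        congr 1; abel
    _ ≤ ε / 3 + ε / 3 + ε / 3 :=
        (norm_sub_le _ _).trans (add_le_add ((norm_add_le _ _).trans (add_le_add (h2 _) h1)) (h2 _))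
    _ = ε := by ring

theorem pow_step (T₀ : TD) (n : ℕ) : ∀ (f : L2) (ε : ℝ), 0 < ε → ∃ δ : ℝ, 0 < δ ∧ ∀ T' : TD,
    CClose 0 δ T'.F T₀.F → ‖kp (T' ^ n) f - kp (T₀ ^ n) f‖ ≤ ε := by
  induction n with
  | zero => exact fun f ε hε => ⟨1, one_pos, fun T' _ => by simpa using hε.le⟩
  | succ n ih =>
    intro f ε hε
    obtain ⟨δ₁, h1, k1⟩ := one_step T₀ f (ε / 2) (by positivity)
    obtain ⟨δ₂, h2, k2⟩ := ih (kp T₀ f) (ε / 2) (by positivity)
    refine ⟨min δ₁ δ₂, lt_min h1 h2, fun T' h => ?_⟩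
    have e1 := k1 T' (h.mono le_rfl (min_le_left _ _))
    have e2 := k2 T' (h.mono le_rfl (min_le_right _ _))
    rw [← (kp (T' ^ n)).norm_map, map_sub] at e1
    rw [pow_succ', pow_succ', kp_mul, kp_mul]
    calc _ = ‖(kp (T' ^ n) (kp T' f) - kp (T' ^ n) (kp T₀ f)) +
          (kp (T' ^ n) (kp T₀ f) - kp (T₀ ^ n) (kp T₀ f))‖ := by congr 1; abel
      _ ≤ ε / 2 + ε / 2 := (norm_add_le _ _).trans (add_le_add e1 e2)
      _ = ε := by ring

theorem zpow_step (T₀ : TD) (n : ℤ) (f : L2) (ε : ℝ) (hε : 0 < ε) : ∃ δ : ℝ, 0 < δ ∧ ∀ T' : TD,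
    TClose 0 δ T' T₀ → ‖kp (T' ^ n) f - kp (T₀ ^ n) f‖ ≤ ε := by
  obtain ⟨n, rfl | rfl⟩ := Int.eq_nat_or_neg n
  · obtain ⟨δ, h1, h2⟩ := pow_step T₀ n f ε hε
    exact ⟨δ, h1, fun T' h => by simpa using h2 T' h.1⟩
  · obtain ⟨δ, h1, h2⟩ := pow_step T₀⁻¹ n f ε hε
    exact ⟨δ, h1, fun T' h => by simpa using h2 T'⁻¹ h.2⟩

end Robust

theorem robust_stmt : RobustStmt := by
  intro T₀ f A ε hε
  induction A using Finset.induction_on with
  | empty => exact ⟨1, one_pos, fun _ _ n hn => absurd hn (notMem_empty n)⟩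
  | insert a A _ ih =>
    obtain ⟨δ₁, h1, k1⟩ := ih
    obtain ⟨δ₂, h2, k2⟩ := Robust.zpow_step T₀ a f ε hε
    refine ⟨min δ₁ δ₂, lt_min h1 h2, fun T' h n hn => ?_⟩
    rcases mem_insert.1 hn with rfl | hn
    · exact k2 T' (h.mono le_rfl (min_le_right _ _))
    · exact k1 T' (h.mono le_rfl (min_le_left _ _)) n hn

end Crest.Agent.R81
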