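import Crest.Agent.R81.Defs

/-!
# Row 81, module Select

The statement and the recipe are in `R81/Defs.lean` (`SelectStmt`).
-/

set_option autoImplicit false

open MeasureTheory Finset Crest.AnalysisR.Torus3 Crest.Agent.R75
open scoped InnerProductSpace ComplexConjugate ContDiff

namespace Crest.Agent.R81

namespace Select

/-- The cells `(m, ν)` and `(m', ν')` meet at the integer `n` for some occupied `ν'`. -/
def Hit (dbar κ ρ : ℝ) (R : Finset ℤ) (L : ℤ → ℕ) (m m' : ℤ × ℤ) (ν n : ℤ) (s : ℕ) : Prop :=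
  ∃ ν' ∈ R, (L m'.1 : ℤ) ∣ ν' ∧ ∃ a ∈ Set.Icc (0 : ℝ) 1,
    ∃ a' ∈ Set.Icc (0 : ℝ) 1, cellPt dbar κ ρ s m ν a - cellPt dbar κ ρ s m' ν' a' = n

theorem abs_mul_le' {x y A B : ℝ} (hx : |x| ≤ A) (hy : |y| ≤ B) : |x * y| ≤ A * B := by
  rw [abs_mul]
  exact mul_le_mul hx hy (abs_nonneg _) ((abs_nonneg _).trans hx)

theorem hit_close {dbar κ ρ : ℝ} {R : Finset ℤ} {L : ℤ → ℕ} {m m' : ℤ × ℤ} {ν n : ℤ} {K S : ℕ}
    (hρ : 0 < ρ) (hm : |m.1| ≤ K) (hm' : |m'.1| ≤ K) (hne : m.1 ≠ m'.1) (h0 : m'.1 ≠ 0)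
    (hL : 2 * K * S + 4 * K + 1 ≤ L m'.1) {s₁ s₂ : ℕ} (hs₁ : s₁ < S) (hs₂ : s₂ < S)
    (h₁ : Hit dbar κ ρ R L m m' ν n s₁) (h₂ : Hit dbar κ ρ R L m m' ν n s₂) :
    |(s₁ : ℤ) - s₂| ≤ 2 * K := by
  obtain ⟨ν₁, -, d₁, a₁, ⟨a10, a11⟩, b₁, ⟨b10, b11⟩, e₁⟩ := h₁
  obtain ⟨ν₂, -, d₂, a₂, ⟨a20, a21⟩, b₂, ⟨b20, b21⟩, e₂⟩ := h₂
  have hk : |(m.1 : ℝ)| ≤ K := by exact_mod_cast hm
  have hk' : |(m'.1 : ℝ)| ≤ K := by exact_mod_cast hm'
  have e : ((m.1 : ℝ) - m'.1) * ((s₁ : ℝ) - s₂) - m'.1 * ((ν₁ : ℝ) - ν₂) =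
      m'.1 * (b₁ - b₂) - m.1 * (a₁ - a₂) := by
    apply mul_left_cancel₀ hρ.ne'
    unfold cellPt at e₁ e₂
    linear_combination e₁ - e₂
  have ha : |a₁ - a₂| ≤ 1 := abs_le.2 ⟨by linarith, by linarith⟩
  have hb : |b₁ - b₂| ≤ 1 := abs_le.2 ⟨by linarith, by linarith⟩
  have h1 : |((m.1 : ℝ) - m'.1) * ((s₁ : ℝ) - s₂) - m'.1 * ((ν₁ : ℝ) - ν₂)| ≤ 2 * K := by
    rw [e]
    have := abs_sub ((m'.1 : ℝ) * (b₁ - b₂)) (m.1 * (a₁ - a₂))
    have h2 := abs_mul_le' hk' hb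
    have h3 := abs_mul_le' hk ha
    linarith
  have h1' : |(m.1 - m'.1) * ((s₁ : ℤ) - s₂) - m'.1 * (ν₁ - ν₂)| ≤ 2 * K := by exact_mod_cast h1
  have hkk : |m.1 - m'.1| ≤ 2 * K := by
    have := abs_sub m.1 m'.1
    linarith
  have hss : |(s₁ : ℤ) - s₂| ≤ S := abs_le.2 ⟨by omega, by omega⟩
  have h2 : |(m.1 - m'.1) * ((s₁ : ℤ) - s₂)| ≤ 2 * K * S := by
    rw [abs_mul]
    exact mul_le_mul hkk hss (abs_nonneg _) (by positivity)
  have hν : ν₁ - ν₂ = 0 := by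
    by_contra hcon
    have h3 : (L m'.1 : ℤ) ≤ |ν₁ - ν₂| :=
      Int.le_of_dvd (abs_pos.2 hcon) ((dvd_abs _ _).2 (dvd_sub d₁ d₂))
    have h4 : 1 ≤ |m'.1| := Int.one_le_abs h0
    have h5 : |ν₁ - ν₂| ≤ |m'.1 * (ν₁ - ν₂)| := by
      rw [abs_mul]
      exact le_mul_of_one_le_left (abs_nonneg _) h4
    have h6 := abs_sub ((m.1 - m'.1) * ((s₁ : ℤ) - s₂))
      ((m.1 - m'.1) * ((s₁ : ℤ) - s₂) - m'.1 * (ν₁ - ν₂))
    rw [sub_sub_cancel] at h6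
    have h7 : ((2 * K * S + 4 * K + 1 : ℕ) : ℤ) ≤ L m'.1 := by exact_mod_cast hL
    push_cast at h7
    have : (0 : ℤ) ≤ K := by positivity
    linarith
  rw [hν, mul_zero, sub_zero, abs_mul] at h1'
  have h4 : 1 ≤ |m.1 - m'.1| := Int.one_le_abs (sub_ne_zero.2 hne)
  exact (le_mul_of_one_le_left (abs_nonneg _) h4).trans h1'

open Classical in
theorem card_hit {dbar κ ρ : ℝ} {R : Finset ℤ} {L : ℤ → ℕ} {m m' : ℤ × ℤ} {ν n : ℤ} {K S : ℕ}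
    (hρ : 0 < ρ) (hm : |m.1| ≤ K) (hm' : |m'.1| ≤ K) (hne : m.1 ≠ m'.1) (h0 : m'.1 ≠ 0)
    (hL : 2 * K * S + 4 * K + 1 ≤ L m'.1) :
    ((range S).filter (Hit dbar κ ρ R L m m' ν n)).card ≤ 4 * K + 1 := by
  rcases ((range S).filter (Hit dbar κ ρ R L m m' ν n)).eq_empty_or_nonempty with h | ⟨s₀, hs₀⟩
  · rw [h]; simp
  · rw [mem_filter, mem_range] at hs₀
    have : (range S).filter (Hit dbar κ ρ R L m m' ν n) ⊆ Icc (s₀ - 2 * K) (s₀ + 2 * K) := by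
      intro s hs
      rw [mem_filter, mem_range] at hs
      have := abs_le.1 (hit_close hρ hm hm' hne h0 hL hs.1 hs₀.1 hs.2 hs₀.2)
      rw [mem_Icc]
      omega
    refine (card_le_card this).trans ?_
    rw [Nat.card_Icc]
    omega

theorem hit_range {dbar κ ρ σ : ℝ} {R : Finset ℤ} {L : ℤ → ℕ} {m m' : ℤ × ℤ} {ν n : ℤ} {K S s : ℕ}
    (hρ : 0 < ρ) (hm : |m.1| ≤ K) (hm' : |m'.1| ≤ K) (hs : s < S)
    (hR : ∀ ν ∈ R, 0 ≤ ν ∧ ρ * (ν + S + 1) ≤ σ) (hν : ν ∈ R) (h : Hit dbar κ ρ R L m m' ν n s) :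
    n ∈ Icc ⌈(m.1 - m'.1) * dbar + (m.2 - m'.2) * κ - 2 * K * σ⌉
      ⌊(m.1 - m'.1) * dbar + (m.2 - m'.2) * κ + 2 * K * σ⌋ := by
  obtain ⟨ν', hν', -, a, ⟨a0, a1⟩, b, ⟨b0, b1⟩, e⟩ := h
  have hk : |(m.1 : ℝ)| ≤ K := by exact_mod_cast hm
  have hk' : |(m'.1 : ℝ)| ≤ K := by exact_mod_cast hm'
  have hsS : (s : ℝ) ≤ S := by exact_mod_cast hs.le
  have hs0 : (0 : ℝ) ≤ s := by positivity
  have key : ∀ x ∈ R, ∀ c : ℝ, 0 ≤ c → c ≤ 1 → |ρ * (x + s + c)| ≤ σ := by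
    intro x hx c c0 c1
    obtain ⟨h1, h2⟩ := hR x hx
    have h1' : (0 : ℝ) ≤ x := by exact_mod_cast h1
    rw [abs_of_nonneg (by positivity)]
    exact (mul_le_mul_of_nonneg_left (by linarith) hρ.le).trans h2
  have h1 := abs_le.1 (abs_mul_le' hk (key ν hν a a0 a1))
  have h2 := abs_le.1 (abs_mul_le' hk' (key ν' hν' b b0 b1))
  unfold cellPt at e
  rw [mem_Icc, Int.ceil_le, Int.le_floor, ← e]
  constructor <;> nlinarith [h1.1, h1.2, h2.1, h2.2]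

theorem card_Icc_le (c r : ℝ) (hr : 0 ≤ r) : ((Icc ⌈c - r⌉ ⌊c + r⌋).card : ℝ) ≤ 2 * r + 1 := by
  rw [Int.card_Icc]
  have h1 := Int.floor_le (c + r)
  have h2 := Int.le_ceil (c - r)
  rcases le_total (⌊c + r⌋ + 1 - ⌈c - r⌉) 0 with h | h
  · rw [Int.toNat_of_nonpos h]
    simp only [Nat.cast_zero]
    linarith
  · have : (((⌊c + r⌋ + 1 - ⌈c - r⌉).toNat : ℤ) : ℝ) = ((⌊c + r⌋ + 1 - ⌈c - r⌉ : ℤ) : ℝ) := by
      rw [Int.toNat_of_nonneg h]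
    push_cast at this
    rw [this]
    linarith

open Classical in
theorem card_bad {dbar κ ρ σ : ℝ} {K S : ℕ} {F N : Finset (ℤ × ℤ)} {R : Finset ℤ} {L : ℤ → ℕ}
    (hρ : 0 < ρ) (hσ : 0 < σ) (hF : ∀ m ∈ F, |m.1| ≤ K) (hNF : N ⊆ F)
    (hN : ∀ m ∈ N, m.1 ≠ 0 ∧ 2 * K * S + 4 * K + 1 ≤ L m.1 ∧ ∀ m' ∈ F, m.1 = m'.1 → m = m')
    (hR : ∀ ν ∈ R, 0 ≤ ν ∧ ρ * (ν + S + 1) ≤ σ) {ν : ℤ} (hν : ν ∈ R) :
    (((range S).filter fun s => ∃ m'' ∈ F, Bad dbar κ ρ N R L s m'' ν).card : ℝ) ≤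
      F.card * (N.card * ((4 * K * (σ + 1) + 1) * (4 * K + 1))) := by
  let I : ℤ × ℤ → ℤ × ℤ → Finset ℤ := fun m m' =>
    Icc ⌈(m.1 - m'.1) * dbar + (m.2 - m'.2) * κ - 2 * K * σ⌉
      ⌊(m.1 - m'.1) * dbar + (m.2 - m'.2) * κ + 2 * K * σ⌋
  have hsub : ((range S).filter fun s => ∃ m'' ∈ F, Bad dbar κ ρ N R L s m'' ν) ⊆
      F.biUnion fun m => (N.erase m).biUnion fun m' => (I m m').biUnion fun n =>
        (range S).filter (Hit dbar κ ρ R L m m' ν n) := by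
    intro s hs
    rw [mem_filter] at hs
    obtain ⟨hs, m, hm, m', hm', hne, ν', h1, h2, a, ha, a', ha', n, e⟩ := hs
    have hh : Hit dbar κ ρ R L m m' ν n s := ⟨ν', h1, h2, a, ha, a', ha', e⟩
    simp only [mem_biUnion, mem_erase, mem_filter]
    exact ⟨m, hm, m', ⟨hne, hm'⟩, n,
      hit_range hρ (hF m hm) (hF m' (hNF hm')) (mem_range.1 hs) hR hν hh, hs, hh⟩
  have h1 : ∀ m ∈ F, ∀ m' ∈ N.erase m, (((I m m').biUnion fun n =>
      (range S).filter (Hit dbar κ ρ R L m m' ν n)).card : ℝ) ≤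
        (4 * K * (σ + 1) + 1) * (4 * K + 1) := by
    intro m hm m' hm'
    rw [mem_erase] at hm'
    obtain ⟨a1, a2, a3⟩ := hN m' hm'.2
    have h2 : ((I m m').biUnion fun n => (range S).filter (Hit dbar κ ρ R L m m' ν n)).card ≤
        (I m m').card * (4 * K + 1) :=
      card_biUnion_le_card_mul _ _ _ fun n _ =>
        card_hit hρ (hF m hm) (hF m' (hNF hm'.2)) (fun e => hm'.1 (a3 m hm e.symm)) a1 a2
    have h3 : ((I m m').card : ℝ) ≤ 2 * (2 * K * σ) + 1 := card_Icc_le _ _ (by positivity)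
    have h4 : (0 : ℝ) ≤ K := by positivity
    calc _ ≤ (((I m m').card * (4 * K + 1) : ℕ) : ℝ) := by exact_mod_cast h2
      _ = (I m m').card * (4 * K + 1) := by push_cast; ring
      _ ≤ _ := mul_le_mul_of_nonneg_right (by nlinarith) (by positivity)
  have h5 : ∀ m ∈ F, (((N.erase m).biUnion fun m' => (I m m').biUnion fun n =>
      (range S).filter (Hit dbar κ ρ R L m m' ν n)).card : ℝ) ≤
        N.card * ((4 * K * (σ + 1) + 1) * (4 * K + 1)) := by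
    intro m hm
    calc _ ≤ ((∑ m' ∈ N.erase m, ((I m m').biUnion fun n =>
          (range S).filter (Hit dbar κ ρ R L m m' ν n)).card : ℕ) : ℝ) := by
          exact_mod_cast card_biUnion_le
      _ ≤ ∑ m' ∈ N.erase m, ((4 * K * (σ + 1) + 1) * (4 * K + 1) : ℝ) := by
          push_cast
          exact sum_le_sum (h1 m hm)
      _ ≤ _ := by
          rw [sum_const, nsmul_eq_mul]
          exact mul_le_mul_of_nonneg_right (by exact_mod_cast card_erase_le) (by positivity)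
  calc _ ≤ ((F.biUnion fun m => (N.erase m).biUnion fun m' => (I m m').biUnion fun n =>
        (range S).filter (Hit dbar κ ρ R L m m' ν n)).card : ℝ) := by
        exact_mod_cast card_le_card hsub
    _ ≤ ((∑ m ∈ F, ((N.erase m).biUnion fun m' => (I m m').biUnion fun n =>
        (range S).filter (Hit dbar κ ρ R L m m' ν n)).card : ℕ) : ℝ) := by
        exact_mod_cast card_biUnion_le
    _ ≤ ∑ m ∈ F, (N.card * ((4 * K * (σ + 1) + 1) * (4 * K + 1)) : ℝ) := by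
        push_cast
        exact sum_le_sum h5
    _ = _ := by rw [sum_const, nsmul_eq_mul]

end Select

open Classical in
theorem select_stmt : SelectStmt := by
  intro dbar κ ρ σ K S F N R L Θ wt hρ hσ hS hF hNF hN hR hwt hsum
  set B : ℝ := N.card * ((4 * K * (σ + 1) + 1) * (4 * K + 1)) with hB
  have hB0 : 0 ≤ B := by positivity
  let f : ℕ → ℝ := fun s => ∑ m ∈ F, ∑ θ ∈ Θ,
    ∑ ν ∈ R.filter (fun ν => ∃ m'' ∈ F, Bad dbar κ ρ N R L s m'' ν), wt m θ ν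
  have hS' : (0 : ℝ) < S := by exact_mod_cast hS
  have h1 : ∑ s ∈ range S, f s ≤ ∑ _s ∈ range S, 2 * (F.card : ℝ) ^ 2 * Θ.card * B / S := by
    have e : ∑ s ∈ range S, f s = ∑ m ∈ F, ∑ θ ∈ Θ, ∑ ν ∈ R,
        (((range S).filter fun s => ∃ m'' ∈ F, Bad dbar κ ρ N R L s m'' ν).card : ℝ) * wt m θ ν := by
      rw [sum_comm]
      refine sum_congr rfl fun m _ => ?_
      rw [sum_comm]
      refine sum_congr rfl fun θ _ => ?_
      simp only [sum_filter]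
      rw [sum_comm]
      refine sum_congr rfl fun ν _ => ?_
      rw [← sum_filter, sum_const, nsmul_eq_mul]
    rw [e, sum_const, card_range, nsmul_eq_mul, mul_div_cancel₀ _ hS'.ne']
    calc _ ≤ ∑ m ∈ F, ∑ θ ∈ Θ, (F.card * B) * 2 := by
          refine sum_le_sum fun m hm => sum_le_sum fun θ hθ => ?_
          calc _ ≤ ∑ ν ∈ R, (F.card * B) * wt m θ ν :=
                sum_le_sum fun ν hν => mul_le_mul_of_nonneg_right
                  (Select.card_bad hρ hσ hF hNF hN hR hν) (hwt m θ ν)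
            _ ≤ _ := by
                rw [← mul_sum]
                exact mul_le_mul_of_nonneg_left (hsum m hm θ hθ) (by positivity)
      _ = _ := by simp only [sum_const, nsmul_eq_mul]; ring
  obtain ⟨s, hs, hs'⟩ := exists_le_of_sum_le (nonempty_range_iff.2 hS.ne') h1
  refine ⟨s, mem_range.1 hs, fun m hm θ hθ => le_trans ?_ hs'⟩
  have h2 : ∀ m θ, 0 ≤ ∑ ν ∈ R.filter (fun ν => ∃ m'' ∈ F, Bad dbar κ ρ N R L s m'' ν), wt m θ ν :=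
    fun m θ => sum_nonneg fun ν _ => hwt m θ ν
  exact (single_le_sum (f := fun θ => ∑ ν ∈ R.filter
      (fun ν => ∃ m'' ∈ F, Bad dbar κ ρ N R L s m'' ν), wt m θ ν) (fun θ _ => h2 m θ) hθ).trans
    (single_le_sum (f := fun m => ∑ θ ∈ Θ, ∑ ν ∈ R.filter
      (fun ν => ∃ m'' ∈ F, Bad dbar κ ρ N R L s m'' ν), wt m θ ν)
      (fun m _ => sum_nonneg fun θ _ => h2 m θ) hm)

end Crest.Agent.R81
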