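import Crest.Agent.R81.Defs

/-!
# Row 81, module Smooth

The statement and the recipe are in `R81/Defs.lean` (`SmoothStmt`).
-/

set_option autoImplicit false

open MeasureTheory Finset Crest.AnalysisR.Torus3 Crest.Agent.R75
open scoped InnerProductSpace ComplexConjugate ContDiff

namespace Crest.Agent.R81

namespace Smooth

open Filter Topology

/-- A bump: `1` on `[α/2, 1 - α/2]`, `0` outside `[α/4, 1 - α/4]`. -/
noncomputable def bump (α x : ℝ) : ℝ :=
  Real.smoothTransition ((x - α / 4) / (α / 4)) *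
    Real.smoothTransition ((1 - α / 4 - x) / (α / 4))

theorem contDiff_bump (α : ℝ) : ContDiff ℝ ∞ (bump α) := by
  unfold bump
  exact (Real.smoothTransition.contDiff.comp ((contDiff_id.sub contDiff_const).div_const _)).mul
    (Real.smoothTransition.contDiff.comp ((contDiff_const.sub contDiff_id).div_const _))

theorem bump_eq_one {α x : ℝ} (hα : 0 < α) (h1 : α / 2 ≤ x) (h2 : x ≤ 1 - α / 2) :
    bump α x = 1 := by
  have h4 : 0 < α / 4 := by positivity
  rw [bump, Real.smoothTransition.one_of_one_le, Real.smoothTransition.one_of_one_le, one_mul]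
  · rw [le_div_iff₀ h4]; linarith
  · rw [le_div_iff₀ h4]; linarith

theorem bump_eq_zero {α x : ℝ} (hα : 0 < α) (h : x ≤ α / 4 ∨ 1 - α / 4 ≤ x) : bump α x = 0 := by
  have h4 : 0 < α / 4 := by positivity
  rcases h with h | h
  · rw [bump, Real.smoothTransition.zero_of_nonpos
      (div_nonpos_of_nonpos_of_nonneg (by linarith) h4.le), zero_mul]
  · rw [bump, Real.smoothTransition.zero_of_nonpos (x := (1 - α / 4 - x) / (α / 4))
      (div_nonpos_of_nonpos_of_nonneg (by linarith) h4.le), mul_zero]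

/-- Cutting off the jumps of the floor. -/
theorem contDiff_cut {X : Type*} [NormedAddCommGroup X] [NormedSpace ℝ X] {α : ℝ} (hα : 0 < α)
    (hα' : α < 1) {t : X → ℝ} (ht : ContDiff ℝ ∞ t) {G : ℤ → X → ℝ}
    (hG : ∀ n, ContDiff ℝ ∞ (G n)) :
    ContDiff ℝ ∞ fun x => bump α (Int.fract (t x)) * G ⌊t x⌋ x := by
  rw [contDiff_iff_contDiffAt]
  intro x₀
  have hc : ContinuousAt t x₀ := ht.continuous.continuousAt
  by_cases h0 : Int.fract (t x₀) = 0
  · have h1 : t x₀ = ⌊t x₀⌋ := by
      have := Int.floor_add_fract (t x₀)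
      rw [h0, add_zero] at this
      exact this.symm
    have h2 : ∀ᶠ x in 𝓝 x₀, t x ∈ Set.Ioo (t x₀ - α / 4) (t x₀ + α / 4) :=
      hc.eventually (Ioo_mem_nhds (by linarith) (by linarith))
    refine (contDiffAt_const (c := (0 : ℝ))).congr_of_eventuallyEq ?_
    filter_upwards [h2] with x hx
    rw [bump_eq_zero hα, zero_mul]
    rw [h1] at hx
    by_cases h3 : (⌊t x₀⌋ : ℝ) ≤ t x
    · left
      have : ⌊t x⌋ = ⌊t x₀⌋ := Int.floor_eq_iff.2 ⟨h3, by linarith [hx.2]⟩
      rw [Int.fract, this]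
      linarith [hx.2]
    · right
      have : ⌊t x⌋ = ⌊t x₀⌋ - 1 := Int.floor_eq_iff.2
        ⟨by push_cast; linarith [hx.1], by push_cast; linarith [not_le.1 h3]⟩
      rw [Int.fract, this]
      push_cast
      linarith [hx.1]
  · have h1 : (⌊t x₀⌋ : ℝ) < t x₀ := by
      have h2 := Int.floor_add_fract (t x₀)
      have h3 := lt_of_le_of_ne (Int.fract_nonneg (t x₀)) (Ne.symm h0)
      linarith
    have h2 : ∀ᶠ x in 𝓝 x₀, t x ∈ Set.Ioo (⌊t x₀⌋ : ℝ) (⌊t x₀⌋ + 1) :=
      hc.eventually (Ioo_mem_nhds h1 (Int.lt_floor_add_one _))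
    have h3 : ContDiff ℝ ∞ fun x => bump α (t x - ⌊t x₀⌋) * G ⌊t x₀⌋ x :=
      ((contDiff_bump α).comp (ht.sub contDiff_const)).mul (hG _)
    refine h3.contDiffAt.congr_of_eventuallyEq ?_
    filter_upwards [h2] with x hx
    have : ⌊t x⌋ = ⌊t x₀⌋ := Int.floor_eq_iff.2 ⟨hx.1.le, hx.2⟩
    rw [Int.fract, this]

theorem exE (α : ℝ) (hα : 0 < α) (hα' : α < 1 / 4) : ∃ E, GoodE α E := by
  have hval : ∀ y ∈ Set.Icc (α / 2) (1 - α / 2),
      bump α (Int.fract y) * ((y - ⌊y⌋) ^ 2 / 2) = y ^ 2 / 2 := fun y hy => by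
    have h1 : ⌊y⌋ = 0 := Int.floor_eq_iff.2
      ⟨by push_cast; linarith [hy.1], by push_cast; linarith [hy.2]⟩
    rw [Int.fract, h1, Int.cast_zero, sub_zero, bump_eq_one hα hy.1 hy.2, one_mul]
  refine ⟨fun y => bump α (Int.fract y) * ((y - ⌊y⌋) ^ 2 / 2), ?_, fun y => ?_, fun y hy => ?_,
    fun y hy => ?_⟩
  · exact contDiff_cut hα (by linarith) contDiff_id (G := fun n y => (y - n) ^ 2 / 2)
      fun n => ((contDiff_id.sub contDiff_const).pow 2).div_const _
  · simp only [Int.fract_add_one, Int.floor_add_one]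
    push_cast
    ring
  · exact hval y ⟨by linarith [hy.1], by linarith [hy.2]⟩
  · have h1 : (fun y => bump α (Int.fract y) * ((y - ⌊y⌋) ^ 2 / 2)) =ᶠ[𝓝 y] fun y => y ^ 2 / 2 := by
      filter_upwards [Icc_mem_nhds (a := α / 2) (b := 1 - α / 2) (x := y) (by linarith [hy.1])
        (by linarith [hy.2])] with z hz
      exact hval z hz
    rw [h1.deriv_eq]
    have h2 : HasDerivAt (fun y : ℝ => y ^ 2 / 2) y y := by
      simpa using (hasDerivAt_pow 2 y).div_const 2
    exact h2.deriv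

theorem exV (α α' : ℝ) (M : ℕ) (ψ : ℤ → ℝ) (hα : 0 < α) (hα1 : α < 1 / 4) (hα' : 0 < α')
    (hα1' : α' < 1 / 4) (hψ : ∀ J : ℤ, ψ (J + M) = ψ J) : ∃ V, GoodV α α' M ψ V := by
  refine ⟨fun Y W => bump α (Int.fract Y) *
    (bump α' (Int.fract (Y - M * W)) * ψ (⌊Y⌋ - ⌊Y - M * W⌋)), ⟨?_, fun Y W => ?_, fun Y W => ?_⟩,
    fun Y W h1 h2 => ?_⟩
  · exact contDiff_cut hα (by linarith) (X := ℝ × ℝ) contDiff_fst
      (G := fun n p => bump α' (Int.fract (p.1 - M * p.2)) * ψ (n - ⌊p.1 - M * p.2⌋))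
      fun n => contDiff_cut hα' (by linarith) (X := ℝ × ℝ)
        (contDiff_fst.sub (contDiff_const.mul contDiff_snd)) (G := fun m _ => ψ (n - m))
        fun _ => contDiff_const
  · have e : Y + 1 - M * W = Y - M * W + 1 := by ring
    simp only [e, Int.fract_add_one, Int.floor_add_one, add_sub_add_right_eq_sub]
  · have e : Y - M * (W + 1) = Y - M * W - (M : ℤ) := by push_cast; ring
    simp only [e, Int.fract_sub_intCast, Int.floor_sub_intCast]
    rw [← hψ (⌊Y⌋ - ⌊Y - M * W⌋)]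
    congr 3
    ring
  · rw [bump_eq_one hα (by linarith [h1.1]) (by linarith [h1.2]),
      bump_eq_one hα' (by linarith [h2.1]) (by linarith [h2.2]), one_mul, one_mul]

/-- Smooth dependence of an integral over `[0,1]` on parameters. -/
theorem contDiff_integral {P : Type*} [NormedAddCommGroup P] [NormedSpace ℝ P] {g : P → ℝ → ℝ}
    (hg : ContDiff ℝ ∞ (Function.uncurry g)) :
    ContDiff ℝ ∞ fun p => ∫ t in (0 : ℝ)..1, g p t := by
  let χ : ContDiffBump (0 : ℝ) := ⟨1, 2, one_pos, one_lt_two⟩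
  have hf : LocallyIntegrable ((Set.Ioc (0 : ℝ) 1).indicator fun _ => (1 : ℝ)) volume :=
    ((integrable_indicator_iff measurableSet_Ioc).2 (integrableOn_const (by simp))).locallyIntegrable
  have h := contDiffOn_convolution_right_with_param_comp (n := ⊤) (μ := volume)
    (ContinuousLinearMap.mul ℝ ℝ) (s := (Set.univ : Set P)) (v := fun _ => (0 : ℝ))
    (g := fun p x => χ x * g p (-x)) contDiffOn_const isOpen_univ
    (isCompact_closedBall (0 : ℝ) 2)
    (fun p x _ hx => by
      rw [χ.zero_of_le_dist (by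
        rw [Metric.mem_closedBall, not_le] at hx
        exact hx.le), zero_mul]) hf
    (ContDiff.contDiffOn (by
      exact (χ.contDiff.comp contDiff_snd).mul (hg.comp (contDiff_fst.prodMk contDiff_snd.neg))))
  rw [contDiffOn_univ] at h
  convert h using 2 with p
  rw [convolution_def, intervalIntegral.integral_of_le zero_le_one,
    ← integral_indicator measurableSet_Ioc]
  congr 1
  funext t
  by_cases ht : t ∈ Set.Ioc (0 : ℝ) 1
  · rw [Set.indicator_of_mem ht, Set.indicator_of_mem ht, χ.one_of_mem_closedBall (by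
      rw [Metric.mem_closedBall, dist_zero_right, zero_sub, norm_neg, Real.norm_eq_abs,
        abs_of_pos ht.1]
      exact ht.2)]
    simp
  · rw [Set.indicator_of_notMem ht, Set.indicator_of_notMem ht]
    simp

theorem hadamard (E : ℝ → ℝ) (hE : ContDiff ℝ ∞ E) (hp : Function.Periodic E 1) :
    ∃ Δ : ℝ → ℝ → ℝ, ContDiff ℝ ∞ (Function.uncurry Δ) ∧ (∀ Y z, E (Y + z) - E Y = z * Δ Y z) ∧
      (∀ Y, Δ Y 0 = deriv E Y) ∧ ∀ Y z, Δ (Y + 1) z = Δ Y z := by
  have hE' : ContDiff ℝ ∞ (deriv E) := (contDiff_infty_iff_deriv.1 hE).2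
  have hd : Differentiable ℝ E := (contDiff_infty_iff_deriv.1 hE).1
  refine ⟨fun Y z => ∫ t in (0 : ℝ)..1, deriv E (Y + t * z), ?_, fun Y z => ?_, fun Y => ?_,
    fun Y z => ?_⟩
  · exact contDiff_integral (P := ℝ × ℝ) (g := fun p t => deriv E (p.1 + t * p.2))
      (hE'.comp (contDiff_fst.fst.add (contDiff_snd.mul contDiff_fst.snd)))
  · have h1 : ∀ t ∈ Set.uIcc (0 : ℝ) 1,
        HasDerivAt (fun t => E (Y + t * z)) (z * deriv E (Y + t * z)) t := fun t _ => by
      have h2 : HasDerivAt (fun t : ℝ => Y + t * z) z t := by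
        simpa using ((hasDerivAt_id t).mul_const z).const_add Y
      have h3 := (hd (Y + t * z)).hasDerivAt.comp t h2
      rwa [mul_comm] at h3
    have h4 : Continuous fun t : ℝ => z * deriv E (Y + t * z) := by
      have := hE'.continuous
      fun_prop
    have h5 := intervalIntegral.integral_eq_sub_of_hasDerivAt h1 (h4.intervalIntegrable 0 1)
    rw [intervalIntegral.integral_const_mul] at h5
    simpa using h5.symm
  · simp
  · have h1 : ∀ y, deriv E (y + 1) = deriv E y := fun y => by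
      rw [← deriv_comp_add_const]
      congr 1
      exact funext hp
    simp only
    congr 1
    funext t
    rw [← h1 (Y + t * z)]
    congr 1
    ring

end Smooth

theorem smooth_stmt : SmoothStmt := ⟨Smooth.exE, Smooth.exV, Smooth.hadamard⟩

end Crest.Agent.R81
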