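import Crest.Agent.R81.Defs

/-!
# Row 81, module Spec

The statement and the recipe are in `R81/Defs.lean` (`SpecStmt`).
-/

set_option autoImplicit false

open MeasureTheory Finset Crest.AnalysisR.Torus3 Crest.Agent.R75
open scoped InnerProductSpace ComplexConjugate ContDiff

namespace Crest.Agent.R81

namespace Spec

theorem continuous_freq (M : Model) (m : ℤ × ℤ) : Continuous (M.freq m) := by
  unfold Model.freq; fun_prop

theorem inner_g (h1 : FibStmt) {M : Model} (hM : M.Valid) (ψ : ℤ × ℤ → ℝ → ℂ)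
    (hψ : ∀ m, Continuous (ψ m)) :
    ⟪M.g, ∑ m ∈ M.G, M.c m • fib M.α m fun y => ee (M.θ m * y) * ψ m y⟫_ℂ =
      ∑ m ∈ M.G, ((|(m.1 : ℝ)| * M.σ : ℝ) : ℂ) * ∫ y in M.α..(1 - M.α), ψ m y := by
  rw [Model.g, sum_inner]
  refine Finset.sum_congr rfl fun m hm => ?_
  rw [inner_sum, Finset.sum_eq_single m]
  · rw [inner_smul_left, inner_smul_right, atom, h1.inner_fib _ _ _ _ _ hM.α_pos.le
      (by linarith [hM.α_lt]) (by fun_prop) (by have := hψ m; fun_prop), if_pos rfl, ← mul_assoc,
      Complex.conj_mul', ← Complex.ofReal_pow, hM.c_norm m hm]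
    congr 1
    refine intervalIntegral.integral_congr fun y _ => ?_
    rw [← mul_assoc, ← ee_neg, mul_comm (ee _) (ee _), ee_mul_ee_neg, one_mul]
  · intro m' _ hne
    rw [inner_smul_left, inner_smul_right, atom, h1.inner_fib _ _ _ _ _ hM.α_pos.le
      (by linarith [hM.α_lt]) (by fun_prop) (by have := hψ m'; fun_prop), if_neg hne.symm,
      mul_zero, mul_zero]
  · intro h; exact absurd hm h

theorem inner_self (h1 : FibStmt) {M : Model} (hM : M.Valid) :
    ⟪M.g, M.g⟫_ℂ = ((1 - M.d : ℝ) : ℂ) := by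
  have := inner_g h1 hM (fun _ _ => 1) fun _ => continuous_const
  simp only [mul_one] at this
  refine this.trans ?_
  rw [Model.d, sub_sub_cancel, Complex.ofReal_sum]
  refine Finset.sum_congr rfl fun m _ => ?_
  simp only [intervalIntegral.integral_const]
  push_cast
  simp
  ring_nf
  simp

theorem inner_kp (h1 : FibStmt) {M : Model} {S : TD} (hM : M.Valid) (hS : M.IsMap S) (n : ℤ) :
    ⟪M.g, kp (S ^ n) M.g⟫_ℂ = ∑ m ∈ M.G, ((|(m.1 : ℝ)| * M.σ : ℝ) : ℂ) *
      ∫ y in M.α..(1 - M.α), ee (n * M.freq m y) := by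
  rw [← inner_g h1 hM (fun m y => ee (n * M.freq m y))
    fun m => by have := continuous_freq M m; fun_prop]
  congr 1
  rw [Model.g, map_sum]
  refine Finset.sum_congr rfl fun m _ => ?_
  rw [map_smul, atom, h1.kp_fib M S n m _ hM.goodE hS (by fun_prop)]

theorem d_nonneg (h2 : SubFlatStmt) {M : Model} (hM : M.Valid) : 0 ≤ M.d := by
  have := h2 M (fun _ => 1) hM continuous_const (fun _ => rfl) fun _ => zero_le_one
  simp only [intervalIntegral.integral_const, smul_eq_mul, mul_one, sub_zero] at this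
  rw [Model.d, sub_nonneg]
  refine le_trans (le_of_eq (Finset.sum_congr rfl fun m _ => ?_)) this
  ring

theorem re_bound (h2 : SubFlatStmt) {M : Model} (hM : M.Valid) {n : ℤ} (hn : n ≠ 0) {w : ℂ}
    (hw : ‖w‖ ≤ 1) : -(w * ∑ m ∈ M.G, ((|(m.1 : ℝ)| * M.σ : ℝ) : ℂ) *
      ∫ y in M.α..(1 - M.α), ee (n * M.freq m y)).re ≤ M.d := by
  have key : ∀ (f : ℝ → ℝ) (a b : ℝ), Continuous f →
      ∫ y in a..b, (1 - (w * ee (n * f y)).re) = (b - a) - (w * ∫ y in a..b, ee (n * f y)).re := by
    intro f a b hf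
    have hc : Continuous fun y => w * ee (n * f y) := by fun_prop
    have hc' : Continuous fun y => (w * ee (n * f y)).re := by fun_prop
    rw [intervalIntegral.integral_sub intervalIntegrable_const
      (hc'.intervalIntegrable _ _), intervalIntegral.integral_const,
      smul_eq_mul, mul_one, ← intervalIntegral.integral_const_mul]
    congr 1
    exact Complex.reCLM.intervalIntegral_comp_comm (hc.intervalIntegrable _ _)
  have := h2 M (fun t => 1 - (w * ee (n * t)).re) hM (by fun_prop) (fun t => by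
      simp only [mul_add, mul_one, ee_add_intCast]) fun t => by
    have h1 := Complex.re_le_norm (w * ee (n * t))
    rw [norm_mul, norm_ee, mul_one] at h1
    linarith
  rw [key (fun t => t) 0 1 continuous_id, integral_ee_int, if_neg hn] at this
  simp only [key _ _ _ (continuous_freq M _)] at this
  rw [Finset.mul_sum, Complex.re_sum, Model.d]
  have e : ∀ m ∈ M.G, |(m.1 : ℝ)| * M.σ * (1 - M.α - M.α -
      (w * ∫ y in M.α..(1 - M.α), ee (n * M.freq m y)).re) =
      |(m.1 : ℝ)| * M.σ * (1 - 2 * M.α) - (w * (((|(m.1 : ℝ)| * M.σ : ℝ) : ℂ) *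
        ∫ y in M.α..(1 - M.α), ee (n * M.freq m y))).re := by
    intro m _
    rw [mul_left_comm, Complex.re_ofReal_mul]
    ring
  rw [Finset.sum_congr rfl e, Finset.sum_sub_distrib] at this
  simp only [mul_zero, Complex.zero_re, sub_zero] at this
  linarith

theorem conj_fibF (α θ : ℝ) (m : ℤ × ℤ) (x : T3) :
    fibF α (-m) (fun y => ee (-θ * y)) x = conj (fibF α m (fun y => ee (θ * y)) x) := by
  simp only [fibF, map_mul, ← ee_neg]
  congr 1
  · by_cases h : rep (x 1) ∈ Set.Icc α (1 - α)
    · simp only [Set.indicator_of_mem h, ← ee_neg, neg_mul]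
    · simp only [Set.indicator_of_notMem h, map_zero]
  · congr 1
    simp only [Prod.fst_neg, Prod.snd_neg, Int.cast_neg]
    ring

theorem real_g {M : Model} (hM : M.Valid) : IsReal M.g := by
  have hm : ∀ m, MemLp (fibF M.α m fun y => ee (M.θ m * y)) 2 volume := fun m =>
    memLp_fibF _ _ (by fun_prop)
  have e : M.g = toL2 fun x => ∑ m ∈ M.G, M.c m * fibF M.α m (fun y => ee (M.θ m * y)) x := by
    rw [toL2_sum M.G fun m _ => (hm m).const_mul _, Model.g]
    exact Finset.sum_congr rfl fun m _ => (toL2_smul _ (hm m)).symm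
  rw [e]
  filter_upwards [coeFn_toL2 (memLp_finsetSum M.G fun m _ => (hm m).const_mul (M.c m))] with x hx
  rw [hx, ← Complex.conj_eq_iff_im, map_sum]
  refine Finset.sum_nbij' (fun m => -m) (fun m => -m) (fun m hm => hM.div.neg_mem hm)
    (fun m hm => hM.div.neg_mem hm) (fun m _ => neg_neg m) (fun m _ => neg_neg m) fun m hm => ?_
  rw [hM.θ_neg m hm, hM.c_neg m hm, conj_fibF, map_mul]

end Spec

open Spec in
theorem spec_of (h1 : FibStmt) (h2 : SubFlatStmt) : SpecStmt := by
  refine ⟨fun M hM => d_nonneg h2 hM, fun M hM => ?_, fun M hM => real_g hM, fun M hM => ?_,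
    fun M S hM hS n => ?_⟩
  · rw [← inner_self_eq_norm_sq (𝕜 := ℂ), Spec.inner_self h1 hM]
    simp
  · rw [Model.g, inner_sum]
    refine Finset.sum_eq_zero fun m hm => ?_
    rw [inner_smul_right, atom, h1.mean_fib _ _ _ (by fun_prop) (hM.k_ne m hm), mul_zero]
  · by_cases hn : n = 0
    · subst hn
      rw [zpow_zero, kp_one, Spec.inner_self h1 hM, if_pos rfl, Complex.ofReal_sub,
        Complex.ofReal_one, sub_sub_cancel_left, norm_neg, Complex.norm_real,
        Real.norm_of_nonneg (d_nonneg h2 hM)]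
    · rw [if_neg hn, sub_zero, inner_kp h1 hM hS]
      set z := ∑ m ∈ M.G, ((|(m.1 : ℝ)| * M.σ : ℝ) : ℂ) *
        ∫ y in M.α..(1 - M.α), ee (n * M.freq m y) with hz
      by_cases h0 : z = 0
      · rw [h0, norm_zero]; exact d_nonneg h2 hM
      · have hpos : 0 < ‖z‖ := norm_pos_iff.2 h0
        have := re_bound h2 hM hn (w := -(conj z / ‖z‖)) (by
          rw [norm_neg, norm_div, Complex.norm_conj, Complex.norm_real, norm_norm,
            div_self hpos.ne'])
        rw [← hz, neg_mul, Complex.neg_re, neg_neg, div_mul_eq_mul_div, Complex.conj_mul',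
          ← Complex.ofReal_pow, ← Complex.ofReal_div, Complex.ofReal_re, sq,
          mul_div_cancel_right₀ _ hpos.ne'] at this
        exact this

end Crest.Agent.R81
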