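import Crest.Agent.R81.StepAux

/-!
# Row 81, module Step

The statement is in `R81/Defs.lean` (`StepStmt`), the idea in `R81/Blueprint.lean`.
-/

set_option autoImplicit false

open MeasureTheory Finset Crest.AnalysisR.Torus3 Crest.Agent.R75 Filter Topology
open scoped InnerProductSpace ComplexConjugate ContDiff

namespace Crest.Agent.R81

open Step

set_option maxHeartbeats 800000 in
theorem step_of (hGa : GadgetStmt) (hEn : EnergyStmt) (hSm : SmoothStmt) (hMp : MapsStmt)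
    (hCC : ConjCloseStmt) (hIn : InnerStmt) (hPr : ProjStmt) (hGE : GEstStmt) (hSel : SelectStmt)
    (hGeo : GeomStmt) (hFi : FillStmt) : StepStmt := by
  intro H S M N P Θ C r ε hM hS hyp hε
  classical
  have hσ := hM.σ_pos
  have hα := hM.α_pos
  have hα' := hM.α_lt
  -- the modes
  obtain ⟨F, hF⟩ : ∃ F, F = M.G ∪ N ∪ P := ⟨_, rfl⟩
  have hGF : M.G ⊆ F := by rw [hF]; exact subset_union_left.trans subset_union_left
  have hNF : N ⊆ F := by rw [hF]; exact subset_union_right.trans subset_union_left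
  have hPF : P ⊆ F := by rw [hF]; exact subset_union_right
  have hGNF : M.G ∪ N ⊆ F := by rw [hF]; exact subset_union_left
  have hk0 : ∀ m ∈ F, m.1 ≠ 0 := by
    intro m hm
    rw [hF, union_assoc] at hm
    rcases mem_union.1 hm with h | h
    · exact hM.k_ne m h
    · exact hyp.k_ne m h
  obtain ⟨K, hKC, hK⟩ : ∃ K : ℕ, C ≤ K ∧ ∀ m ∈ F, |m.1| ≤ K ∧ |m.2| ≤ K := by
    refine ⟨C + F.sup fun m => m.1.natAbs + m.2.natAbs, Nat.le_add_right _ _, fun m hm => ?_⟩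
    have : m.1.natAbs + m.2.natAbs ≤ _ :=
      Finset.le_sup (f := fun m : ℤ × ℤ => m.1.natAbs + m.2.natAbs) hm
    constructor <;> rw [← Int.natCast_natAbs] <;> omega
  obtain ⟨Q, hQ, n₁, hn₁⟩ : ∃ Q : ℕ, 2 * K < Q ∧ ∃ n : ℤ, (Q : ℝ) * M.γ = n := by
    obtain ⟨n, hn⟩ := hM.qγ
    refine ⟨M.q * (2 * K + 1), ?_, (2 * K + 1) * n, ?_⟩
    · have := hM.q_pos; nlinarith
    · push_cast; rw [← hn]; ring
  have hQ0 : 0 < Q := by omega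
  obtain ⟨Θ', hΘ'⟩ : ∃ Θ', Θ' = Θ ∪ M.G.image M.θ := ⟨_, rfl⟩
  have hΘ₁ : Θ ⊆ Θ' := by rw [hΘ']; exact subset_union_left
  have hΘ₂ : ∀ m ∈ M.G, M.θ m ∈ Θ' := fun m hm => by
    rw [hΘ']; exact mem_union_right _ (mem_image_of_mem _ hm)
  obtain ⟨Θ₀, hΘ₀⟩ : ∃ Θ₀ : ℝ, ∀ θ ∈ Θ', |θ| ≤ Θ₀ :=
    ⟨∑ θ ∈ Θ', |θ|, fun θ hθ => Finset.single_le_sum (f := fun θ : ℝ => |θ|)
      (fun _ _ => abs_nonneg _) hθ⟩
  -- the error parameter
  obtain ⟨SG, hSG⟩ : ∃ SG, SG = ∑ m ∈ M.G, |(m.1 : ℝ)| * M.σ := ⟨_, rfl⟩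
  have hSG0 : 0 ≤ SG := by rw [hSG]; positivity
  obtain ⟨e, he0, he1, he2, he3⟩ := exists_err ε (3 * ∑ m ∈ M.G, ‖M.c m‖ + (1 + 5 * SG)) hε
  have ha0 : 0 < e ^ 2 := by positivity
  have ha1 : e ^ 2 ≤ 1 / 16 := by nlinarith
  -- the number of shifts
  obtain ⟨S₀, hS₀, hcnt⟩ : ∃ S₀ : ℕ, 0 < S₀ ∧
      2 * (F.card : ℝ) ^ 2 * Θ'.card * (N.card * ((4 * K * (M.σ + 1) + 1) * (4 * K + 1))) / S₀ <
        e ^ 2 := ((eventually_gt_atTop 0).and (ev_large _ _ ha0)).exists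
  -- the gadget
  obtain ⟨Mm, ψ, L, hg⟩ := hGa K (N.image Prod.fst) (e ^ 2) (2 * K * S₀ + 4 * K + 1)
    (by
      intro h
      obtain ⟨m, hm, e⟩ := mem_image.1 h
      exact hk0 m (hNF hm) e) ha0
  have hMm := hg.M_pos
  have hMm' : (0 : ℝ) < Mm := by exact_mod_cast hMm
  obtain ⟨E₂, hE₂⟩ := hSm.exE (e ^ 2) ha0 (by linarith)
  obtain ⟨V, hV⟩ := hSm.exV M.α (e ^ 2) Mm ψ hα hα' ha0 (by linarith) hg.per
  obtain ⟨δ, hδ, hclose⟩ := hCC H S M E₂ V Mm Q r ε hM.goodE.smooth hM.goodE.per hE₂.smooth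
    hE₂.per hV.per hMm hQ0 ⟨n₁, hn₁⟩ hS hε
  obtain ⟨u₀, hu₀, hen⟩ := hEn M.α M.σ (e ^ 2) (e ^ 2) Θ₀ Mm hα hα' hσ ha0 (by linarith) ha0 hMm
  -- the small parameter `u`
  obtain ⟨u, hu, hu1, hu2, hu3, hu4, hu5⟩ : ∃ u : ℝ, 0 < u ∧ u < δ ∧ u < u₀ ∧
      S₀ * (u / Mm) < δ / 2 ∧ (S₀ + 1 + K) * (u / Mm) ≤ e ^ 2 * M.σ ∧ (K + 1) * (u / Mm) < 1 := by
    have h := ((ev_small 1 δ hδ).and ((ev_small 1 u₀ hu₀).and
      ((ev_small (S₀ / Mm) (δ / 2) (by positivity)).and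
        ((ev_small ((S₀ + 1 + K) / Mm) (e ^ 2 * M.σ) (by positivity)).and
          (ev_small ((K + 1) / Mm) 1 one_pos))))).and self_mem_nhdsWithin
    obtain ⟨u, ⟨h1, h2, h3, h4, h5⟩, h6⟩ := h.exists
    refine ⟨u, h6, by linarith, by linarith, ?_, ?_, ?_⟩
    · exact lt_of_eq_of_lt (by ring) h3
    · exact le_of_lt (lt_of_eq_of_lt (by ring) h4)
    · exact lt_of_eq_of_lt (by ring) h5
  have hρ : 0 < u / Mm := by positivity
  obtain ⟨R, hR⟩ : ∃ R, R = Rng M.α (e ^ 2) (Mm * M.σ / u) := ⟨_, rfl⟩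
  have hRng : ∀ ν ∈ R, (M.α + e ^ 2) * M.σ ≤ u / Mm * ν ∧
      u / Mm * ν ≤ (1 - M.α - e ^ 2) * M.σ := fun ν hν => mem_Rng hMm hu (hR ▸ hν)
  have hen' : ∀ m ∈ F, ∀ θ ∈ Θ',
      (1 - 2 * M.α - 2 * e ^ 2 - e ^ 2 ≤ ∑ ν ∈ R, ‖wgt M.α M.σ u Mm ψ m θ ν‖ ^ 2) ∧
      (∑ ν ∈ R, ‖wgt M.α M.σ u Mm ψ m θ ν‖ ^ 2 ≤ 2) ∧
      ∀ (τ : ℤ → ℝ), (∀ ν, ‖dft Mm ψ m.1 (m.1 * ν)‖ ^ 2 ≤ (1 + e ^ 2) * |(m.1 : ℝ)| / Mm) →
        (∀ ν ∈ R, 0 ≤ τ ν ∧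
          abs (τ ν ^ 2 - |(m.1 : ℝ)| * (u / Mm)) ≤ e ^ 2 * (|(m.1 : ℝ)| * (u / Mm))) →
        ∑ ν ∈ R, (√(|(m.1 : ℝ)| * M.σ) * ‖wgt M.α M.σ u Mm ψ m θ ν‖ - τ ν) ^ 2 ≤
          |(m.1 : ℝ)| * M.σ * (4 * e ^ 2 + e ^ 2) := by
    intro m hm θ hθ
    obtain ⟨h1, h2, h3⟩ := hen u hu hu2 m.1 θ (fun ν => dft Mm ψ m.1 (m.1 * ν)) (hk0 m hm)
      (hg.k_dvd _ (hk0 m hm) (hK m hm).1) (hΘ₀ θ hθ) (hg.mass _ (hk0 m hm) (hK m hm).1)
    rw [← hR] at h1 h2 h3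
    exact ⟨h1, h2, fun τ h4 h5 => h3 (e ^ 2) τ ha0.le (by linarith) h4 h5⟩
  -- the shift
  obtain ⟨s, hs, hsel⟩ := hSel M.dbar (M.γ + u / (Mm * Q)) (u / Mm) M.σ K S₀ F N R L Θ'
    (fun m θ ν => ‖wgt M.α M.σ u Mm ψ m θ ν‖ ^ 2) hρ hσ hS₀ (fun m hm => (hK m hm).1) hNF
    (fun m hm => ⟨hk0 m (hNF hm), hg.L_big _ ⟨m.1, mem_image_of_mem _ hm, dvd_rfl⟩,
      fun m' hm' => hyp.uniq m hm m' (hF ▸ hm')⟩)
    (fun ν hν => by
      obtain ⟨h1, h2⟩ := hRng ν hν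
      have hK0 : (0 : ℝ) ≤ K * (u / Mm) := by positivity
      constructor
      · have : 0 < u / Mm * ν := lt_of_lt_of_le (by positivity) h1
        have : (0 : ℝ) < ν := (mul_pos_iff_of_pos_left hρ).1 this
        exact_mod_cast this.le
      · exact aux1 hα hσ hK0 h2 hu4)
    (fun _ _ _ => by positivity) (fun m hm θ hθ => (hen' m hm θ hθ).2.1)
  obtain ⟨R', hR'⟩ : ∃ R', R' = R.filter fun ν =>
    ¬ ∃ m'' ∈ F, Bad M.dbar (M.γ + u / (Mm * Q)) (u / Mm) N R L s m'' ν := ⟨_, rfl⟩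
  have hR'R : R' ⊆ R := by rw [hR']; exact filter_subset _ _
  obtain ⟨r₀, hr₀⟩ : ∃ r₀ : ℕ, ∀ m ∈ F, ∀ ν ∈ R, |m.2 + Q * m.1 * ν| ≤ r₀ := by
    refine ⟨(F ×ˢ R).sup fun p => (p.1.2 + Q * p.1.1 * p.2).natAbs, fun m hm ν hν => ?_⟩
    have := Finset.le_sup (f := fun p : (ℤ × ℤ) × ℤ => (p.1.2 + Q * p.1.1 * p.2).natAbs)
      (mem_product.2 ⟨hm, hν⟩ : (m, ν) ∈ F ×ˢ R)
    rw [← Int.natCast_natAbs]
    exact_mod_cast this
  -- the bound on the coefficients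
  obtain ⟨B, hB⟩ : ∃ B : ℝ, B = 1 + R.card * (1 + 4 * Mm / u) := ⟨_, rfl⟩
  have hB1 : 1 ≤ B := by rw [hB]; exact le_add_of_nonneg_right (by positivity)
  obtain ⟨n₂, hn₂⟩ : ∃ n₂ : ℝ, n₂ = 2 * (F.card * R.card) + 6 := ⟨_, rfl⟩
  have hn₂0 : 0 < n₂ := by rw [hn₂]; positivity
  -- the large parameter `lam`
  obtain ⟨lam, hl1, hl2, hl3, hl4⟩ : ∃ lam : ℕ, (2 * K + 2) * r₀ + 2 ≤ lam ∧ 1 / (lam : ℝ) < δ ∧
      (r₀ : ℝ) / lam < e ^ 2 / 4 ∧ n₂ * (u / Mm) * B ^ 2 / lam < ε / 3 :=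
    ((eventually_ge_atTop _).and ((ev_large 1 δ hδ).and ((ev_large _ _ (by positivity)).and
      (ev_large _ _ (by positivity))))).exists
  have hl0 : 0 < lam := by omega
  have hl0' : (0 : ℝ) < lam := by exact_mod_cast hl0
  obtain ⟨σ', hσ'⟩ : ∃ σ' : ℝ, σ' = u / (lam * Mm) := ⟨_, rfl⟩
  have hσ'0 : 0 < σ' := by rw [hσ']; positivity
  have hσ'1 : σ' = u / Mm / lam := by rw [hσ']; field_simp
  -- the rational rotation
  obtain ⟨q₀, hq₀⟩ := eventually_atTop.1 ((ev_large K (u / Mm * e ^ 2 / 4) (by positivity)).and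
    ((ev_large 1 (δ / 2) (by positivity)).and ((ev_large (n₂ * B ^ 2) (ε / 3) (by positivity)).and
      (ev_large (4 / σ' * B ^ 2) (ε / 3) (by positivity)))))
  obtain ⟨q', γ', hq1, hq2, hq3, hq4, hq5⟩ :=
    hFi.rat (M.dbar + s * (u / Mm) - lam * (M.γ + u / (Mm * Q))) q₀
  obtain ⟨hq6, hq7, hq8, hq9⟩ := hq₀ q' hq1
  have hq2' : (0 : ℝ) < q' := by exact_mod_cast hq2
  obtain ⟨c₁, hc₁⟩ : ∃ c₁, c₁ = γ' - (M.dbar + s * (u / Mm) - lam * (M.γ + u / (Mm * Q))) :=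
    ⟨_, rfl⟩
  rw [← hc₁] at hq3
  -- the new model before filling
  obtain ⟨τ, hτ⟩ : ∃ τ : (ℤ × ℤ) × ℤ → ℝ, τ = fun p => √(|((desc lam Q p).1 : ℝ)| * σ') :=
    ⟨_, rfl⟩
  obtain ⟨cc, hcc⟩ : ∃ cc : (ℤ × ℤ) × ℤ → ℂ, cc = fun p => if p.1 ∈ M.G then
    (τ p : ℂ) * phase (M.c p.1 * wgt M.α M.σ u Mm ψ p.1 (M.θ p.1) p.2) else (τ p : ℂ) := ⟨_, rfl⟩
  have hτ0 : ∀ p, 0 ≤ τ p := fun p => by rw [hτ]; exact Real.sqrt_nonneg _
  have hτ2 : ∀ p, τ p ^ 2 = |((desc lam Q p).1 : ℝ)| * σ' := fun p => by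
    rw [hτ]; exact Real.sq_sqrt (by positivity)
  have hccn : ∀ p, ‖cc p‖ = τ p := fun p => by
    rw [hcc]
    simp only
    split_ifs
    · rw [norm_mul, norm_phase, mul_one, Complex.norm_real, Real.norm_of_nonneg (hτ0 p)]
    · rw [Complex.norm_real, Real.norm_of_nonneg (hτ0 p)]
  have hpar : ∀ p : (ℤ × ℤ) × ℤ, p.1 ∈ F → par K lam Q (desc lam Q p) = p := fun p hp =>
    par_desc (by exact_mod_cast hQ) (hk0 _ hp) (hK _ hp).2
  obtain ⟨M₁, hM₁⟩ : ∃ M₁ : Model, M₁ = ⟨M.γ + u / (Mm * Q), σ', e ^ 2, E₂, M.b - Mm * n₁, γ', q',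
    (kept L R' (M.G ∪ N)).image (desc lam Q),
    fun m' => (par K lam Q m').1.1 * (par K lam Q m').2 / Mm, fun m' => cc (par K lam Q m')⟩ :=
    ⟨_, rfl⟩
  have hM₁d : M₁.dbar = M.γ + u / (Mm * Q) := by rw [hM₁]
  have hM₁σ : M₁.σ = σ' := by rw [hM₁]
  have hM₁α : M₁.α = e ^ 2 := by rw [hM₁]
  have hM₁E : M₁.E = E₂ := by rw [hM₁]
  have hM₁b : M₁.b = M.b - Mm * n₁ := by rw [hM₁]
  have hM₁γ : M₁.γ = γ' := by rw [hM₁]
  have hM₁q : M₁.q = q' := by rw [hM₁]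
  have hM₁G : M₁.G = (kept L R' (M.G ∪ N)).image (desc lam Q) := by rw [hM₁]
  have hM₁θ : ∀ p : (ℤ × ℤ) × ℤ, p.1 ∈ F → M₁.θ (desc lam Q p) = p.1.1 * p.2 / Mm := by
    intro p hp; rw [hM₁]; simp only [hpar p hp]
  have hM₁c : ∀ p : (ℤ × ℤ) × ℤ, p.1 ∈ F → M₁.c (desc lam Q p) = cc p := by
    intro p hp; rw [hM₁]; simp only [hpar p hp]
  have hkept : ∀ (A : Finset (ℤ × ℤ)) (p : (ℤ × ℤ) × ℤ),
      p ∈ kept L R' A ↔ p.1 ∈ A ∧ p.2 ∈ R' ∧ (L p.1.1 : ℤ) ∣ p.2 := by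
    intro A p; simp only [kept, mem_filter, mem_product, and_assoc]
  obtain ⟨hv₁, hst₁, hbig₁⟩ := hGeo M M₁ N P K Q Mm S₀ s lam r₀ L R' u (e ^ 2) c₁ hM hyp
    (hF ▸ hK) hQ ⟨n₁, hn₁⟩ hMm hs hg.L_dvd hu hu4 hu5 (fun ν hν => hRng ν (hR'R hν))
    (fun ν hν m hm hb => by
      rw [hR'] at hν
      exact (mem_filter.1 hν).2 ⟨m, hF ▸ hm, hb.mono hR'R⟩)
    (fun m hm ν hν => hr₀ m (hF ▸ hm) ν (hR'R hν)) hl1 (by rw [hM₁α]; exact ha0)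
    (by rw [hM₁α]; linarith) (by rw [hM₁α, hM₁E]; exact hE₂)
    (by
      rw [hM₁α, hM₁σ, hσ'1]
      have h1 : (K : ℝ) * |c₁| ≤ K / q' := by
        rw [div_eq_mul_one_div]; exact mul_le_mul_of_nonneg_left hq3 (by positivity)
      have h2 : (r₀ : ℝ) * (u / Mm / lam) = u / Mm * (r₀ / lam) := by ring
      have h3 := mul_lt_mul_of_pos_left hl3 hρ
      linarith)
    hM₁d (by rw [hM₁σ, hσ']) (by rw [hM₁γ, hc₁]; ring) (by rw [hM₁q]; exact hq2)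
    (by rw [hM₁q, hM₁γ]; exact hq4) hM₁G
    (fun p hp => by
      have hp1 : p.1 ∈ M.G ∪ N := ((hkept _ p).1 hp).1
      have hp2 : -p.1 ∈ M.G ∪ N := hyp.div₁.neg_mem hp1
      refine ⟨hM₁θ p (hGNF hp1), ?_, ?_⟩
      · rw [hM₁c p (hGNF hp1), hccn, hτ2, hM₁σ]
      · rw [hM₁c p (hGNF hp1), hM₁c (-p.1, p.2) (hGNF hp2)]
        have hτn : τ (-p.1, p.2) = τ p := by
          rw [hτ]
          simp only [desc, Prod.fst_neg, Prod.snd_neg]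
          congr 2
          rw [← abs_neg]; congr 1; push_cast; ring
        rw [hcc]
        simp only [hτn]
        by_cases hG : p.1 ∈ M.G
        · rw [if_pos hG, if_pos (hM.div.neg_mem hG), hM.θ_neg _ hG, hM.c_neg _ hG, wgt_neg,
            ← map_mul, phase_conj, map_mul, Complex.conj_ofReal]
        · rw [if_neg hG, if_neg (fun h => hG (by simpa using hM.div.neg_mem h)),
            Complex.conj_ofReal])
  -- filling
  obtain ⟨M', hv', hd', hσ'', hα'', hE', hb', hγ', hsub, hnew, hsame, hdd⟩ := hFi.fill M₁ hv₁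
    (fun m hm => hbig₁ m (mem_union_left _ hm)) (by rw [hM₁q, hM₁γ]; exact hq5)
  obtain ⟨h, hh⟩ := hMp.step lam (Mm * Q) (Wf M.σ M.E u V Q)
    (per2_Wf _ _ hM.goodE.smooth hM.goodE.per hV.per Q)
  obtain ⟨S', hS'⟩ := hMp.model M' hv'.goodE.smooth hv'.goodE.per
  have hM'α : M'.α = e ^ 2 := hα''.trans hM₁α
  -- the error for a single atom
  have herr : ∀ m ∈ F, ∀ θ ∈ Θ', ‖kp h (atom M.α m θ) -
      ∑ ν ∈ R'.filter (fun ν => (L m.1 : ℤ) ∣ ν), wgt M.α M.σ u Mm ψ m θ ν •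
        atom (e ^ 2) (desc lam Q (m, ν)) (m.1 * ν / Mm)‖ ≤ 3 * e := by
    intro m hm θ hθ
    have h1 := hPr M.α (e ^ 2) M.σ u M.E Mm Q ψ V lam h m θ
      (R'.filter fun ν => (L m.1 : ℤ) ∣ ν) hα hα' ha0 (by linarith) hM.goodE hMm hQ0 hg.per hV hh
      (hk0 m hm)
    rw [hR'] at h1 ⊢
    refine err_bound _ _ (fun ν => ‖wgt M.α M.σ u Mm ψ m θ ν‖ ^ 2) he0 (norm_nonneg _)
      (fun _ => by positivity) (hen' m hm θ hθ).1 (hen' m hm θ hθ).2.1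
      (le_trans ?_ hcnt.le) (fun ν hν => ?_) h1
    · convert hsel m hm θ hθ
    · have : dft Mm ψ m.1 (m.1 * ν) = 0 := by
        by_contra h0; exact hν (hg.vanish _ (hk0 m hm) (hK m hm).1 ν h0)
      simp [wgt, this]
  -- descendants in the new model
  have hdesc : ∀ m ∈ M.G ∪ N, ∀ ν ∈ R'.filter (fun ν => (L m.1 : ℤ) ∣ ν),
      desc lam Q (m, ν) ∈ M'.G ∧ M'.θ (desc lam Q (m, ν)) = m.1 * ν / Mm ∧
        M'.c (desc lam Q (m, ν)) = cc (m, ν) := by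
    intro m hm ν hν
    have h1 : desc lam Q (m, ν) ∈ M₁.G := by
      rw [hM₁G]
      exact mem_image_of_mem _ ((hkept _ _).2 ⟨hm, (mem_filter.1 hν).1, (mem_filter.1 hν).2⟩)
    exact ⟨hsub h1, (hsame _ h1).1.trans (hM₁θ (m, ν) (hGNF hm)),
      (hsame _ h1).2.trans (hM₁c (m, ν) (hGNF hm))⟩
  have hτapp : ∀ m ∈ F, ∀ ν ∈ R,
      abs (τ (m, ν) ^ 2 - |(m.1 : ℝ)| * (u / Mm)) ≤ e ^ 2 / 4 * (u / Mm) := by
    intro m hm ν hν
    have h1 : |((m.2 + Q * m.1 * ν : ℤ) : ℝ)| ≤ r₀ := by exact_mod_cast hr₀ m hm ν hν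
    have h2 : |(m.1 : ℝ)| * (u / Mm) = |(m.1 : ℝ) * lam| * σ' := by
      rw [abs_mul, abs_of_pos hl0', hσ'1]; field_simp
    rw [hτ2, h2, ← sub_mul, abs_mul, abs_of_pos hσ'0]
    have h3 : abs (|((desc lam Q (m, ν)).1 : ℝ)| - |(m.1 : ℝ) * lam|) ≤ r₀ := by
      refine (abs_abs_sub_abs_le_abs_sub _ _).trans (le_trans (le_of_eq ?_) h1)
      congr 1; simp only [desc]; push_cast; ring
    calc _ ≤ r₀ * σ' := mul_le_mul_of_nonneg_right h3 hσ'0.le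
      _ = r₀ / lam * (u / Mm) := by rw [hσ'1]; ring
      _ ≤ _ := mul_le_mul_of_nonneg_right hl3.le hρ.le
  have hk1 : ∀ m ∈ F, (1 : ℝ) ≤ |(m.1 : ℝ)| := fun m hm => by
    exact_mod_cast Int.one_le_abs (hk0 m hm)
  refine ⟨h, S', M', (kept L R' P).image (desc lam Q), B, Mm * Q, hv', hS',
    stepHyp_fill hst₁ hbig₁ hv' hσ'' hsub hnew, hB1, ?_, ?_, ?_, ?_, ?_, ?_, ?_, ?_⟩
  · -- the defect
    have h1 : (M₁.G.card : ℝ) ≤ F.card * R.card := by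
      rw [hM₁G]
      have : ((kept L R' (M.G ∪ N)).image (desc lam Q)).card ≤ F.card * R.card :=
        card_image_le.trans ((card_filter_le _ _).trans (by
          rw [card_product]
          exact Nat.mul_le_mul (card_le_card hGNF) (card_le_card hR'R)))
      exact_mod_cast this
    rw [hM₁σ, hM₁q] at hdd
    have h2 : M'.d ≤ n₂ * (σ' + 1 / q') + 4 / (q' * σ') := by
      refine hdd.trans (add_le_add (mul_le_mul_of_nonneg_right ?_ (by positivity)) le_rfl)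
      rw [hn₂]; linarith
    calc M'.d * B ^ 2 ≤ (n₂ * (σ' + 1 / q') + 4 / (q' * σ')) * B ^ 2 :=
          mul_le_mul_of_nonneg_right h2 (by positivity)
      _ = n₂ * (u / Mm) * B ^ 2 / lam + n₂ * B ^ 2 / q' + 4 / σ' * B ^ 2 / q' := by
          rw [hσ'1]; field_simp
      _ ≤ ε := by linarith
  · rw [hM'α]; exact aux2 he0 he1 he2
  · -- the vector `g`
    have h1 := hGE M M' h (kept L R' M.G) (desc lam Q)
      (fun p => wgt M.α M.σ u Mm ψ p.1 (M.θ p.1) p.2) (3 * e) (e * (1 + 5 * SG)) hM hv'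
      (fun p hp p' hp' e => by
        rw [← hpar p (hGF ((hkept _ p).1 hp).1), e, hpar p' (hGF ((hkept _ p').1 hp').1)])
      (fun p hp => by
        obtain ⟨h1, h2, h3⟩ := (hkept _ p).1 hp
        exact ⟨h1, (hdesc p.1 (mem_union_left _ h1) p.2 (mem_filter.2 ⟨h2, h3⟩)).1⟩)
      (by positivity) (by positivity)
      (fun m hm => by
        refine le_trans (le_of_eq ?_) (herr m (hGF hm) _ (hΘ₂ m hm))
        congr 2
        symm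
        refine Finset.sum_bij (fun ν _ => (m, ν)) ?_ ?_ ?_ ?_
        · intro ν hν
          exact mem_filter.2 ⟨(hkept _ _).2 ⟨hm, (mem_filter.1 hν).1, (mem_filter.1 hν).2⟩, rfl⟩
        · intro ν _ ν' _ e; exact (Prod.ext_iff.1 e).2
        · rintro ⟨m', ν⟩ hp
          obtain ⟨h1, rfl⟩ := mem_filter.1 hp
          obtain ⟨-, h2, h3⟩ := (hkept _ _).1 h1
          exact ⟨ν, mem_filter.2 ⟨h2, h3⟩, rfl⟩
        · intro ν hν
          rw [hM'α, (hdesc m (mem_union_left _ hm) ν hν).2.1])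
      (by
        calc ∑ p ∈ kept L R' M.G, ‖M'.c (desc lam Q p) -
              M.c p.1 * wgt M.α M.σ u Mm ψ p.1 (M.θ p.1) p.2‖ ^ 2
            = ∑ p ∈ kept L R' M.G, (√(|(p.1.1 : ℝ)| * M.σ) *
              ‖wgt M.α M.σ u Mm ψ p.1 (M.θ p.1) p.2‖ - τ p) ^ 2 := by
              refine Finset.sum_congr rfl fun p hp => ?_
              obtain ⟨h1, h2, h3⟩ := (hkept _ p).1 hp
              rw [(hdesc p.1 (mem_union_left _ h1) p.2 (mem_filter.2 ⟨h2, h3⟩)).2.2, hcc]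
              simp only [if_pos h1]
              rw [norm_mul_phase_sub, sq_abs, norm_mul, ← hM.c_norm _ h1,
                Real.sqrt_sq (norm_nonneg _)]
          _ ≤ ∑ p ∈ M.G ×ˢ R, (√(|(p.1.1 : ℝ)| * M.σ) *
              ‖wgt M.α M.σ u Mm ψ p.1 (M.θ p.1) p.2‖ - τ p) ^ 2 := by
              refine Finset.sum_le_sum_of_subset_of_nonneg (fun p hp => ?_)
                fun _ _ _ => sq_nonneg _
              obtain ⟨h1, h2, -⟩ := (hkept _ p).1 hp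
              exact mem_product.2 ⟨h1, hR'R h2⟩
          _ ≤ ∑ m ∈ M.G, |(m.1 : ℝ)| * M.σ * (4 * e ^ 2 + e ^ 2) := by
              rw [Finset.sum_product]
              refine Finset.sum_le_sum fun m hm => ?_
              refine (hen' m (hGF hm) _ (hΘ₂ m hm)).2.2 (fun ν => τ (m, ν)) (fun ν => ?_)
                fun ν hν => ⟨hτ0 _, (hτapp m (hGF hm) ν hν).trans ?_⟩
              · refine hg.flat _ (hk0 m (hGF hm)) (hK m (hGF hm)).1 (fun d hd => ?_) _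
                obtain ⟨m', hm', rfl⟩ := mem_image.1 hd
                exact hyp.ndvd m' hm' m hm
              · exact aux3 ha0 hρ (hk1 m (hGF hm))
          _ = 5 * SG * e ^ 2 := by rw [← Finset.sum_mul, ← hSG]; ring
          _ ≤ (e * (1 + 5 * SG)) ^ 2 := aux4 hSG0)
    refine h1.trans (add_le_add le_rfl (le_trans (le_of_eq ?_) he3))
    congr 1
    · congr 2; ring
    · ring
  · -- closeness
    refine hclose u (s * (u / Mm) + c₁) lam h S' M' hu hu1 ?_ hl0 hl2 hh hS' (hd'.trans hM₁d)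
      (by rw [hσ'', hM₁σ, hσ']) (hE'.trans hM₁E) ?_ (by rw [hγ', hM₁γ, hc₁]; ring)
    · have h1 : (s : ℝ) ≤ S₀ := by exact_mod_cast hs.le
      have h2 := mul_le_mul_of_nonneg_right h1 hρ.le
      have h3 : (0 : ℝ) ≤ s * (u / Mm) := by positivity
      have h4 := abs_le.1 hq3
      rw [abs_lt]; constructor <;> linarith
    · rw [hb', hM₁b]; push_cast; rw [← hn₁]; ring
  · -- atoms of `G ∪ N`
    intro m hm θ hθ
    obtain ⟨w', h1, h2⟩ := regroup M' (R'.filter fun ν => (L m.1 : ℤ) ∣ ν)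
      (fun ν => desc lam Q (m, ν)) (wgt M.α M.σ u Mm ψ m θ) (fun ν => m.1 * ν / Mm)
      (1 + 4 * Mm / u) (fun ν hν => by
        obtain ⟨h1, h2, h3⟩ := hdesc m hm ν hν
        have hνR : ν ∈ R := hR'R (mem_filter.1 hν).1
        have h4 : u / Mm / 2 ≤ τ (m, ν) ^ 2 :=
          aux5 ha1 hρ (hk1 m (hGNF hm)) (hτapp m (hGNF hm) ν hνR)
        have h6 : ‖wgt M.α M.σ u Mm ψ m θ ν‖ ^ 2 ≤ 2 :=
          (Finset.single_le_sum (f := fun ν => ‖wgt M.α M.σ u Mm ψ m θ ν‖ ^ 2)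
            (fun _ _ => by positivity) hνR).trans (hen' m (hGNF hm) θ (hΘ₁ hθ)).2.1
        obtain ⟨h5, h7⟩ := aux6 hu hMm' (hτ0 (m, ν)) h4 h6
        refine ⟨h1, h2, ?_, ?_⟩
        · rw [h3, ← norm_ne_zero_iff, hccn]; exact h5.ne'
        · rw [h3, norm_div, hccn]; exact h7)
    refine ⟨w', ?_, h2.trans ?_⟩
    · rw [h1, hM'α]
      exact (herr m (hGNF hm) θ (hΘ₁ hθ)).trans he2
    · have h3 : ((R'.filter fun ν => (L m.1 : ℤ) ∣ ν).card : ℝ) ≤ R.card := by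
        exact_mod_cast card_le_card ((filter_subset _ _).trans hR'R)
      have h4 := mul_le_mul_of_nonneg_right h3 (by positivity : (0 : ℝ) ≤ 1 + 4 * Mm / u)
      rw [hB]; linarith
  · -- passive atoms
    intro m hm θ hθ
    refine ⟨_, ?_, (herr m (hPF hm) θ (hΘ₁ hθ)).trans he2⟩
    rw [hM'α]
    refine Submodule.sum_mem _ fun ν hν => Submodule.smul_mem _ _ (atom_mem_atomSpan _ ?_ _)
    exact mem_image_of_mem _ ((hkept _ _).2 ⟨hm, (mem_filter.1 hν).1, (mem_filter.1 hν).2⟩)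
  · exact aux7 hKC hQ hMm
  · intro l j
    exact hIn.kp_ch lam (Mm * Q) _ h l j hh

end Crest.Agent.R81
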