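import Crest.Agent.R81.Defs

/-!
# Row 81, module StepVec

The statement and the recipe are in `R81/Defs.lean` (`StepVecStmt`).
-/

set_option autoImplicit false

open MeasureTheory Finset Crest.AnalysisR.Torus3 Crest.Agent.R75
open scoped InnerProductSpace ComplexConjugate ContDiff

namespace Crest.Agent.R81

namespace StepVec

theorem exists_comb_atom {α : ℝ} {A : Finset (ℤ × ℤ)} {v : L2} (hv : v ∈ atomSpan α A) :
    ∃ (n : ℕ) (a : Fin n → ℂ) (m : Fin n → ℤ × ℤ) (θ : Fin n → ℝ), (∀ i, m i ∈ A) ∧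
      v = ∑ i, a i • atom α (m i) (θ i) := by
  obtain ⟨n, a, g, hg⟩ := Submodule.mem_span_set'.mp hv
  choose m hm θ hθ using fun i => (g i).2
  exact ⟨n, a, m, θ, hm, by rw [← hg]; exact sum_congr rfl fun i _ => by rw [hθ i]⟩

theorem exists_comb_vert {v : L2} (hv : v ∈ vertSpan) :
    ∃ (n : ℕ) (a : Fin n → ℂ) (l j : Fin n → ℤ), (∀ i, (l i, j i) ≠ (0, 0)) ∧
      v = ∑ i, a i • ch 0 (l i) (j i) := by
  obtain ⟨n, a, g, hg⟩ := Submodule.mem_span_set'.mp hv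
  choose l j hlj he using fun i => (g i).2
  exact ⟨n, a, l, j, hlj, by rw [← hg]; exact sum_congr rfl fun i _ => by rw [he i]⟩

theorem norm_kp_comb_le (h : TD) {n : ℕ} (a : Fin n → ℂ) (x y : Fin n → L2) {η : ℝ}
    (hη : ∀ i, ‖kp h (x i) - y i‖ ≤ η) :
    ‖kp h (∑ i, a i • x i) - ∑ i, a i • y i‖ ≤ (∑ i, ‖a i‖) * η := by
  rw [map_sum, ← sum_sub_distrib, sum_mul]
  refine (norm_sum_le _ _).trans (sum_le_sum fun i _ => ?_)
  rw [map_smul, ← smul_sub, norm_smul]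
  exact mul_le_mul_of_nonneg_left (hη i) (norm_nonneg _)

theorem mem_axis {C : ℕ} {c : ℤ} (h0 : c ≠ 0) (hc : c.natAbs ≤ C) : (c, (0 : ℤ)) ∈ axis C :=
  mem_image.mpr ⟨c, mem_erase.mpr ⟨h0, mem_Icc.mpr ⟨by omega, by omega⟩⟩, rfl⟩

end StepVec

open StepVec in
theorem stepVec_of (h1 : StepStmt) (h2 : FibStmt) (h3 : SpecStmt) : StepVecStmt := by
  classical
  intro H S M N P vN vF v₀ r ε hM hS hNP hN hF h0 hε
  obtain ⟨nN, aN, mN, θN, hmN, rfl⟩ := exists_comb_atom hN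
  obtain ⟨nF, aF, mF, θF, hmF, rfl⟩ := exists_comb_atom hF
  obtain ⟨n0, a0, l0, j0, hlj, rfl⟩ := exists_comb_vert h0
  set sN := ∑ i, ‖aN i‖ with hsN
  set sF := ∑ i, ‖aF i‖ with hsF
  set s0 := ∑ i, ‖a0 i‖ with hs0
  have hsN0 : 0 ≤ sN := by positivity
  have hsF0 : 0 ≤ sF := by positivity
  have hs00 : 0 ≤ s0 := by positivity
  set A := sN + sF + s0 + 1 with hA
  have hA1 : 1 ≤ A := by linarith
  set ε₁ := min (ε / A ^ 2) ((ε / A) ^ 2 / 2) with hε₁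
  have hε₁0 : 0 < ε₁ := lt_min (by positivity) (by positivity)
  have e1 : A ^ 2 * ε₁ ≤ ε := by
    have := min_le_left (ε / A ^ 2) ((ε / A) ^ 2 / 2)
    rwa [← hε₁, le_div_iff₀' (by positivity)] at this
  have e2 : A * ε₁ ≤ ε := by nlinarith [mul_nonneg (sub_nonneg.2 hA1) (mul_nonneg
    (by linarith : 0 ≤ A) hε₁0.le)]
  have e3 : ε₁ ≤ ε := by nlinarith
  have e4 : √(2 * ε₁) ≤ ε / A := by
    rw [Real.sqrt_le_left (by positivity)]
    have := min_le_right (ε / A ^ 2) ((ε / A) ^ 2 / 2)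
    rw [← hε₁] at this
    linarith
  obtain ⟨h, S', M', P', B, n₀, k1, k2, k3, k4, k5, k6, k7, k8, k9, k10, k11, k12⟩ :=
    h1 H S M N P (univ.image θN ∪ univ.image θF) (univ.sup fun i => (j0 i).natAbs) r ε₁ hM hS hNP
      hε₁0
  have hd := h3.d_nonneg M' k1
  choose wN hwN hwB using fun i => k9 (mN i) (hmN i) (θN i)
    (mem_union_left _ (mem_image_of_mem _ (mem_univ i)))
  have hvF : ∀ i, ∃ v ∈ atomSpan M'.α (M'.G ∪ P'), ‖kp h (atom M.α (mF i) (θF i)) - v‖ ≤ ε₁ := by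
    intro i
    have hθ : θF i ∈ univ.image θN ∪ univ.image θF :=
      mem_union_right _ (mem_image_of_mem _ (mem_univ i))
    rcases mem_union.mp (hmF i) with hm | hm
    · obtain ⟨w, hw, -⟩ := k9 _ hm _ hθ
      exact ⟨_, Submodule.sum_mem _ fun m' hm' => Submodule.smul_mem _ _
        (atom_mem_atomSpan _ (mem_union_left _ hm') _), hw⟩
    · obtain ⟨v, hv, hw⟩ := k10 _ hm _ hθ
      exact ⟨v, atomSpan_mono _ subset_union_right hv, hw⟩
  choose vF hvF1 hvF2 using hvF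
  have hne : ∀ i, j0 i + n₀ * l0 i ≠ 0 := by
    intro i hi
    have hj : (j0 i).natAbs ≤ univ.sup fun i => (j0 i).natAbs :=
      le_sup (f := fun i => (j0 i).natAbs) (mem_univ i)
    have hj' : |j0 i| < n₀ := by
      rw [Int.abs_eq_natAbs]
      exact lt_of_le_of_lt (by exact_mod_cast hj) k11
    by_cases hl : l0 i = 0
    · exact hlj i (by rw [hl] at hi ⊢; simp at hi; rw [hi])
    · have h4 : j0 i = -(n₀ * l0 i) := by linarith
      have h5 : 1 ≤ |l0 i| := Int.one_le_abs hl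
      have h6 : 0 < n₀ := lt_of_le_of_lt (abs_nonneg _) hj'
      rw [h4, abs_neg, abs_mul, abs_of_pos h6] at hj'
      nlinarith
  refine ⟨h, S', M', P', A * B, fun m' => ∑ i, aN i * wN i m',
    univ.sup fun i => (j0 i + n₀ * l0 i).natAbs, k1, k2, k3, ?_, ?_, k6.trans e3, by linarith,
    k8.mono le_rfl e3, ?_, ?_, ⟨∑ i, aF i • vF i, Submodule.sum_mem _ fun i _ =>
      Submodule.smul_mem _ _ (hvF1 i), ?_⟩,
    ⟨∑ i, a0 i • atom M'.α (j0 i + n₀ * l0 i, 0) (l0 i), Submodule.sum_mem _ fun i _ =>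
      Submodule.smul_mem _ _ (atom_mem_atomSpan _ (mem_axis (hne i)
        (le_sup (f := fun i => (j0 i + n₀ * l0 i).natAbs) (mem_univ i))) _), ?_⟩⟩
  · calc M'.d * (A * B) ^ 2 = A ^ 2 * (M'.d * B ^ 2) := by ring
      _ ≤ A ^ 2 * ε₁ := by gcongr
      _ ≤ ε := e1
  · have : 1 ≤ B ^ 2 := one_le_pow₀ k4
    nlinarith
  · have e : ∑ m' ∈ M'.G, ((∑ i, aN i * wN i m') * M'.c m') • atom M'.α m' (M'.θ m') =
        ∑ i, aN i • ∑ m' ∈ M'.G, (wN i m' * M'.c m') • atom M'.α m' (M'.θ m') := by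
      simp only [sum_mul, sum_smul, smul_sum, smul_smul, mul_assoc]
      exact sum_comm
    rw [e]
    refine (norm_kp_comb_le h aN _ _ hwN).trans (le_trans ?_ e2)
    gcongr
    linarith
  · have : ∑ m' ∈ M'.G, ‖∑ i, aN i * wN i m'‖ ≤ sN * B := by
      calc ∑ m' ∈ M'.G, ‖∑ i, aN i * wN i m'‖ ≤ ∑ m' ∈ M'.G, ∑ i, ‖aN i‖ * ‖wN i m'‖ :=
            sum_le_sum fun m' _ => (norm_sum_le _ _).trans (le_of_eq (by simp only [norm_mul]))
        _ = ∑ i, ‖aN i‖ * ∑ m' ∈ M'.G, ‖wN i m'‖ := by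
            rw [sum_comm]; simp only [mul_sum]
        _ ≤ ∑ i, ‖aN i‖ * B := sum_le_sum fun i _ =>
            mul_le_mul_of_nonneg_left (hwB i) (norm_nonneg _)
        _ = sN * B := by rw [hsN, sum_mul]
    have h4 : 0 ≤ (sF + s0) * B := by positivity
    nlinarith
  · refine (norm_kp_comb_le h aF _ _ hvF2).trans (le_trans ?_ e2)
    gcongr
    linarith
  · have hb : ∀ i, ‖kp h (ch 0 (l0 i) (j0 i)) - atom M'.α (j0 i + n₀ * l0 i, 0) (l0 i)‖ ≤ ε / A := by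
      intro i
      rw [k12]
      refine le_trans (Real.le_sqrt_of_sq_le ?_) e4
      refine (h2.ch_sub_atom M'.α _ _ _ k1.α_pos.le (by linarith [k1.α_lt])).trans ?_
      linarith
    refine (norm_kp_comb_le h a0 _ _ hb).trans ?_
    calc s0 * (ε / A) ≤ A * (ε / A) := by gcongr; linarith
      _ = ε := by field_simp

end Crest.Agent.R81
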