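import Crest.Agent.R81.Defs

/-!
# Row 81, module SubFlat

The statement and the recipe are in `R81/Defs.lean` (`SubFlatStmt`).
-/

set_option autoImplicit false

open MeasureTheory Finset Crest.AnalysisR.Torus3 Crest.Agent.R75
open scoped InnerProductSpace ComplexConjugate ContDiff

namespace Crest.Agent.R81

namespace SubFlat

theorem arc_integral {φ : ℝ → ℝ} (hp : Function.Periodic φ 1) {lo hi : ℝ} (h1 : lo ≤ hi)
    (h2 : hi < lo + 1) :
    ∫ b in ((↑) : ℝ → UnitAddCircle) '' Set.Icc lo hi, (hp.lift b : ℝ) = ∫ t in lo..hi, φ t := by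
  have hA : MeasurableSet (((↑) : ℝ → UnitAddCircle) '' Set.Icc lo hi) :=
    (isCompact_Icc.image (AddCircle.continuous_mk' 1)).isClosed.measurableSet
  rw [← integral_indicator hA, ← UnitAddCircle.integral_preimage (hi - 1), sub_add_cancel,
    intervalIntegral.integral_of_le h1, ← integral_Icc_eq_integral_Ioc (x := lo)]
  have hsub : Set.Icc lo hi ⊆ Set.Ioc (hi - 1) hi := fun t ht => ⟨by linarith [ht.1], ht.2⟩
  rw [setIntegral_congr_fun measurableSet_Ioc (g := (Set.Icc lo hi).indicator φ),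
    setIntegral_indicator measurableSet_Icc, Set.inter_eq_right.2 hsub]
  intro a ha
  by_cases h : a ∈ Set.Icc lo hi
  · simp only [Set.indicator_of_mem h]
    rw [Set.indicator_of_mem (Set.mem_image_of_mem _ h)]
    rfl
  · simp only [Set.indicator_of_notMem h]
    rw [Set.indicator_of_notMem]
    rintro ⟨t, ht, e⟩
    obtain ⟨n, hn⟩ := (coe_eq_coe_iff t a).1 e
    have h3 := hsub ht
    have h4 : (n : ℝ) < 1 := by linarith [h3.2, ha.1]
    have h5 : (-1 : ℝ) < n := by linarith [h3.1, ha.2]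
    have h6 : n < 1 := by exact_mod_cast h4
    have h7 : -1 < n := by exact_mod_cast h5
    obtain rfl : n = 0 := by omega
    have : t = a := by simpa [sub_eq_zero] using hn
    exact h (this ▸ ht)

theorem sum_le {ι : Type*} (G : Finset ι) (lo hi : ι → ℝ) {φ : ℝ → ℝ} (hc : Continuous φ)
    (hp : Function.Periodic φ 1) (h0 : ∀ t, 0 ≤ φ t) (hle : ∀ m ∈ G, lo m ≤ hi m)
    (hd : ∀ m ∈ G, ∀ m' ∈ G, ∀ t ∈ Set.Icc (lo m) (hi m), ∀ t' ∈ Set.Icc (lo m') (hi m'), ∀ n : ℤ,
      t - t' = n → m = m' ∧ t = t') :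
    ∑ m ∈ G, ∫ t in lo m..hi m, φ t ≤ ∫ t in (0 : ℝ)..1, φ t := by
  have hΦ : Continuous (hp.lift : UnitAddCircle → ℝ) :=
    (QuotientAddGroup.isQuotientMap_mk (AddSubgroup.zmultiples (1 : ℝ))).continuous_iff.2 hc
  have hint : Integrable (hp.lift : UnitAddCircle → ℝ) volume :=
    hΦ.integrable_of_hasCompactSupport (HasCompactSupport.of_compactSpace _)
  have hlt : ∀ m ∈ G, hi m < lo m + 1 := by
    intro m hm
    by_contra hn
    have := (hd m hm m hm (lo m + 1) ⟨by linarith, not_lt.1 hn⟩ (lo m) ⟨le_rfl, hle m hm⟩ 1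
      (by simp)).2
    linarith
  have e : ∫ t in (0 : ℝ)..1, φ t = ∫ b : UnitAddCircle, (hp.lift b : ℝ) := by
    rw [← UnitAddCircle.intervalIntegral_preimage 0, zero_add]
    rfl
  rw [e, Finset.sum_congr rfl fun m hm => (arc_integral hp (hle m hm) (hlt m hm)).symm,
    ← integral_biUnion_finset G (s := fun m => ((↑) : ℝ → UnitAddCircle) '' Set.Icc (lo m) (hi m))
      (fun m _ => (isCompact_Icc.image (AddCircle.continuous_mk' 1)).isClosed.measurableSet)
      ?_ fun m _ => hint.integrableOn]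
  · refine setIntegral_le_integral hint (Filter.Eventually.of_forall fun b => ?_)
    induction b using QuotientAddGroup.induction_on with
    | H t => exact h0 t
  · intro m hm m' hm' hne
    refine Set.disjoint_left.2 ?_
    rintro _ ⟨t, ht, rfl⟩ ⟨t', ht', e'⟩
    obtain ⟨n, hn⟩ := (coe_eq_coe_iff t' t).1 e'
    exact hne (hd m' hm' m hm t' ht' t ht n hn).1.symm

theorem affine_integral (φ : ℝ → ℝ) {κ : ℝ} (c : ℝ) {a b : ℝ} (hab : a ≤ b) :
    |κ| * ∫ y in a..b, φ (κ * y + c) =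
      ∫ t in min (κ * a + c) (κ * b + c)..max (κ * a + c) (κ * b + c), φ t := by
  rcases le_total 0 κ with h | h
  · have : κ * a + c ≤ κ * b + c := by nlinarith
    rw [abs_of_nonneg h, min_eq_left this, max_eq_right this,
      intervalIntegral.mul_integral_comp_mul_add]
  · have : κ * b + c ≤ κ * a + c := by nlinarith
    rw [abs_of_nonpos h, min_eq_right this, max_eq_left this, neg_mul,
      intervalIntegral.mul_integral_comp_mul_add, intervalIntegral.integral_symm, neg_neg]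

theorem affine_mem {κ c a b t : ℝ} (hab : a ≤ b)
    (ht : t ∈ Set.Icc (min (κ * a + c) (κ * b + c)) (max (κ * a + c) (κ * b + c))) :
    ∃ y ∈ Set.Icc a b, κ * y + c = t := by
  have hc : ContinuousOn (fun y => κ * y + c) (Set.uIcc a b) := by fun_prop
  have := intermediate_value_uIcc hc ht
  rwa [Set.uIcc_of_le hab] at this

end SubFlat

open SubFlat in
theorem subFlat_stmt : SubFlatStmt := by
  intro M φ hM hc hp h0
  have hab : M.α ≤ 1 - M.α := by linarith [hM.α_lt]
  have hf : ∀ (m : ℤ × ℤ) (y : ℝ),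
      M.freq m y = (m.1 * M.σ) * y + (m.1 * M.dbar + m.2 * M.γ) := by
    intro m y
    unfold Model.freq
    ring
  refine le_trans (le_of_eq (Finset.sum_congr rfl fun m _ => ?_)) (sum_le M.G
    (fun m => min ((m.1 * M.σ) * M.α + (m.1 * M.dbar + m.2 * M.γ))
      ((m.1 * M.σ) * (1 - M.α) + (m.1 * M.dbar + m.2 * M.γ)))
    (fun m => max ((m.1 * M.σ) * M.α + (m.1 * M.dbar + m.2 * M.γ))
      ((m.1 * M.σ) * (1 - M.α) + (m.1 * M.dbar + m.2 * M.γ))) hc hp h0
    (fun _ _ => min_le_max) ?_)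
  · simp only [hf]
    rw [← affine_integral φ _ hab, abs_mul, abs_of_pos hM.σ_pos]
  · intro m hm m' hm' t ht t' ht' n hn
    obtain ⟨y, hy, rfl⟩ := affine_mem hab ht
    obtain ⟨y', hy', rfl⟩ := affine_mem hab ht'
    rw [← hf, ← hf] at hn
    obtain ⟨rfl, rfl⟩ := hM.disj m hm m' hm' y hy y' hy' n hn
    exact ⟨rfl, rfl⟩

end Crest.Agent.R81
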