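import Crest.Agent.R81.Defs

/-!
# Row 81, module VonNeumann

The statement and the recipe are in `R81/Defs.lean` (`VonNeumannStmt`).
-/

set_option autoImplicit false

open MeasureTheory Finset Crest.AnalysisR.Torus3 Crest.Agent.R75
open scoped InnerProductSpace ComplexConjugate ContDiff

namespace Crest.Agent.R81

namespace VonNeumann

/-- The Koopman operator of the inverse, as a homomorphism into the units. -/
noncomputable def uk : TD →* (L2 →L[ℂ] L2)ˣ :=
  MonoidHom.toHomUnits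
    { toFun := fun T => (kp T⁻¹).toContinuousLinearMap
      map_one' := by ext1 f; simp
      map_mul' := fun T S => by ext1 f; simp [kp_mul] }

theorem uk_apply (T : TD) (f : L2) : (uk T : L2 →L[ℂ] L2) f = kp T⁻¹ f := rfl

theorem uk_mem (T : TD) : (uk T : L2 →L[ℂ] L2) ∈ unitary (L2 →L[ℂ] L2) :=
  (Unitary.linearIsometryEquiv.symm
    (LinearIsometryEquiv.ofSurjective (kp T⁻¹) fun f => ⟨kp T f, kp_inv_kp T f⟩)).2

theorem ee_int_mul (n : ℤ) (x : ℝ) : ee (n * x) = ee x ^ n := by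
  simp only [ee, ← Complex.exp_int_mul]; congr 1; push_cast; ring

end VonNeumann

open VonNeumann in
theorem vonNeumann_stmt : VonNeumannStmt := by
  intro T A p B f hB
  have hU := uk_mem T⁻¹
  have hn : IsStarNormal (uk T⁻¹ : L2 →L[ℂ] L2) := isStarNormal_of_mem_unitary hU
  have hsp : ∀ z ∈ spectrum ℂ (uk T⁻¹ : L2 →L[ℂ] L2), ‖z‖ = 1 :=
    spectrum.norm_eq_one_of_unitary hU
  have hc : ∀ n : ℤ, ContinuousOn (fun z : ℂ => z ^ n) (spectrum ℂ (uk T⁻¹ : L2 →L[ℂ] L2)) :=
    fun n => continuousOn_id.zpow₀ n fun z hz => Or.inl fun h => by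
      have := hsp z hz
      rw [id] at h
      rw [h, norm_zero] at this
      exact zero_ne_one this
  have h1 : cfc (∑ n ∈ A, fun z : ℂ => p n * z ^ n) (uk T⁻¹ : L2 →L[ℂ] L2) =
      ∑ n ∈ A, p n • (uk (T ^ n)⁻¹ : L2 →L[ℂ] L2) := by
    rw [cfc_sum (fun (n : ℤ) (z : ℂ) => p n * z ^ n) _ _ fun n _ => continuousOn_const.mul (hc n)]
    refine sum_congr rfl fun n _ => ?_
    rw [cfc_const_mul _ _ _ (hc n), cfc_zpow _ n hn, ← map_zpow, inv_zpow]
  have h2 : ‖cfc (∑ n ∈ A, fun z : ℂ => p n * z ^ n) (uk T⁻¹ : L2 →L[ℂ] L2)‖ ≤ B := by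
    refine norm_cfc_le ((norm_nonneg _).trans (hB 0)) fun z hz => ?_
    have e : ee (z.arg / (2 * Real.pi)) = z := by
      have := Complex.norm_mul_exp_arg_mul_I z
      rw [hsp z hz, Complex.ofReal_one, one_mul] at this
      rw [ee]
      conv_rhs => rw [← this]
      congr 1
      have : (Real.pi : ℂ) ≠ 0 := by exact_mod_cast Real.pi_ne_zero
      push_cast
      field_simp
    have := hB (z.arg / (2 * Real.pi))
    simp only [ee_int_mul, e] at this
    rwa [Finset.sum_apply]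
  have h3 : ∑ n ∈ A, p n • kp (T ^ n) f =
      cfc (∑ n ∈ A, fun z : ℂ => p n * z ^ n) (uk T⁻¹ : L2 →L[ℂ] L2) f := by
    rw [h1, _root_.sum_apply]
    refine sum_congr rfl fun n _ => ?_
    rw [_root_.smul_apply, uk_apply, inv_inv]
  rw [h3]
  exact (ContinuousLinearMap.le_opNorm _ _).trans (mul_le_mul_of_nonneg_right h2 (norm_nonneg _))

end Crest.Agent.R81
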