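import Crest.Agent.R81.Integral
import Crest.Agent.R81.Fib
import Crest.Agent.R81.Cut
import Crest.Agent.R81.Dense
import Crest.Agent.R81.SubFlat
import Crest.Agent.R81.Spec
import Crest.Agent.R81.Approx
import Crest.Agent.R81.GadgetChar
import Crest.Agent.R81.Gadget
import Crest.Agent.R81.Fresnel
import Crest.Agent.R81.Energy
import Crest.Agent.R81.Smooth
import Crest.Agent.R81.Maps
import Crest.Agent.R81.Close
import Crest.Agent.R81.ConjClose
import Crest.Agent.R81.Inner
import Crest.Agent.R81.Proj
import Crest.Agent.R81.GEst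
import Crest.Agent.R81.Select
import Crest.Agent.R81.Geom
import Crest.Agent.R81.Fill
import Crest.Agent.R81.Step
import Crest.Agent.R81.StepVec
import Crest.Agent.R81.Macro
import Crest.Agent.R81.VonNeumann
import Crest.Agent.R81.Robust
import Crest.Agent.R81.Limit
import Crest.Agent.R81.Iter
import Crest.Agent.R81.Final

/-!
# Row 81: assembly of the modules
-/

set_option autoImplicit false

namespace Crest.Agent.R81

theorem nonempty_st : Nonempty St := by
  obtain ⟨E, hE⟩ := smooth_stmt.exE (1 / 8) (by norm_num) (by norm_num)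
  let M : Model := ⟨0, 1, 1 / 8, E, 0, 0, 1, ∅, fun _ => 0, fun _ => 0⟩
  obtain ⟨S, hS⟩ := maps_stmt.model M hE.smooth hE.per
  refine ⟨⟨1, S, M, ?_, hS⟩⟩
  refine ⟨one_pos, by norm_num [M], by norm_num [M], hE, one_pos, ⟨0, by simp [M]⟩, ?_, ?_, ?_, ?_,
    ?_, ?_⟩ <;> simp [M, DivClosed]

theorem main_stmt : MainStmt := by
  have hI := integral_stmt
  have hF := fib_of hI
  have hSp := spec_of hF subFlat_stmt
  have hIn := inner_of hI
  have hD := dense_of hF
  have hStep := step_of (gadget_of gadgetChar_stmt) (energy_of fresnel_stmt) smooth_stmt maps_stmt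
    (conjClose_of smooth_stmt close_stmt) hIn (proj_of hIn hF) (gEst_of hF hSp) select_stmt
    geom_stmt fill_stmt
  have hMac := macro_of (stepVec_of hStep hF hSp) (approx_of hF) (cut_of hI) hD hF
  exact main_of hD (iter_stmt nonempty_st hMac robust_stmt vonNeumann_stmt limit_stmt hSp)

end Crest.Agent.R81
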