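import Crest.Agent.R81.Defs

/-!
# Row 81, module Integral

The statement and the recipe are in `R81/Defs.lean` (`IntegralStmt`).
-/

set_option autoImplicit false

open MeasureTheory Finset Crest.AnalysisR.Torus3 Crest.Agent.R75
open scoped InnerProductSpace ComplexConjugate ContDiff

namespace Crest.Agent.R81

namespace Integral

/-- The torus as a product of three circles, the middle coordinate first. -/
noncomputable def e3 : T3 ≃ᵐ UnitAddCircle × UnitAddCircle × UnitAddCircle :=
  (MeasurableEquiv.piFinSuccAbove (fun _ : Fin 3 => UnitAddCircle) 1).trans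
    ((MeasurableEquiv.refl _).prodCongr MeasurableEquiv.finTwoArrow)

theorem mp_e3 : MeasurePreserving e3 volume volume :=
  ((MeasurePreserving.id volume).prod (volume_preserving_finTwoArrow UnitAddCircle)).comp
    (volume_preserving_piFinSuccAbove (fun _ : Fin 3 => UnitAddCircle) 1)

theorem e3_symm (p : UnitAddCircle × UnitAddCircle × UnitAddCircle) :
    e3.symm p = ![p.2.1, p.1, p.2.2] := by
  rw [MeasurableEquiv.symm_apply_eq]
  rfl

theorem circle (g : UnitAddCircle → ℂ) : ∫ y, g y = ∫ t in (0 : ℝ)..1, g (t : UnitAddCircle) := by
  simpa using (UnitAddCircle.intervalIntegral_preimage 0 g).symm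

end Integral

open Integral in
theorem integral_stmt : IntegralStmt := by
  intro f hf
  have hi : Integrable fun p => f (e3.symm p) :=
    (mp_e3.symm e3).integrable_comp_emb e3.symm.measurableEmbedding |>.2 hf
  rw [← (mp_e3.symm e3).integral_comp' f, Measure.volume_eq_prod, integral_prod _ hi]
  have h1 : ∫ y, ∫ q : UnitAddCircle × UnitAddCircle, f (e3.symm (y, q)) =
      ∫ y : UnitAddCircle, ∫ z : UnitAddCircle, ∫ x : UnitAddCircle, f ![x, y, z] := by
    refine integral_congr_ae ?_
    filter_upwards [Integrable.prod_right_ae hi] with y hy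
    rw [Measure.volume_eq_prod, integral_prod_symm _ hy]
    simp only [e3_symm]
  rw [h1]
  simp only [circle]
  congr 1; funext y; congr 1; funext z; congr 1; funext x; congr 1
  funext i; fin_cases i <;> rfl

end Crest.Agent.R81
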