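import Crest.Agent.R81.Defs

/-!
# Row 81, module Step: auxiliary lemmas
-/

set_option autoImplicit false

open MeasureTheory Finset Crest.AnalysisR.Torus3 Crest.Agent.R75 Filter Topology
open scoped InnerProductSpace ComplexConjugate ContDiff

namespace Crest.Agent.R81

namespace Step

/-- A left inverse of `desc`. -/
def par (K lam Q : ℤ) (m' : ℤ × ℤ) : (ℤ × ℤ) × ℤ :=
  ((m'.2, (m'.1 - m'.2 * lam + K) % Q - K), ((m'.1 - m'.2 * lam + K) / Q) / m'.2)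

theorem par_desc {K lam Q : ℤ} (hQ : 2 * K < Q) {p : (ℤ × ℤ) × ℤ} (hk : p.1.1 ≠ 0)
    (hj : |p.1.2| ≤ K) : par K lam Q (desc lam Q p) = p := by
  obtain ⟨⟨k, j⟩, ν⟩ := p
  simp only at hk hj
  have h1 := abs_le.1 hj
  have e : k * lam + j + Q * k * ν - k * lam + K = (j + K) + Q * (k * ν) := by ring
  have hQ0 : Q ≠ 0 := by omega
  simp only [par, desc, e, Int.add_mul_emod_self_left, Int.add_mul_ediv_left _ _ hQ0]
  have e1 : (j + K) % Q = j + K := Int.emod_eq_of_lt (by omega) (by omega)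
  have e2 : (j + K) / Q = 0 := Int.ediv_eq_zero_of_lt (by omega) (by omega)
  rw [e1, e2, zero_add, Int.mul_ediv_cancel_left _ hk]
  simp

/-- The phase of a complex number. -/
noncomputable def phase (z : ℂ) : ℂ := if z = 0 then 1 else z / (‖z‖ : ℂ)

theorem norm_phase (z : ℂ) : ‖phase z‖ = 1 := by
  unfold phase
  split_ifs with h
  · simp
  · simp [h]

theorem phase_conj (z : ℂ) : phase (conj z) = conj (phase z) := by
  unfold phase
  by_cases h : z = 0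
  · simp [h]
  · have : conj z ≠ 0 := by simpa using h
    simp [h, this]

theorem norm_mul_phase_sub (τ : ℝ) (z : ℂ) : ‖(τ : ℂ) * phase z - z‖ = |‖z‖ - τ| := by
  have h1 : z = (‖z‖ : ℂ) * phase z := by
    unfold phase
    split_ifs with h
    · simp [h]
    · have : (‖z‖ : ℂ) ≠ 0 := by simpa using h
      field_simp
  have : (τ : ℂ) * phase z - z = ((τ - ‖z‖ : ℝ) : ℂ) * phase z := by
    conv_lhs => rw [h1]
    rw [show phase ((‖z‖ : ℂ) * phase z) = phase z by rw [← h1]]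
    push_cast; ring
  rw [this, norm_mul, norm_phase, mul_one, Complex.norm_real, Real.norm_eq_abs, abs_sub_comm]

theorem dft_neg (M : ℕ) (ψ : ℤ → ℝ) (k n : ℤ) : dft M ψ (-k) (-n) = conj (dft M ψ k n) := by
  simp only [dft, map_mul, map_sum, ← ee_neg]
  congr 1
  · simp
  · refine Finset.sum_congr rfl fun J _ => ?_
    congr 1; push_cast; ring

theorem phiHat_neg (α β ξ : ℝ) : phiHat α (-β) (-ξ) = conj (phiHat α β ξ) := by
  simp only [phiHat]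
  rw [← intervalIntegral.intervalIntegral_conj]
  refine intervalIntegral.integral_congr fun y _ => ?_
  simp only [← ee_neg]
  congr 1; ring

theorem wgt_neg (α σ u : ℝ) (M : ℕ) (ψ : ℤ → ℝ) (m : ℤ × ℤ) (θ : ℝ) (ν : ℤ) :
    wgt α σ u M ψ (-m) (-θ) ν = conj (wgt α σ u M ψ m θ ν) := by
  simp only [wgt, map_mul, ← dft_neg, ← phiHat_neg, Prod.fst_neg]
  congr 2
  · ring
  · push_cast; ring
  · push_cast; ring

theorem ev_small (a b : ℝ) (hb : 0 < b) : ∀ᶠ u in 𝓝[>] (0 : ℝ), a * u < b := by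
  have : Tendsto (fun u : ℝ => a * u) (𝓝 0) (𝓝 (a * 0)) := tendsto_const_nhds.mul tendsto_id
  rw [mul_zero] at this
  exact nhdsWithin_le_nhds (this.eventually (gt_mem_nhds hb))

theorem ev_large (a b : ℝ) (hb : 0 < b) : ∀ᶠ n : ℕ in atTop, a / n < b :=
  (tendsto_const_div_atTop_nhds_zero_nat a).eventually (gt_mem_nhds hb)

theorem exists_err (ε Λ : ℝ) (hε : 0 < ε) :
    ∃ e : ℝ, 0 < e ∧ e ≤ 1 / 4 ∧ 3 * e ≤ ε ∧ √(2 * (e * Λ)) + e * Λ ≤ ε := by
  have h := ((ev_small 1 (1 / 4) (by norm_num)).and ((ev_small 3 ε hε).and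
    ((ev_small (2 * Λ) ((ε / 2) ^ 2) (by positivity)).and
      (ev_small Λ (ε / 2) (by positivity))))).and self_mem_nhdsWithin
  obtain ⟨e, ⟨h1, h2, h3, h4⟩, h5⟩ := h.exists
  refine ⟨e, h5, by linarith, h2.le, ?_⟩
  have : √(2 * (e * Λ)) ≤ ε / 2 := by
    rw [Real.sqrt_le_left (by positivity)]; nlinarith
  linarith

theorem per2_Wf (σ u : ℝ) {E : ℝ → ℝ} (hE : ContDiff ℝ ∞ E) (hp : Function.Periodic E 1)
    {V : ℝ → ℝ → ℝ} (hV : Per2 V) (Q : ℕ) : Per2 (Wf σ E u V Q) := by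
  refine ⟨?_, fun Y Z => ?_, fun Y Z => ?_⟩
  · have h1 : ContDiff ℝ ∞ fun p : ℝ × ℝ => σ * E p.1 / u :=
      (contDiff_const.mul (hE.comp contDiff_fst)).div_const u
    have h2 : ContDiff ℝ ∞ fun p : ℝ × ℝ => Function.uncurry V (p.1, Q * p.2) :=
      hV.smooth.comp (contDiff_fst.prodMk (contDiff_const.mul contDiff_snd))
    exact h1.add h2
  · simp only [Wf, hp Y, hV.per₁]
  · have h1 : Function.Periodic (V Y) 1 := hV.per₂ Y
    have h2 := h1.nat_mul Q (Q * Z)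
    simp only [Wf, mul_add, h2]

theorem mem_Rng {α ζ σ u : ℝ} {M : ℕ} (hM : 0 < M) (hu : 0 < u) {ν : ℤ}
    (h : ν ∈ Rng α ζ (M * σ / u)) :
    (α + ζ) * σ ≤ u / M * ν ∧ u / M * ν ≤ (1 - α - ζ) * σ := by
  simp only [Rng, Finset.mem_Icc, Int.ceil_le, Int.le_floor] at h
  have hM' : (0 : ℝ) < M := by exact_mod_cast hM
  have hρ : 0 < u / M := by positivity
  constructor
  · calc (α + ζ) * σ = u / M * ((α + ζ) * (M * σ / u)) := by field_simp
      _ ≤ _ := mul_le_mul_of_nonneg_left h.1 hρ.le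
  · calc u / M * ν ≤ u / M * ((1 - α - ζ) * (M * σ / u)) := mul_le_mul_of_nonneg_left h.2 hρ.le
      _ = _ := by field_simp

/-- The error of the projection on the kept descendants. -/
theorem err_bound {α e x : ℝ} {R : Finset ℤ} (bad dv : ℤ → Prop) [DecidablePred bad]
    [DecidablePred dv] (wt : ℤ → ℝ) (he : 0 < e) (hx : 0 ≤ x)
    (h0 : ∀ ν, 0 ≤ wt ν) (h1 : 1 - 2 * α - 2 * e ^ 2 - e ^ 2 ≤ ∑ ν ∈ R, wt ν)
    (h2 : ∑ ν ∈ R, wt ν ≤ 2) (h3 : ∑ ν ∈ R.filter bad, wt ν ≤ e ^ 2)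
    (h4 : ∀ ν, ¬ dv ν → wt ν = 0)
    (h5 : x ^ 2 = (1 - 2 * α) - (1 - 2 * e ^ 2) *
      ∑ ν ∈ (R.filter fun ν => ¬ bad ν).filter dv, wt ν) : x ≤ 3 * e := by
  have e1 : ∑ ν ∈ (R.filter fun ν => ¬ bad ν).filter dv, wt ν =
      ∑ ν ∈ R.filter fun ν => ¬ bad ν, wt ν := by
    rw [Finset.sum_filter_of_ne]
    intro ν _ hν
    by_contra h; exact hν (h4 ν h)
  have e2 := Finset.sum_filter_add_sum_filter_not R bad wt
  have e3 : 0 ≤ ∑ ν ∈ R.filter bad, wt ν := Finset.sum_nonneg fun ν _ => h0 ν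
  rw [e1] at h5
  have : x ^ 2 ≤ (3 * e) ^ 2 := by nlinarith [sq_nonneg e]
  exact (pow_le_pow_iff_left₀ hx (by positivity) two_ne_zero).1 this

/-- Rewriting a sum over descendants as a sum over the modes of the new model. -/
theorem regroup (M' : Model) (A : Finset ℤ) (D : ℤ → ℤ × ℤ) (w : ℤ → ℂ) (θ : ℤ → ℝ) (b : ℝ)
    (hD : ∀ ν ∈ A, D ν ∈ M'.G ∧ M'.θ (D ν) = θ ν ∧ M'.c (D ν) ≠ 0 ∧ ‖w ν / M'.c (D ν)‖ ≤ b) :
    ∃ w' : ℤ × ℤ → ℂ, ∑ m' ∈ M'.G, (w' m' * M'.c m') • atom M'.α m' (M'.θ m') =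
      ∑ ν ∈ A, w ν • atom M'.α (D ν) (θ ν) ∧ ∑ m' ∈ M'.G, ‖w' m'‖ ≤ A.card * b := by
  classical
  refine ⟨fun m' => ∑ ν ∈ A, if D ν = m' then w ν / M'.c m' else 0, ?_, ?_⟩
  · simp only [Finset.sum_mul, Finset.sum_smul]
    rw [Finset.sum_comm]
    refine Finset.sum_congr rfl fun ν hν => ?_
    obtain ⟨h1, h2, h3, -⟩ := hD ν hν
    rw [Finset.sum_eq_single (D ν)]
    · simp [h2, h3]
    · intro m' _ hne; simp [hne.symm]
    · intro h; exact absurd h1 h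
  · calc ∑ m' ∈ M'.G, ‖∑ ν ∈ A, if D ν = m' then w ν / M'.c m' else 0‖
        ≤ ∑ m' ∈ M'.G, ∑ ν ∈ A, ‖if D ν = m' then w ν / M'.c m' else 0‖ :=
          Finset.sum_le_sum fun m' _ => norm_sum_le _ _
      _ = ∑ ν ∈ A, ‖w ν / M'.c (D ν)‖ := by
          rw [Finset.sum_comm]
          refine Finset.sum_congr rfl fun ν hν => ?_
          rw [Finset.sum_eq_single (D ν)]
          · simp
          · intro m' _ hne; simp [hne.symm]
          · intro h; exact absurd (hD ν hν).1 h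
      _ ≤ ∑ _ν ∈ A, b := Finset.sum_le_sum fun ν hν => (hD ν hν).2.2.2
      _ = A.card * b := by simp

/-- The hypotheses of the next step survive the filling. -/
theorem stepHyp_fill {M₁ M' : Model} {P' : Finset (ℤ × ℤ)} (h₁ : StepHyp M₁ P' ∅)
    (hbig : ∀ m ∈ M₁.G ∪ P', 1 < |m.1|) (hv : M'.Valid) (hσ : M'.σ = M₁.σ) (hsub : M₁.G ⊆ M'.G)
    (hnew : ∀ m ∈ M'.G, m ∉ M₁.G → |m.1| = 1) : StepHyp M' P' ∅ := by
  classical
  have hdiv : DivClosed (M'.G ∪ P') := by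
    intro m hm b m' e
    rcases Finset.mem_union.1 hm with hm | hm
    · exact Finset.mem_union_left _ (hv.div m hm b m' e)
    · rcases Finset.mem_union.1 (h₁.div₁ m (Finset.mem_union_right _ hm) b m' e) with h | h
      · exact Finset.mem_union_left _ (hsub h)
      · exact Finset.mem_union_right _ h
  refine ⟨h₁.k_ne, hdiv, by simpa using hdiv, by simp, ?_, ?_, by rw [hσ]; exact h₁.small⟩
  · intro m hm m' hm' hd
    by_cases h : m' ∈ M₁.G
    · exact h₁.ndvd m hm m' h hd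
    · have h1 := hnew m' hm' h
      have h2 := hbig m (Finset.mem_union_right _ hm)
      have h3 : |m.1| ≤ |m'.1| :=
        Int.le_of_dvd (by omega) ((abs_dvd_abs _ _).2 hd)
      omega
  · intro m hm m' hm' e
    by_cases h : m' ∈ M₁.G ∪ P'
    · exact h₁.uniq m hm m' (by simpa using h) e
    · have hm'' : m' ∈ M'.G := by
        simp only [Finset.union_empty, Finset.mem_union] at hm' h
        tauto
      have h1 := hnew m' hm'' (fun h' => h (Finset.mem_union_left _ h'))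
      have h2 := hbig m (Finset.mem_union_right _ hm)
      rw [e] at h2; omega

theorem aux1 {α a σ ρ ν S K : ℝ} (hα : 0 < α) (hσ : 0 < σ) (hK : 0 ≤ K * ρ)
    (h1 : ρ * ν ≤ (1 - α - a) * σ) (h2 : (S + 1 + K) * ρ ≤ a * σ) : ρ * (ν + S + 1) ≤ σ := by
  nlinarith [mul_pos hα hσ]

theorem aux2 {e ε : ℝ} (h0 : 0 < e) (h1 : e ≤ 1 / 4) (h2 : 3 * e ≤ ε) : e ^ 2 ≤ ε := by
  nlinarith

theorem aux3 {a ρ k : ℝ} (ha : 0 < a) (hρ : 0 < ρ) (hk : 1 ≤ k) : a / 4 * ρ ≤ a * (k * ρ) := by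
  have h1 : 0 < a * ρ := mul_pos ha hρ
  nlinarith

theorem aux4 {e S : ℝ} (hS : 0 ≤ S) : 5 * S * e ^ 2 ≤ (e * (1 + 5 * S)) ^ 2 := by
  have h1 : 5 * S ≤ (1 + 5 * S) ^ 2 := by nlinarith
  calc 5 * S * e ^ 2 ≤ (1 + 5 * S) ^ 2 * e ^ 2 := mul_le_mul_of_nonneg_right h1 (sq_nonneg e)
    _ = _ := by ring

theorem aux5 {a ρ k t : ℝ} (ha : a ≤ 1 / 16) (hρ : 0 < ρ) (hk : 1 ≤ k)
    (h : |t - k * ρ| ≤ a / 4 * ρ) : ρ / 2 ≤ t := by
  have h1 := (abs_le.1 h).1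
  nlinarith

theorem aux6 {w τ u M : ℝ} (hu : 0 < u) (hM : 0 < M) (hτ : 0 ≤ τ) (h1 : u / M / 2 ≤ τ ^ 2)
    (h2 : w ^ 2 ≤ 2) : 0 < τ ∧ w / τ ≤ 1 + 4 * M / u := by
  have hρ : 0 < u / M / 2 := by positivity
  have h5 : 0 < τ := by
    rcases hτ.lt_or_eq with h | h
    · exact h
    · rw [← h] at h1; nlinarith
  refine ⟨h5, ?_⟩
  have h7 : (w / τ) ^ 2 ≤ 4 * M / u := by
    rw [div_pow, div_le_iff₀ (by positivity)]
    calc _ ≤ (2 : ℝ) := h2
      _ = 4 * M / u * (u / M / 2) := by field_simp; norm_num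
      _ ≤ _ := mul_le_mul_of_nonneg_left h1 (by positivity)
  nlinarith [sq_nonneg (w / τ - 1)]

theorem aux7 {C K M Q : ℕ} (h1 : C ≤ K) (h2 : 2 * K < Q) (h3 : 0 < M) : (C : ℤ) < M * Q := by
  have : C < M * Q := by nlinarith
  exact_mod_cast this

end Step

end Crest.Agent.R81
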